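import Vale.Agent.Lib.P254.Final

namespace Vale.Agent.Lib.P254
open MeasureTheory Set

variable {n : ℕ}

/-- The affine map `x ↦ M x + c` of `ℝ^n`. -/
def affMap (M : Matrix (Fin n) (Fin n) ℝ) (c : Fin n → ℝ) (x : Fin n → ℝ) : Fin n → ℝ :=
  M.mulVec x + c

/-- `x ↦ M x` as a continuous linear map -/
noncomputable def matL (M : Matrix (Fin n) (Fin n) ℝ) : (Fin n → ℝ) →L[ℝ] (Fin n → ℝ) :=
  LinearMap.toContinuousLinearMap (Matrix.toLin' M)

theorem matL_apply (M : Matrix (Fin n) (Fin n) ℝ) (x : Fin n → ℝ) : matL M x = M.mulVec x := by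
  simp [matL, Matrix.toLin'_apply]

theorem matL_det (M : Matrix (Fin n) (Fin n) ℝ) : (matL M).det = M.det := by
  have : ((matL M : (Fin n → ℝ) →L[ℝ] (Fin n → ℝ)) : (Fin n → ℝ) →ₗ[ℝ] (Fin n → ℝ))
      = Matrix.toLin' M := by
    ext x i
    simp [matL]
  rw [ContinuousLinearMap.det, this, LinearMap.det_toLin']

theorem affMap_eq (M : Matrix (Fin n) (Fin n) ℝ) (c : Fin n → ℝ) :
    affMap M c = fun x => matL M x + c := by
  funext x; simp [affMap, matL_apply]

theorem affMap_apply (M : Matrix (Fin n) (Fin n) ℝ) (c x : Fin n → ℝ) (i : Fin n) :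
    affMap M c x i = ∑ j, M i j * x j + c i := by
  simp [affMap, Matrix.mulVec, dotProduct]

section
variable {M : Matrix (Fin n) (Fin n) ℝ} (hM : M.det ≠ 0) (c : Fin n → ℝ)
include hM

theorem affMap_injective : Function.Injective (affMap M c) := by
  intro x y h
  have h' : M.mulVec x = M.mulVec y := add_right_cancel h
  exact (Matrix.mulVec_injective_iff_isUnit.mpr
    ((Matrix.isUnit_iff_isUnit_det M).mpr (isUnit_iff_ne_zero.mpr hM))) h'

theorem affMap_isOpenMap : IsOpenMap (affMap M c) := by
  rw [affMap_eq]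
  have hs : Function.Surjective (matL M) := by
    have := Matrix.mulVec_surjective_iff_isUnit.mpr
      ((Matrix.isUnit_iff_isUnit_det M).mpr (isUnit_iff_ne_zero.mpr hM))
    intro y
    obtain ⟨x, hx⟩ := this y
    exact ⟨x, by rw [matL_apply]; exact hx⟩
  exact (Homeomorph.addRight c).isOpenMap.comp ((matL M).isOpenMap hs)

theorem integral_affine_image {K : Set (Fin n → ℝ)} (hK : IsCompact K)
    (g : (Fin n → ℝ) → ℝ) :
    ∫ y in affMap M c '' K, g y = |M.det| * ∫ x in K, g (affMap M c x) := by
  have hm : MeasurableSet K := hK.isClosed.measurableSet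
  have hd : ∀ x ∈ K, HasFDerivWithinAt (affMap M c) (matL M) K x := by
    intro x _
    rw [affMap_eq]
    exact ((matL M).hasFDerivAt.add_const c).hasFDerivWithinAt
  rw [integral_image_eq_integral_abs_det_fderiv_smul volume hm hd
    (affMap_injective hM c).injOn g]
  simp only [matL_det, smul_eq_mul]
  rw [integral_const_mul]

variable {K : Set (Fin n → ℝ)} (hK : IsCompact K)
include hK

theorem affine_vol : vol (affMap M c '' K) = |M.det| * vol K := by
  rw [vol_eq_integral, integral_affine_image hM c hK, ← vol_eq_integral]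

theorem affine_centroid (hV : vol K ≠ 0) (i : Fin n) :
    centroid (affMap M c '' K) i = affMap M c (centroid K) i := by
  rw [centroid, integral_affine_image hM c hK, affine_vol hM c hK]
  have e : ∀ x : Fin n → ℝ, affMap M c x i = ∑ j, M i j * x j + c i * 1 := by
    intro x; rw [affMap_apply]; ring
  simp_rw [e]
  have i1 : IntegrableOn (fun x : Fin n → ℝ => ∑ j, M i j * x j) K :=
    intOn_of_cont hK _ (by fun_prop)
  have i2 : IntegrableOn (fun _x : Fin n → ℝ => c i * (1:ℝ)) K := intOn_of_cont hK _ (by fun_prop)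
  rw [integral_add i1 i2, integral_finset_sum _ (fun j _ => intOn_of_cont hK _ (by fun_prop)),
    integral_const_mul, ← vol_eq_integral]
  simp_rw [integral_const_mul]
  have hs : ∑ j, M i j * ∫ x in K, x j = (∑ j, M i j * centroid K j) * vol K := by
    rw [Finset.sum_mul]
    apply Finset.sum_congr rfl
    intro j _
    rw [centroid]
    field_simp
  rw [hs]
  have hd : |M.det| ≠ 0 := abs_ne_zero.mpr hM
  field_simp

theorem affine_cov (hV : vol K ≠ 0) :
    covMatrix (affMap M c '' K) = M * covMatrix K * M.transpose := by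
  ext i j
  have hd : |M.det| ≠ 0 := abs_ne_zero.mpr hM
  have hlhs : covMatrix (affMap M c '' K) i j
      = (∫ y in affMap M c '' K, (y i - centroid (affMap M c '' K) i)
          * (y j - centroid (affMap M c '' K) j)) / vol (affMap M c '' K) := rfl
  rw [hlhs, integral_affine_image hM c hK, affine_vol hM c hK, affine_centroid hM c hK hV i,
    affine_centroid hM c hK hV j]
  have h1 : ∀ (x : Fin n → ℝ) (i : Fin n), affMap M c x i - affMap M c (centroid K) i
      = ∑ k, M i k * (x k - centroid K k) := by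
    intro x i
    rw [affMap_apply, affMap_apply]
    simp only [mul_sub, Finset.sum_sub_distrib]
    ring
  have e : ∀ x : Fin n → ℝ, (affMap M c x i - affMap M c (centroid K) i)
        * (affMap M c x j - affMap M c (centroid K) j)
      = ∑ k, ∑ l, M i k * M j l * ((x k - centroid K k) * (x l - centroid K l)) := by
    intro x
    rw [h1, h1, Finset.sum_mul_sum]
    apply Finset.sum_congr rfl; intro k _
    apply Finset.sum_congr rfl; intro l _
    ring
  simp_rw [e]
  rw [integral_finset_sum _ (fun k _ => intOn_of_cont hK _ (by fun_prop)),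
    mul_div_mul_left _ _ hd, Finset.sum_div]
  simp only [Matrix.mul_apply, Matrix.transpose_apply, Finset.sum_mul]
  rw [Finset.sum_comm]
  apply Finset.sum_congr rfl; intro k _
  rw [integral_finset_sum _ (fun l _ => intOn_of_cont hK _ (by fun_prop)), Finset.sum_div]
  apply Finset.sum_congr rfl; intro l _
  rw [integral_const_mul]
  simp only [covMatrix, Matrix.of_apply]
  ring

theorem affine_lam (hV : vol K ≠ 0) : lam (affMap M c '' K) = lam K := by
  rw [lam, lam, affine_cov hM c hK hV, affine_vol hM c hK, Matrix.det_mul, Matrix.det_mul,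
    Matrix.det_transpose, mul_pow, sq_abs]
  field_simp

end

theorem affine_body {M : Matrix (Fin n) (Fin n) ℝ} (hM : M.det ≠ 0) (c : Fin n → ℝ)
    {K : Set (Fin n → ℝ)} (hK : IsConvexBody K) : IsConvexBody (affMap M c '' K) := by
  refine ⟨hK.1.image (by rw [affMap_eq]; fun_prop), ?_, ?_⟩
  · rintro _ ⟨x, hx, rfl⟩ _ ⟨y, hy, rfl⟩ a b ha hb hab
    refine ⟨a • x + b • y, hK.2.1 hx hy ha hb hab, ?_⟩
    simp only [affMap, Matrix.mulVec_add, Matrix.mulVec_smul, smul_add]
    have : c = a • c + b • c := by rw [← add_smul, hab, one_smul]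
    nth_rewrite 1 [this]
    abel
  · obtain ⟨z, hz⟩ := hK.2.2
    refine ⟨affMap M c z, ?_⟩
    have hopen : IsOpen (affMap M c '' interior K) := affMap_isOpenMap hM c _ isOpen_interior
    exact interior_maximal (image_mono interior_subset) hopen ⟨z, hz, rfl⟩

theorem affine_isoConst {M : Matrix (Fin n) (Fin n) ℝ} (hM : M.det ≠ 0) (c : Fin n → ℝ)
    {K : Set (Fin n → ℝ)} (hK : IsConvexBody K) : isoConst (affMap M c '' K) = isoConst K := by
  rw [isoConst_eq_lam, isoConst_eq_lam, affine_lam hM c hK.1 (vol_pos_of_body hK).ne']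

end Vale.Agent.Lib.P254
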