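import Mathlib

namespace Vale.Agent.Lib.P254
open MeasureTheory Set

theorem setInt_eq_interval (g : ℝ → ℝ) :
    ∫ h in Icc (0:ℝ) 1, g h = ∫ h in (0:ℝ)..1, g h := by
  rw [integral_Icc_eq_integral_Ioc, intervalIntegral.integral_of_le zero_le_one]

theorem beta0 (k : ℕ) : ∫ h in Icc (0:ℝ) 1, (1 - h) ^ k = 1 / ((k:ℝ) + 1) := by
  rw [setInt_eq_interval]
  have := intervalIntegral.integral_comp_sub_left (fun u : ℝ => u ^ k) (a := 0) (b := 1) 1
  simp only [sub_self, sub_zero] at this
  rw [this, integral_pow]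
  simp

theorem beta1 (k : ℕ) :
    ∫ h in Icc (0:ℝ) 1, h * (1 - h) ^ k = 1 / (((k:ℝ) + 1) * ((k:ℝ) + 2)) := by
  rw [setInt_eq_interval]
  have := intervalIntegral.integral_comp_sub_left (fun u : ℝ => (1 - u) * u ^ k) (a := 0) (b := 1) 1
  simp only [sub_self, sub_zero, sub_sub_cancel] at this
  rw [this]
  have h2 : ∀ u : ℝ, (1 - u) * u ^ k = u ^ k - u ^ (k + 1) := by intro u; ring
  simp_rw [h2]
  rw [intervalIntegral.integral_sub (by apply Continuous.intervalIntegrable; fun_prop)
    (by apply Continuous.intervalIntegrable; fun_prop), integral_pow, integral_pow]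
  have h3 : ((k:ℝ) + 1) ≠ 0 := by positivity
  have h4 : ((k:ℝ) + 2) ≠ 0 := by positivity
  push_cast
  field_simp
  ring

theorem beta2 (k : ℕ) :
    ∫ h in Icc (0:ℝ) 1, h ^ 2 * (1 - h) ^ k
      = 2 / (((k:ℝ) + 1) * ((k:ℝ) + 2) * ((k:ℝ) + 3)) := by
  rw [setInt_eq_interval]
  have := intervalIntegral.integral_comp_sub_left (fun u : ℝ => (1 - u) ^ 2 * u ^ k)
    (a := 0) (b := 1) 1
  simp only [sub_self, sub_zero, sub_sub_cancel] at this
  rw [this]
  have h2 : ∀ u : ℝ, (1 - u) ^ 2 * u ^ k = u ^ k - 2 * u ^ (k + 1) + u ^ (k + 2) := by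
    intro u; ring
  simp_rw [h2]
  rw [intervalIntegral.integral_add (by apply Continuous.intervalIntegrable; fun_prop)
    (by apply Continuous.intervalIntegrable; fun_prop),
    intervalIntegral.integral_sub (by apply Continuous.intervalIntegrable; fun_prop)
    (by apply Continuous.intervalIntegrable; fun_prop),
    intervalIntegral.integral_const_mul, integral_pow, integral_pow, integral_pow]
  have h3 : ((k:ℝ) + 1) ≠ 0 := by positivity
  have h4 : ((k:ℝ) + 2) ≠ 0 := by positivity
  have h5 : ((k:ℝ) + 3) ≠ 0 := by positivity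
  push_cast
  field_simp
  ring

end Vale.Agent.Lib.P254
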