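import Vale.Agent.Lib.P254.Lower

namespace Vale.Agent.Lib.P254
open MeasureTheory Set

variable {n : ℕ}

/-- The bipyramid over `K ⊆ ℝ^n` in `ℝ^(n+1)` with apexes `(1, 0, …, 0)` and `(-t, 0, …, 0)`:
the union of the pyramid over `K` with apex `(1, 0, …, 0)` and of the lower pyramid over `K` with
apex `(-t, 0, …, 0)`; the segment joining the two apexes meets the base hyperplane `x_0 = 0` at
the origin. -/
def bipyramid {n : ℕ} (t : ℝ) (K : Set (Fin n → ℝ)) : Set (Fin (n + 1) → ℝ) :=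
  pyramid K ∪ lowerPyramid t K

variable {t : ℝ} {K : Set (Fin n → ℝ)}

theorem isCompact_bipyramid (ht : 0 < t) (hK : IsCompact K) : IsCompact (bipyramid t K) :=
  (isCompact_pyramid hK).union (isCompact_lowerPyramid ht hK)

theorem aedisjoint_bip (t : ℝ) (K : Set (Fin n → ℝ)) :
    AEDisjoint (volume : Measure (Fin (n + 1) → ℝ)) (pyramid K) (lowerPyramid t K) := by
  have hsub : pyramid K ∩ lowerPyramid t K ⊆ {x : Fin (n + 1) → ℝ | x 0 = 0} := by
    rintro x ⟨h1, h2⟩
    exact le_antisymm h2.2.1 h1.1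
  have h0 : (volume : Measure (Fin (n + 1) → ℝ)) {x : Fin (n + 1) → ℝ | x 0 = 0} = 0 := by
    rw [volume_pi]
    exact Measure.pi_hyperplane (fun _ => (volume : Measure ℝ)) 0 0
  exact measure_mono_null hsub h0

theorem integral_bipyramid (ht : 0 < t) (hK : IsCompact K) (f : (Fin (n + 1) → ℝ) → ℝ)
    (hf : Continuous f) :
    ∫ x in bipyramid t K, f x = (∫ x in pyramid K, f x) + ∫ x in lowerPyramid t K, f x := by
  have hL : IsCompact (lowerPyramid t K) := isCompact_lowerPyramid ht hK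
  exact setIntegral_union₀ (aedisjoint_bip t K) hL.isClosed.measurableSet.nullMeasurableSet
    (intOn_of_cont (isCompact_pyramid hK) f hf) (intOn_of_cont hL f hf)

theorem bip_vol (ht : 0 < t) (hK : IsCompact K) :
    vol (bipyramid t K) = (1 + t) * (vol K / ((n:ℝ) + 1)) := by
  rw [vol_eq_integral, integral_bipyramid ht hK _ (by fun_prop), ← vol_eq_integral,
    ← vol_eq_integral, pyramid_vol hK, lower_vol ht hK]
  ring

theorem bip_A0 (ht : 0 < t) (hK : IsCompact K) :
    ∫ x in bipyramid t K, x 0 = (1 - t ^ 2) * (vol K / (((n:ℝ) + 1) * ((n:ℝ) + 2))) := by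
  rw [integral_bipyramid ht hK _ (by fun_prop), pyramid_A0 hK, lower_A0 ht hK]
  ring

theorem bip_As (ht : 0 < t) (hK : IsCompact K) (i : Fin n) :
    ∫ x in bipyramid t K, x i.succ = (1 + t) * ((∫ x in K, x i) / ((n:ℝ) + 2)) := by
  rw [integral_bipyramid ht hK _ (by fun_prop), pyramid_As hK, lower_As ht hK]
  ring

theorem bip_B00 (ht : 0 < t) (hK : IsCompact K) :
    ∫ x in bipyramid t K, x 0 * x 0
      = (1 + t ^ 3) * (2 * vol K / (((n:ℝ) + 1) * ((n:ℝ) + 2) * ((n:ℝ) + 3))) := by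
  rw [integral_bipyramid ht hK _ (by fun_prop), pyramid_B00 hK, lower_B00 ht hK]
  ring

theorem bip_B0s (ht : 0 < t) (hK : IsCompact K) (i : Fin n) :
    ∫ x in bipyramid t K, x 0 * x i.succ
      = (1 - t ^ 2) * ((∫ x in K, x i) / (((n:ℝ) + 2) * ((n:ℝ) + 3))) := by
  rw [integral_bipyramid ht hK _ (by fun_prop), pyramid_B0s hK, lower_B0s ht hK]
  ring

theorem bip_Bss (ht : 0 < t) (hK : IsCompact K) (i j : Fin n) :
    ∫ x in bipyramid t K, x i.succ * x j.succ = (1 + t) * ((∫ x in K, x i * x j) / ((n:ℝ) + 3)) := by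
  rw [integral_bipyramid ht hK _ (by fun_prop), pyramid_Bss hK, lower_Bss ht hK]
  ring

/-- auxiliary description of the bipyramid over a convex set containing the origin -/
theorem bipyramid_eq_aux (ht : 0 < t) (hc : Convex ℝ K) (h0 : (0 : Fin n → ℝ) ∈ K) :
    bipyramid t K = {x : Fin (n + 1) → ℝ | ∃ (s : ℝ) (k : Fin n → ℝ), 0 ≤ s ∧ s ≤ 1 - x 0 ∧
      s ≤ 1 + x 0 / t ∧ k ∈ K ∧ ∀ i : Fin n, x i.succ = s * k i} := by
  ext x
  constructor
  · rintro (⟨h1, h2, k, hk, hx⟩ | ⟨h1, h2, k, hk, hx⟩)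
    · refine ⟨1 - x 0, k, by linarith, le_refl _, ?_, hk, hx⟩
      have : 0 ≤ x 0 / t := div_nonneg h1 ht.le
      linarith
    · have h3 : -1 ≤ x 0 / t := by
        rw [le_div_iff₀ ht]; linarith
      have h4 : x 0 / t ≤ 0 := div_nonpos_of_nonpos_of_nonneg h2 ht.le
      refine ⟨1 + x 0 / t, k, by linarith, by linarith, le_refl _, hk, hx⟩
  · rintro ⟨s, k, hs0, hs1, hs2, hk, hx⟩
    by_cases hx0 : 0 ≤ x 0
    · left
      refine ⟨hx0, by linarith, ?_⟩
      rcases (le_trans hs0 hs1).eq_or_lt with h | h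
      · have hs : s = 0 := by linarith
        refine ⟨k, hk, fun i => ?_⟩
        rw [hx i, hs, ← h]
      · refine ⟨(s / (1 - x 0)) • k, hc.smul_mem_of_zero_mem h0 hk
          ⟨div_nonneg hs0 h.le, (div_le_one h).mpr hs1⟩, fun i => ?_⟩
        rw [hx i]
        simp only [Pi.smul_apply, smul_eq_mul]
        field_simp
    · right
      replace hx0 : x 0 < 0 := not_le.mp hx0
      have h3 : -1 ≤ x 0 / t := by linarith
      have h5 : -t ≤ x 0 := by
        rw [le_div_iff₀ ht] at h3; linarith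
      refine ⟨h5, hx0.le, ?_⟩
      rcases (le_trans hs0 hs2).eq_or_lt with h | h
      · have hs : s = 0 := by linarith
        refine ⟨k, hk, fun i => ?_⟩
        rw [hx i, hs, ← h]
      · refine ⟨(s / (1 + x 0 / t)) • k, hc.smul_mem_of_zero_mem h0 hk
          ⟨div_nonneg hs0 h.le, (div_le_one h).mpr hs2⟩, fun i => ?_⟩
        rw [hx i]
        simp only [Pi.smul_apply, smul_eq_mul]
        have h6 : 0 < t + x 0 := by
          have h7 := mul_pos h ht
          rw [add_mul, div_mul_cancel₀ _ ht.ne'] at h7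
          linarith
        have h8 : t + x 0 ≠ 0 := h6.ne'
        field_simp

theorem bipyramid_convex (ht : 0 < t) (hc : Convex ℝ K) (h0 : (0 : Fin n → ℝ) ∈ K) :
    Convex ℝ (bipyramid t K) := by
  rw [bipyramid_eq_aux ht hc h0]
  intro x hx y hy a b ha hb hab
  obtain ⟨sx, kx, hsx0, hsx1, hsx2, hkx, hxe⟩ := hx
  obtain ⟨sy, ky, hsy0, hsy1, hsy2, hky, hye⟩ := hy
  have hz : (a • x + b • y) 0 = a * x 0 + b * y 0 := by simp
  have hs : 0 ≤ a * sx := mul_nonneg ha hsx0
  have ht' : 0 ≤ b * sy := mul_nonneg hb hsy0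
  have hzs : ∀ i : Fin n, (a • x + b • y) i.succ = a * sx * kx i + b * sy * ky i := by
    intro i
    simp only [Pi.add_apply, Pi.smul_apply, smul_eq_mul, hxe i, hye i]
    ring
  have hb' : b = 1 - a := by linarith
  have e1 : a * sx + b * sy ≤ 1 - (a • x + b • y) 0 := by
    rw [hz]
    have h1 : a * sx ≤ a * (1 - x 0) := mul_le_mul_of_nonneg_left hsx1 ha
    have h2 : b * sy ≤ b * (1 - y 0) := mul_le_mul_of_nonneg_left hsy1 hb
    have : a * (1 - x 0) + b * (1 - y 0) = 1 - (a * x 0 + b * y 0) := by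
      linear_combination hab
    linarith
  have e2 : a * sx + b * sy ≤ 1 + (a • x + b • y) 0 / t := by
    rw [hz]
    have h1 : a * sx ≤ a * (1 + x 0 / t) := mul_le_mul_of_nonneg_left hsx2 ha
    have h2 : b * sy ≤ b * (1 + y 0 / t) := mul_le_mul_of_nonneg_left hsy2 hb
    have : a * (1 + x 0 / t) + b * (1 + y 0 / t) = 1 + (a * x 0 + b * y 0) / t := by
      rw [hb']; ring
    linarith
  rcases (add_nonneg hs ht').eq_or_lt with h | hpos
  · have hs0 : a * sx = 0 := by linarith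
    have ht0 : b * sy = 0 := by linarith
    refine ⟨0, kx, le_refl _, ?_, ?_, hkx, fun i => ?_⟩
    · rw [h]; exact e1
    · rw [h]; exact e2
    · rw [hzs i, hs0, ht0]; ring
  · refine ⟨a * sx + b * sy, (a * sx / (a * sx + b * sy)) • kx + (b * sy / (a * sx + b * sy)) • ky,
      hpos.le, e1, e2, ?_, fun i => ?_⟩
    · apply hc hkx hky (div_nonneg hs hpos.le) (div_nonneg ht' hpos.le)
      field_simp
    · rw [hzs i]
      simp only [Pi.add_apply, Pi.smul_apply, smul_eq_mul]
      field_simp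

theorem bipyramid_body (ht : 0 < t) (hK : IsConvexBody K) (h0 : (0 : Fin n → ℝ) ∈ K) :
    IsConvexBody (bipyramid t K) :=
  ⟨isCompact_bipyramid ht hK.1, bipyramid_convex ht hK.2.1 h0,
    (pyramid_interior hK.2.2).mono (interior_mono subset_union_left)⟩

end Vale.Agent.Lib.P254
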