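import Vale.Agent.Lib.P254.BipHull

namespace Vale.Agent.Lib.P254
open Set

variable {n : ℕ}

/-- the matrix with columns `a - w, v_1 - v_0, …, v_n - v_0` -/
def frameMat (n : ℕ) (a w : Fin (n + 1) → ℝ) (v : Fin (n + 1) → Fin (n + 1) → ℝ) :
    Matrix (Fin (n + 1)) (Fin (n + 1)) ℝ :=
  Matrix.of fun r j => Fin.cases (a r - w r) (fun i => v i.succ r - v 0 r) j

theorem frameMat_mulVec (a w : Fin (n + 1) → ℝ) (v : Fin (n + 1) → Fin (n + 1) → ℝ)
    (x : Fin (n + 1) → ℝ) (r : Fin (n + 1)) :
    (frameMat n a w v).mulVec x r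
      = (a r - w r) * x 0 + ∑ i : Fin n, (v i.succ r - v 0 r) * x i.succ := by
  simp [Matrix.mulVec, dotProduct, Fin.sum_univ_succ, frameMat]

theorem frame_apply (a w : Fin (n + 1) → ℝ) (v : Fin (n + 1) → Fin (n + 1) → ℝ)
    (x : Fin (n + 1) → ℝ) (r : Fin (n + 1)) :
    affMap (frameMat n a w v) w x r
      = (a r - w r) * x 0 + ∑ i : Fin n, (v i.succ r - v 0 r) * x i.succ + w r := by
  show (frameMat n a w v).mulVec x r + w r = _
  rw [frameMat_mulVec]

section
variable {a a' : Fin (n + 1) → ℝ} {v : Fin (n + 1) → Fin (n + 1) → ℝ} {β : Fin (n + 1) → ℝ}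
  (hβ1 : ∑ i, β i = 1)
include hβ1

theorem frame_w (r : Fin (n + 1)) :
    (∑ j, β j • v j) r = β 0 * v 0 r + ∑ i : Fin n, β i.succ * v i.succ r := by
  simp [Finset.sum_apply, Fin.sum_univ_succ]

theorem frame_apexUp : affMap (frameMat n a (∑ j, β j • v j) v) (∑ j, β j • v j) (apexUp n) = a := by
  ext r
  rw [frame_apply]
  simp [apexUp]

theorem frame_apexDown {s : ℝ} (hs0 : 0 < s)
    (hcross : (1 - s) • a + s • a' = ∑ i, β i • v i) :
    affMap (frameMat n a (∑ j, β j • v j) v) (∑ j, β j • v j) (apexDown n ((1 - s) / s)) = a' := by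
  ext r
  rw [frame_apply]
  have hr : (1 - s) * a r + s * a' r = (∑ j, β j • v j) r := by
    have := congrFun hcross r
    simpa using this
  simp only [apexDown, Fin.cons_zero, Fin.cons_succ, Pi.zero_apply, mul_zero,
    Finset.sum_const_zero, add_zero]
  rw [← hr]
  field_simp
  ring

theorem frame_baseVert (j : Fin (n + 1)) :
    affMap (frameMat n a (∑ j, β j • v j) v) (∑ j, β j • v j)
      (baseVert n (fun i => β i.succ) j) = v j := by
  have hb0 : β 0 = 1 - ∑ i : Fin n, β i.succ := by
    rw [Fin.sum_univ_succ] at hβ1; linarith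
  ext r
  rw [frame_apply, frame_w hβ1]
  simp only [baseVert, Fin.cons_zero, Fin.cons_succ, mul_zero, zero_add, Pi.sub_apply]
  have e : ∀ i : Fin n, (v i.succ r - v 0 r) * (sVert n j i - β i.succ)
      = (v i.succ r - v 0 r) * sVert n j i - β i.succ * v i.succ r + β i.succ * v 0 r := by
    intro i; ring
  simp_rw [e]
  rw [Finset.sum_add_distrib, Finset.sum_sub_distrib, ← Finset.sum_mul, hb0]
  refine Fin.cases ?_ (fun k => ?_) j
  · simp [sVert]
    ring
  · have : ∑ i : Fin n, (v i.succ r - v 0 r) * sVert n k.succ i = v k.succ r - v 0 r := by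
      simp [sVert, Pi.single_apply]
    rw [this]
    ring

theorem frame_det_ne
    (hind : AffineIndependent ℝ (Fin.cons a v : Fin (n + 2) → Fin (n + 1) → ℝ)) :
    (frameMat n a (∑ j, β j • v j) v).det ≠ 0 := by
  have hinj : Function.Injective (frameMat n a (∑ j, β j • v j) v).mulVec := by
    intro x y hxy
    have h0 : (frameMat n a (∑ j, β j • v j) v).mulVec (x - y) = 0 := by
      rw [Matrix.mulVec_sub, hxy, sub_self]
    set d := x - y with hd
    let W : Fin (n + 2) → ℝ := Fin.cons (d 0)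
      (Fin.cons (-(d 0) * β 0 - ∑ i : Fin n, d i.succ) (fun i : Fin n => d i.succ - d 0 * β i.succ))
    have hW1 : ∑ e, W e = 0 := by
      rw [Fin.sum_univ_succ, Fin.sum_univ_succ]
      simp only [W, Fin.cons_zero, Fin.cons_succ]
      rw [Finset.sum_sub_distrib, ← Finset.mul_sum]
      have hb : ∑ i : Fin n, β i.succ = 1 - β 0 := by
        rw [Fin.sum_univ_succ] at hβ1; linarith
      rw [hb]
      ring
    have hW2 : ∑ e, W e • (Fin.cons a v : Fin (n + 2) → Fin (n + 1) → ℝ) e = 0 := by
      ext r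
      have h0r := congrFun h0 r
      rw [frameMat_mulVec, frame_w hβ1] at h0r
      simp only [Pi.zero_apply] at h0r
      rw [Fin.sum_univ_succ, Fin.sum_univ_succ]
      simp only [W, Fin.cons_zero, Fin.cons_succ, Pi.add_apply, Pi.smul_apply, smul_eq_mul,
        Finset.sum_apply, Pi.zero_apply]
      have e1 : ∀ i : Fin n, (d i.succ - d 0 * β i.succ) * v i.succ r
          = d i.succ * v i.succ r - d 0 * (β i.succ * v i.succ r) := by intro i; ring
      have e2 : ∀ i : Fin n, (v i.succ r - v 0 r) * d i.succ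
          = d i.succ * v i.succ r - d i.succ * v 0 r := by intro i; ring
      simp_rw [e1]
      simp_rw [e2] at h0r
      rw [Finset.sum_sub_distrib, ← Finset.mul_sum]
      rw [Finset.sum_sub_distrib, ← Finset.sum_mul] at h0r
      linear_combination h0r
    have hz := (affineIndependent_iff.mp hind) Finset.univ W hW1 hW2
    have hd0 : d 0 = 0 := by
      have := hz 0 (Finset.mem_univ _)
      simpa [W] using this
    have hds : ∀ i : Fin n, d i.succ = 0 := by
      intro i
      have := hz i.succ.succ (Finset.mem_univ _)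
      simp only [W, Fin.cons_succ] at this
      rw [hd0] at this
      linarith
    have hdz : d = 0 := by
      ext i
      refine Fin.cases ?_ (fun k => ?_) i
      · exact hd0
      · exact hds k
    exact sub_eq_zero.mp hdz
  have hu := Matrix.mulVec_injective_iff_isUnit.mp hinj
  exact ((Matrix.isUnit_iff_isUnit_det _).mp hu).ne_zero

end

/-- the affine map `x ↦ M x + c` as an affine map -/
noncomputable def affMapA (M : Matrix (Fin n) (Fin n) ℝ) (c : Fin n → ℝ) :
    (Fin n → ℝ) →ᵃ[ℝ] (Fin n → ℝ) :=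
  (Matrix.toLin' M).toAffineMap + AffineMap.const ℝ (Fin n → ℝ) c

theorem affMapA_coe (M : Matrix (Fin n) (Fin n) ℝ) (c : Fin n → ℝ) :
    (affMapA M c : (Fin n → ℝ) → (Fin n → ℝ)) = affMap M c := by
  funext x
  simp [affMapA, affMap]

theorem affMap_image_convexHull (M : Matrix (Fin n) (Fin n) ℝ) (c : Fin n → ℝ)
    (s : Set (Fin n → ℝ)) : affMap M c '' convexHull ℝ s = convexHull ℝ (affMap M c '' s) := by
  rw [← affMapA_coe]
  exact (affMapA M c).image_convexHull s

/-- The convex hull of an `n`-simplex `conv(v)` and a segment `[a, a']` crossing it is an affine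
image of a normal-form bipyramid. -/
theorem hull_eq_image {a a' : Fin (n + 1) → ℝ} {v : Fin (n + 1) → Fin (n + 1) → ℝ}
    {β : Fin (n + 1) → ℝ} (hβ0 : ∀ i, 0 ≤ β i) (hβ1 : ∑ i, β i = 1) {s : ℝ} (hs0 : 0 < s)
    (hs1 : s < 1) (hcross : (1 - s) • a + s • a' = ∑ i, β i • v i) :
    convexHull ℝ (insert a (insert a' (range v)))
      = affMap (frameMat n a (∑ j, β j • v j) v) (∑ j, β j • v j) ''
          bipyramid ((1 - s) / s) (shiftedSimplex n (fun i => β i.succ)) := by
  have hp : (fun i : Fin n => β i.succ) ∈ solidSimplex n := by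
    refine ⟨fun i => hβ0 i.succ, ?_⟩
    rw [Fin.sum_univ_succ] at hβ1
    have := hβ0 0
    linarith
  have ht : 0 < (1 - s) / s := div_pos (by linarith) hs0
  have hcomp : (affMap (frameMat n a (∑ j, β j • v j) v) (∑ j, β j • v j)
      ∘ baseVert n (fun i => β i.succ)) = v := funext fun j => frame_baseVert hβ1 j
  rw [bipSimplex_eq_hull hp ht, affMap_image_convexHull, image_insert_eq, image_insert_eq,
    ← range_comp, frame_apexUp hβ1, frame_apexDown hβ1 hs0 hcross, hcomp]

end Vale.Agent.Lib.P254
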