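import Vale.Agent.Lib.P254.TowerSimplex

namespace Vale.Agent.Lib.P254
open Set

variable {n : ℕ}

/-- `n + 3` points of `ℝ^(n+1)` whose convex hull has nonempty interior consist of an affinely
independent family of `n + 2` points and one more point of their affine span (up to
repetitions). -/
theorem few_points_reduce (p : Fin (n + 3) → (Fin (n + 1) → ℝ))
    (hint : (interior (convexHull ℝ (range p))).Nonempty) :
    ∃ (u : Fin (n + 2) → (Fin (n + 1) → ℝ)) (c : Fin (n + 2) → ℝ),
      AffineIndependent ℝ u ∧ ∑ i, c i = 1 ∧
      convexHull ℝ (range p) = convexHull ℝ (insert (∑ i, c i • u i) (range u)) := by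
  classical
  have hspan : affineSpan ℝ (range p) = ⊤ :=
    interior_convexHull_nonempty_iff_affineSpan_eq_top.mp hint
  obtain ⟨t, hts, htspan, htind⟩ := exists_affineIndependent ℝ (Fin (n + 1) → ℝ) (range p)
  rw [hspan] at htspan
  have htfin : t.Finite := (finite_range p).subset hts
  haveI : Fintype t := htfin.fintype
  have hcard : Fintype.card t = n + 2 := by
    have h := htind.affineSpan_eq_top_iff_card_eq_finrank_add_one.mp
      (by rw [Subtype.range_coe]; exact htspan)
    rw [h]
    simp
  let e : t ≃ Fin (n + 2) := Fintype.equivFinOfCardEq hcard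
  let u : Fin (n + 2) → (Fin (n + 1) → ℝ) := fun i => (e.symm i : Fin (n + 1) → ℝ)
  have hu : AffineIndependent ℝ u := htind.comp_embedding e.symm.toEmbedding
  have hru : range u = t := by
    ext x
    constructor
    · rintro ⟨i, rfl⟩
      exact (e.symm i).2
    · intro hx
      exact ⟨e ⟨x, hx⟩, by simp [u]⟩
  have hz : ∃ z ∈ range p, range p ⊆ insert z t := by
    by_cases hsub : range p ⊆ t
    · exact ⟨p 0, ⟨0, rfl⟩, hsub.trans (subset_insert _ _)⟩
    · obtain ⟨x, hx, hxt⟩ := not_subset.mp hsub
      refine ⟨x, hx, ?_⟩
      intro y hy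
      by_contra hcon
      have hyx : y ≠ x := fun h => hcon (h ▸ mem_insert _ _)
      have hyt : y ∉ t := fun h => hcon (mem_insert_of_mem _ h)
      have hsub2 : insert y (insert x t) ⊆ range p := insert_subset hy (insert_subset hx hts)
      have hc1 : (insert y (insert x t)).ncard = t.ncard + 2 := by
        rw [ncard_insert_of_notMem (by simp [hyx, hyt]) (htfin.insert x),
          ncard_insert_of_notMem hxt htfin]
      have hc2 : t.ncard = n + 2 := by
        rw [ncard_eq_toFinset_card' t, toFinset_card, hcard]
      have hc3 : (range p).ncard ≤ n + 3 := by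
        rw [← image_univ]
        have := ncard_image_le (f := p) (s := univ) finite_univ
        simpa using this
      have hc4 := ncard_le_ncard hsub2 (finite_range p)
      omega
  obtain ⟨z, hzp, hzsub⟩ := hz
  have hzspan : z ∈ affineSpan ℝ (range u) := by
    rw [hru, htspan]
    exact AffineSubspace.mem_top ℝ _ z
  obtain ⟨c, hc1, hzc⟩ := eq_affineCombination_of_mem_affineSpan_of_fintype hzspan
  rw [Finset.affineCombination_eq_linear_combination _ _ _ hc1] at hzc
  refine ⟨u, c, hu, hc1, ?_⟩
  rw [← hzc, hru]
  apply Subset.antisymm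
  · exact convexHull_mono hzsub
  · exact convexHull_mono (insert_subset hzp hts)

/-- The strong isotropic constant conjecture for the convex hull of `n + 3` points of
`ℝ^(n+1)`. -/
theorem few_points (p : Fin (n + 3) → (Fin (n + 1) → ℝ))
    (hint : (interior (convexHull ℝ (range p))).Nonempty) :
    isoConst (convexHull ℝ (range p)) ≤ isoConst (solidSimplex (n + 1)) ∧
    (isoConst (convexHull ℝ (range p)) = isoConst (solidSimplex (n + 1)) ↔
      IsSimplex (convexHull ℝ (range p))) := by
  obtain ⟨u, c, hu, hc1, hK⟩ := few_points_reduce p hint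
  rw [hK]
  obtain ⟨-, -, hle, heq⟩ := plus_final hu hc1
  exact ⟨hle, heq.trans (plus_isSimplex_iff hu hc1).symm⟩

end Vale.Agent.Lib.P254
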