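import Vale.Agent.Lib.P254.BipInherit
import Vale.Agent.Lib.P254.TowerFew

namespace Vale.Agent.Lib.P254
open MeasureTheory Set

variable {n : ℕ}

/-- matrix of the shear `x ↦ x₀ d + (0, x₁, …, x_n)` -/
def shearMat (n : ℕ) (d : Fin (n + 1) → ℝ) : Matrix (Fin (n + 1)) (Fin (n + 1)) ℝ :=
  Matrix.of fun r j => Fin.cases (d r) (fun i => if i.succ = r then 1 else 0) j

theorem shearMat_mulVec_zero (d x : Fin (n + 1) → ℝ) :
    (shearMat n d).mulVec x 0 = d 0 * x 0 := by
  simp [Matrix.mulVec, dotProduct, Fin.sum_univ_succ, shearMat]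

theorem shearMat_mulVec_succ (d x : Fin (n + 1) → ℝ) (k : Fin n) :
    (shearMat n d).mulVec x k.succ = d k.succ * x 0 + x k.succ := by
  simp [Matrix.mulVec, dotProduct, Fin.sum_univ_succ, shearMat]

theorem shearMat_det_ne {d : Fin (n + 1) → ℝ} (hd : d 0 ≠ 0) : (shearMat n d).det ≠ 0 := by
  have hinj : Function.Injective (shearMat n d).mulVec := by
    intro x y hxy
    have h0 := congrFun hxy 0
    rw [shearMat_mulVec_zero, shearMat_mulVec_zero] at h0
    have hx0 : x 0 = y 0 := mul_left_cancel₀ hd h0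
    ext i
    refine Fin.cases hx0 (fun k => ?_) i
    have hk := congrFun hxy k.succ
    rw [shearMat_mulVec_succ, shearMat_mulVec_succ, hx0] at hk
    linarith
  exact ((Matrix.isUnit_iff_isUnit_det _).mp (Matrix.mulVec_injective_iff_isUnit.mp hinj)).ne_zero

/-- Strict inheritance of the simplex bound by bipyramids. -/
theorem bip_inherit_lt {t : ℝ} {K : Set (Fin (n + 1) → ℝ)} (ht : 0 < t)
    (hK : IsConvexBody K) (h0 : (0 : Fin (n + 1) → ℝ) ∈ K)
    (h : isoConst K < isoConst (solidSimplex (n + 1))) :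
    isoConst (bipyramid t K) < isoConst (solidSimplex (n + 2)) := by
  have hB := bipyramid_body ht hK h0
  have hS1 := solidSimplex_body (n + 1)
  have hS2 := solidSimplex_body (n + 2)
  rw [isoConst_lt_iff (by omega) (lam_nonneg_body hK) (lam_nonneg_body hS1)] at h
  have e : lam (solidSimplex (n + 2)) = cn (n + 1) * lam (solidSimplex (n + 1)) := by
    rw [← pyramid_solidSimplex, pyramid_lam_body hS1]
  have goal' : isoConst (bipyramid t K) < isoConst (solidSimplex (n + 1 + 1)) := by
    rw [isoConst_lt_iff (by omega) (lam_nonneg_body hB) (lam_nonneg_body hS2)]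
    show lam (bipyramid t K) < lam (solidSimplex (n + 2))
    rw [e]
    calc lam (bipyramid t K) ≤ cn (n + 1) * lam K :=
          bip_lam_le ht hK.1 (vol_pos_of_body hK).ne' hK.2.1 h0
      _ < cn (n + 1) * lam (solidSimplex (n + 1)) :=
          mul_lt_mul_of_pos_left h (cn_pos _)
  exact goal'

section
variable {K : Set (Fin (n + 1) → ℝ)} {q : Fin (n + 1) → ℝ}

theorem shift_body (hK : IsConvexBody K) :
    IsConvexBody (affMap (1 : Matrix (Fin (n + 1)) (Fin (n + 1)) ℝ) (-q) '' K) :=
  affine_body (by simp) (-q) hK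

theorem shift_zero_mem (hq : q ∈ K) :
    (0 : Fin (n + 1) → ℝ) ∈ affMap (1 : Matrix (Fin (n + 1)) (Fin (n + 1)) ℝ) (-q) '' K :=
  ⟨q, hq, by simp [affMap]⟩

theorem shift_isoConst (hK : IsConvexBody K) :
    isoConst (affMap (1 : Matrix (Fin (n + 1)) (Fin (n + 1)) ℝ) (-q) '' K) = isoConst K :=
  affine_isoConst (by simp) (-q) hK

end

section
variable {K : Set (Fin (n + 1) → ℝ)} {q : Fin (n + 1) → ℝ} {a a' : Fin (n + 2) → ℝ} {s : ℝ}

/-- The double cone over `{0} × K` with apexes `a`, `a'`, whose joining segment crosses the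
hyperplane `x₀ = 0` at `(0, q)`, is an affine image of the model bipyramid over `K - q`. -/
theorem doubleCone_eq_image (hK : IsConvexBody K) (hq : q ∈ K) (hs0 : 0 < s) (hs1 : s < 1)
    (hcross : (1 - s) • a + s • a' = Fin.cons 0 q) :
    convexHull ℝ (insert a (insert a' ((fun k => (Fin.cons 0 k : Fin (n + 2) → ℝ)) '' K)))
      = affMap (shearMat (n + 1) (a - Fin.cons 0 q)) (Fin.cons 0 q) ''
          bipyramid ((1 - s) / s) (affMap 1 (-q) '' K) := by
  have hbody' := shift_body (q := q) hK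
  have h0' := shift_zero_mem hq
  have ht : 0 < (1 - s) / s := div_pos (by linarith) hs0
  have hhull := bipyramid_hull ht (affMap (1 : Matrix (Fin (n + 1)) (Fin (n + 1)) ℝ) (-q) '' K)
    (by rw [hbody'.2.1.convexHull_eq]; exact h0')
  rw [hbody'.2.1.convexHull_eq] at hhull
  rw [hhull, affMap_image_convexHull, image_insert_eq, image_insert_eq]
  have e1 : affMap (shearMat (n + 1) (a - Fin.cons 0 q)) (Fin.cons 0 q) (apexUp (n + 1)) = a := by
    ext r
    refine Fin.cases ?_ (fun k => ?_) r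
    · show (shearMat (n + 1) (a - Fin.cons 0 q)).mulVec (apexUp (n + 1)) 0
        + (Fin.cons 0 q : Fin (n + 2) → ℝ) 0 = a 0
      rw [shearMat_mulVec_zero]
      simp [apexUp]
    · show (shearMat (n + 1) (a - Fin.cons 0 q)).mulVec (apexUp (n + 1)) k.succ
        + (Fin.cons 0 q : Fin (n + 2) → ℝ) k.succ = a k.succ
      rw [shearMat_mulVec_succ]
      simp [apexUp]
  have e2 : affMap (shearMat (n + 1) (a - Fin.cons 0 q)) (Fin.cons 0 q)
      (apexDown (n + 1) ((1 - s) / s)) = a' := by
    ext r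
    refine Fin.cases ?_ (fun k => ?_) r
    · show (shearMat (n + 1) (a - Fin.cons 0 q)).mulVec (apexDown (n + 1) ((1 - s) / s)) 0
        + (Fin.cons 0 q : Fin (n + 2) → ℝ) 0 = a' 0
      rw [shearMat_mulVec_zero]
      have h := congrFun hcross 0
      simp only [Pi.add_apply, Pi.smul_apply, smul_eq_mul, Fin.cons_zero] at h
      simp only [apexDown, Fin.cons_zero, Pi.sub_apply]
      field_simp
      linarith
    · show (shearMat (n + 1) (a - Fin.cons 0 q)).mulVec (apexDown (n + 1) ((1 - s) / s)) k.succ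
        + (Fin.cons 0 q : Fin (n + 2) → ℝ) k.succ = a' k.succ
      rw [shearMat_mulVec_succ]
      have h := congrFun hcross k.succ
      simp only [Pi.add_apply, Pi.smul_apply, smul_eq_mul, Fin.cons_succ] at h
      simp only [apexDown, Fin.cons_zero, Fin.cons_succ, Pi.sub_apply, Pi.zero_apply]
      field_simp
      linarith
  have hpt : ∀ k : Fin (n + 1) → ℝ,
      affMap (shearMat (n + 1) (a - Fin.cons 0 q)) (Fin.cons 0 q)
        (consL (n + 1) (affMap 1 (-q) k)) = Fin.cons 0 k := by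
    intro k
    ext r
    refine Fin.cases ?_ (fun j => ?_) r
    · show (shearMat (n + 1) (a - Fin.cons 0 q)).mulVec (consL (n + 1) (affMap 1 (-q) k)) 0
        + (Fin.cons 0 q : Fin (n + 2) → ℝ) 0 = (Fin.cons 0 k : Fin (n + 2) → ℝ) 0
      rw [shearMat_mulVec_zero]
      simp [consL]
    · show (shearMat (n + 1) (a - Fin.cons 0 q)).mulVec (consL (n + 1) (affMap 1 (-q) k)) j.succ
        + (Fin.cons 0 q : Fin (n + 2) → ℝ) j.succ = (Fin.cons 0 k : Fin (n + 2) → ℝ) j.succ
      rw [shearMat_mulVec_succ]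
      simp [consL, affMap]
  have e3 : affMap (shearMat (n + 1) (a - Fin.cons 0 q)) (Fin.cons 0 q) ''
        (consL (n + 1) '' (affMap 1 (-q) '' K))
      = (fun k => (Fin.cons 0 k : Fin (n + 2) → ℝ)) '' K := by
    ext y
    constructor
    · rintro ⟨_, ⟨_, ⟨k, hk, rfl⟩, rfl⟩, rfl⟩
      exact ⟨k, hk, (hpt k).symm⟩
    · rintro ⟨k, hk, rfl⟩
      exact ⟨_, ⟨_, ⟨k, hk, rfl⟩, rfl⟩, hpt k⟩
  rw [e1, e2, e3]

theorem doubleCone_body (hK : IsConvexBody K) (hq : q ∈ K) (ha : a 0 ≠ 0) (hs0 : 0 < s)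
    (hs1 : s < 1) (hcross : (1 - s) • a + s • a' = Fin.cons 0 q) :
    IsConvexBody
      (convexHull ℝ (insert a (insert a' ((fun k => (Fin.cons 0 k : Fin (n + 2) → ℝ)) '' K)))) := by
  rw [doubleCone_eq_image hK hq hs0 hs1 hcross]
  exact affine_body (shearMat_det_ne (by simpa using ha)) _
    (bipyramid_body (div_pos (by linarith) hs0) (shift_body hK) (shift_zero_mem hq))

theorem doubleCone_isoConst (hK : IsConvexBody K) (hq : q ∈ K) (ha : a 0 ≠ 0) (hs0 : 0 < s)
    (hs1 : s < 1) (hcross : (1 - s) • a + s • a' = Fin.cons 0 q) :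
    isoConst
      (convexHull ℝ (insert a (insert a' ((fun k => (Fin.cons 0 k : Fin (n + 2) → ℝ)) '' K))))
      = isoConst (bipyramid ((1 - s) / s) (affMap 1 (-q) '' K)) := by
  rw [doubleCone_eq_image hK hq hs0 hs1 hcross]
  exact affine_isoConst (shearMat_det_ne (by simpa using ha)) _
    (bipyramid_body (div_pos (by linarith) hs0) (shift_body hK) (shift_zero_mem hq))

theorem doubleCone_pow_le (hK : IsConvexBody K) (hq : q ∈ K) (ha : a 0 ≠ 0) (hs0 : 0 < s)
    (hs1 : s < 1) (hcross : (1 - s) • a + s • a' = Fin.cons 0 q) :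
    isoConst
      (convexHull ℝ (insert a (insert a' ((fun k => (Fin.cons 0 k : Fin (n + 2) → ℝ)) '' K))))
        ^ (2 * (n + 2)) ≤ cn (n + 1) * isoConst K ^ (2 * (n + 1)) := by
  rw [doubleCone_isoConst hK hq ha hs0 hs1 hcross]
  have ht : 0 < (1 - s) / s := div_pos (by linarith) hs0
  have h := bip_isoConst_pow_le ht (shift_body (q := q) hK) (shift_zero_mem hq)
  rwa [shift_isoConst hK] at h

theorem doubleCone_inherit (hK : IsConvexBody K) (hq : q ∈ K) (ha : a 0 ≠ 0) (hs0 : 0 < s)
    (hs1 : s < 1) (hcross : (1 - s) • a + s • a' = Fin.cons 0 q)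
    (h : isoConst K ≤ isoConst (solidSimplex (n + 1))) :
    isoConst
      (convexHull ℝ (insert a (insert a' ((fun k => (Fin.cons 0 k : Fin (n + 2) → ℝ)) '' K))))
      ≤ isoConst (solidSimplex (n + 2)) := by
  rw [doubleCone_isoConst hK hq ha hs0 hs1 hcross]
  exact bip_inherit (div_pos (by linarith) hs0) (shift_body hK) (shift_zero_mem hq)
    (by rwa [shift_isoConst hK])

theorem doubleCone_inherit_lt (hK : IsConvexBody K) (hq : q ∈ K) (ha : a 0 ≠ 0) (hs0 : 0 < s)
    (hs1 : s < 1) (hcross : (1 - s) • a + s • a' = Fin.cons 0 q)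
    (h : isoConst K < isoConst (solidSimplex (n + 1))) :
    isoConst
      (convexHull ℝ (insert a (insert a' ((fun k => (Fin.cons 0 k : Fin (n + 2) → ℝ)) '' K))))
      < isoConst (solidSimplex (n + 2)) := by
  rw [doubleCone_isoConst hK hq ha hs0 hs1 hcross]
  exact bip_inherit_lt (div_pos (by linarith) hs0) (shift_body hK) (shift_zero_mem hq)
    (by rwa [shift_isoConst hK])

/-- The equality case of the simplex bound is inherited by double cones. -/
theorem doubleCone_eq_case (hK : IsConvexBody K) (hq : q ∈ K) (ha : a 0 ≠ 0) (hs0 : 0 < s)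
    (hs1 : s < 1) (hcross : (1 - s) • a + s • a' = Fin.cons 0 q)
    (hle : isoConst K ≤ isoConst (solidSimplex (n + 1)))
    (heq : isoConst K = isoConst (solidSimplex (n + 1)) → IsSimplex K)
    (hT : isoConst
      (convexHull ℝ (insert a (insert a' ((fun k => (Fin.cons 0 k : Fin (n + 2) → ℝ)) '' K))))
      = isoConst (solidSimplex (n + 2))) :
    IsSimplex
      (convexHull ℝ (insert a (insert a' ((fun k => (Fin.cons 0 k : Fin (n + 2) → ℝ)) '' K)))) := by
  rcases hle.lt_or_eq with hlt | he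
  · exact absurd hT (doubleCone_inherit_lt hK hq ha hs0 hs1 hcross hlt).ne
  · obtain ⟨p, -, hKp⟩ := heq he
    have hbody := doubleCone_body hK hq ha hs0 hs1 hcross
    have hins : ∀ X : Set (Fin (n + 2) → ℝ),
        insert a (insert a' X) = ({a, a'} : Set (Fin (n + 2) → ℝ)) ∪ X := fun X => by
      ext x; simp [or_assoc]
    have himg : (fun k => (Fin.cons 0 k : Fin (n + 2) → ℝ)) '' K
        = convexHull ℝ (range fun i => (Fin.cons 0 (p i) : Fin (n + 2) → ℝ)) := by
      have h1 : (fun k => (Fin.cons 0 k : Fin (n + 2) → ℝ)) = consL (n + 1) := rfl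
      have h2 : (fun i => (Fin.cons 0 (p i) : Fin (n + 2) → ℝ)) = consL (n + 1) ∘ p := rfl
      rw [h1, h2, range_comp, hKp]
      exact (consL (n + 1)).image_convexHull (range p)
    have hTP : convexHull ℝ
          (insert a (insert a' ((fun k => (Fin.cons 0 k : Fin (n + 2) → ℝ)) '' K)))
        = convexHull ℝ (range (Fin.cons a (Fin.cons a'
            (fun i => (Fin.cons 0 (p i) : Fin (n + 2) → ℝ))) :
              Fin (n + 1 + 3) → (Fin (n + 1 + 1) → ℝ))) := by
      rw [himg, hins, convexHull_convexHull_union_right, ← hins]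
      congr 1
      rw [Fin.range_cons, Fin.range_cons]
    rw [hTP] at hT hbody ⊢
    exact ((few_points (n := n + 1) _ hbody.2.2).2).mp hT

end

end Vale.Agent.Lib.P254
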