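import Vale.Agent.Lib.P254.BipClosure

namespace Vale.Agent.Lib.P254
open MeasureTheory Set

variable {n : ℕ}

theorem fewHull_body {m : ℕ} (p : Fin m → (Fin (n + 1) → ℝ))
    (hint : (interior (convexHull ℝ (range p))).Nonempty) :
    IsConvexBody (convexHull ℝ (range p)) :=
  ⟨(finite_range p).isCompact_convexHull ℝ, convex_convexHull ℝ _, hint⟩

/-- The double cone over the convex hull of finitely many points of the hyperplane `x₀ = 0` is
the convex hull of the two apexes and those points. -/
theorem doubleCone_hull_eq {m : ℕ} (p : Fin m → (Fin (n + 1) → ℝ)) (a a' : Fin (n + 2) → ℝ) :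
    convexHull ℝ (insert a (insert a'
        ((fun k => (Fin.cons 0 k : Fin (n + 2) → ℝ)) '' convexHull ℝ (range p))))
      = convexHull ℝ (insert a (insert a'
          (range fun i => (Fin.cons 0 (p i) : Fin (n + 2) → ℝ)))) := by
  have hins : ∀ X : Set (Fin (n + 2) → ℝ),
      insert a (insert a' X) = ({a, a'} : Set (Fin (n + 2) → ℝ)) ∪ X := fun X => by
    ext x; simp [or_assoc]
  have himg : (fun k => (Fin.cons 0 k : Fin (n + 2) → ℝ)) '' convexHull ℝ (range p)
      = convexHull ℝ (range fun i => (Fin.cons 0 (p i) : Fin (n + 2) → ℝ)) := by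
    have h1 : (fun k => (Fin.cons 0 k : Fin (n + 2) → ℝ)) = consL (n + 1) := rfl
    have h2 : (fun i => (Fin.cons 0 (p i) : Fin (n + 2) → ℝ)) = consL (n + 1) ∘ p := rfl
    rw [h1, h2, range_comp]
    exact (consL (n + 1)).image_convexHull (range p)
  rw [himg, hins, convexHull_convexHull_union_right, ← hins]

/-- The strong isotropic constant conjecture, with its equality case, for double cones over
polytopes with at most `d + 2` vertices (`d = n + 1`): polytopes of `ℝ^(n+2)` with up to
`n + 5` vertices. -/
theorem doubleCone_few {q : Fin (n + 1) → ℝ} {a a' : Fin (n + 2) → ℝ} {s : ℝ}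
    (p : Fin (n + 3) → (Fin (n + 1) → ℝ))
    (hint : (interior (convexHull ℝ (range p))).Nonempty) (hq : q ∈ convexHull ℝ (range p))
    (ha : a 0 ≠ 0) (hs0 : 0 < s) (hs1 : s < 1) (hcross : (1 - s) • a + s • a' = Fin.cons 0 q) :
    IsConvexBody (convexHull ℝ (insert a (insert a'
        (range fun i => (Fin.cons 0 (p i) : Fin (n + 2) → ℝ))))) ∧
    isoConst (convexHull ℝ (insert a (insert a'
        (range fun i => (Fin.cons 0 (p i) : Fin (n + 2) → ℝ)))))
      ≤ isoConst (solidSimplex (n + 2)) ∧
    (isoConst (convexHull ℝ (insert a (insert a'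
        (range fun i => (Fin.cons 0 (p i) : Fin (n + 2) → ℝ)))))
      = isoConst (solidSimplex (n + 2)) ↔
      IsSimplex (convexHull ℝ (insert a (insert a'
        (range fun i => (Fin.cons 0 (p i) : Fin (n + 2) → ℝ)))))) := by
  rw [← doubleCone_hull_eq]
  have hK := fewHull_body p hint
  obtain ⟨hle, heq⟩ := few_points p hint
  exact ⟨doubleCone_body hK hq ha hs0 hs1 hcross, doubleCone_inherit hK hq ha hs0 hs1 hcross hle,
    fun hT => doubleCone_eq_case hK hq ha hs0 hs1 hcross hle heq.mp hT,
    fun hS => isoConst_of_isSimplex hS⟩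

end Vale.Agent.Lib.P254
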