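import Mathlib

namespace Vale.Agent.Lib.P254

/-- first row and column eliminated -/
theorem det_bip_step {n : ℕ} (N : Matrix (Fin n) (Fin n) ℝ) (b : Fin n → ℝ) (u w v : ℝ)
    (hu : u ≠ 0)
    (M' : Matrix (Fin (n + 1)) (Fin (n + 1)) ℝ) (h00 : M' 0 0 = u)
    (h0s : ∀ j : Fin n, M' 0 j.succ = -w * b j) (hs0 : ∀ i : Fin n, M' i.succ 0 = -w * b i)
    (hss : ∀ i j : Fin n, M' i.succ j.succ = N i j + v * b i * b j) :
    M'.det = u * (Matrix.of fun i j => N i j + (v - w ^ 2 / u) * b i * b j).det := by
  let B : Matrix (Fin (n + 1)) (Fin (n + 1)) ℝ :=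
    Matrix.of (fun i j => Fin.cases (M' 0 j)
      (fun i' => Fin.cases 0 (fun j' => N i' j' + (v - w ^ 2 / u) * b i' * b j') j) i)
  have hB : M'.det = B.det := by
    apply Matrix.det_eq_of_forall_row_eq_smul_add_const
      (Fin.cases 0 (fun i' => -(w / u) * b i')) 0 (by simp)
    intro i j
    refine Fin.cases ?_ (fun i' => ?_) i
    · simp [B]
    · refine Fin.cases ?_ (fun j' => ?_) j
      · simp [B, hs0, h00]
        field_simp
      · simp [B, hss, h0s]
        field_simp
        ring
  rw [hB, Matrix.det_succ_column_zero, Fin.sum_univ_succ]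
  have hz : ∀ i : Fin n, B i.succ 0 = 0 := by intro i; simp [B]
  have h0 : B 0 0 = u := by simp [B, h00]
  have hsub : B.submatrix (Fin.succAbove 0) Fin.succ
      = Matrix.of fun i j => N i j + (v - w ^ 2 / u) * b i * b j := by
    ext i j
    simp [B]
  simp only [hz, mul_zero, zero_mul, Finset.sum_const_zero, add_zero, h0, Fin.val_zero, pow_zero,
    one_mul, hsub]

/-- determinant of a scalar matrix plus a rank two matrix of a special form -/
theorem det_rank2 {n : ℕ} (c a g : ℝ) (b : Fin n → ℝ) :
    (Matrix.of fun i j : Fin n => (if i = j then c else 0) - a + g * b i * b j).det * c ^ 2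
      = c ^ n * ((c - a * n) * (c + g * ∑ i, b i ^ 2) + a * g * (∑ i, b i) ^ 2) := by
  by_cases hc : c = 0
  · subst hc
    rcases n with _ | n
    · simp
    · simp
  · let U : Matrix (Fin n) (Fin 2) ℝ := Matrix.of fun i k => ![1, b i] k
    let W : Matrix (Fin 2) (Fin n) ℝ := Matrix.of fun k j => ![-a / c, g / c * b j] k
    have hM : (Matrix.of fun i j : Fin n => (if i = j then c else 0) - a + g * b i * b j)
        = c • (1 + U * W) := by
      ext i j
      simp only [Matrix.of_apply, Matrix.smul_apply, Matrix.add_apply, Matrix.mul_apply,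
        Fin.sum_univ_two, U, W, smul_eq_mul, Matrix.one_apply, Matrix.cons_val_zero,
        Matrix.cons_val_one]
      by_cases h : i = j
      · simp only [h, if_true]
        field_simp
        ring
      · simp only [h, if_false]
        field_simp
        ring
    rw [hM, Matrix.det_smul, Fintype.card_fin, Matrix.det_one_add_mul_comm, Matrix.det_fin_two]
    have e00 : (W * U) 0 0 = -a / c * n := by
      simp [Matrix.mul_apply, U, W]
      ring
    have e01 : (W * U) 0 1 = -a / c * ∑ i, b i := by
      simp [Matrix.mul_apply, U, W, Finset.mul_sum]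
    have e10 : (W * U) 1 0 = g / c * ∑ i, b i := by
      simp [Matrix.mul_apply, U, W, Finset.mul_sum]
    have e11 : (W * U) 1 1 = g / c * ∑ i, b i ^ 2 := by
      simp [Matrix.mul_apply, U, W, Finset.mul_sum]
      apply Finset.sum_congr rfl
      intro i _
      ring
    have o00 : (1 : Matrix (Fin 2) (Fin 2) ℝ) 0 0 = 1 := by simp
    have o01 : (1 : Matrix (Fin 2) (Fin 2) ℝ) 0 1 = 0 := by simp
    have o10 : (1 : Matrix (Fin 2) (Fin 2) ℝ) 1 0 = 0 := by simp
    have o11 : (1 : Matrix (Fin 2) (Fin 2) ℝ) 1 1 = 1 := by simp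
    simp only [Matrix.add_apply, o00, o01, o10, o11, e00, e01, e10, e11]
    field_simp
    ring

end Vale.Agent.Lib.P254
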