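import Vale.Agent.Lib.P254.Bip
import Vale.Agent.Lib.P254.BipDet

namespace Vale.Agent.Lib.P254
open MeasureTheory Set

variable {n : ℕ}

section
variable {t : ℝ} {K : Set (Fin n → ℝ)} (ht : 0 < t) (hK : IsCompact K) (hV : vol K ≠ 0)
include ht hK hV

theorem bip_vol_ne : vol (bipyramid t K) ≠ 0 := by
  rw [bip_vol ht hK]
  have h1 : ((n:ℝ) + 1) ≠ 0 := by positivity
  have h2 : (1 + t) ≠ 0 := by positivity
  exact mul_ne_zero h2 (div_ne_zero hV h1)

theorem bip_centroid0 : centroid (bipyramid t K) 0 = (1 - t) / ((n:ℝ) + 2) := by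
  rw [centroid, bip_A0 ht hK, bip_vol ht hK]
  have h1 : ((n:ℝ) + 1) ≠ 0 := by positivity
  have h2 : ((n:ℝ) + 2) ≠ 0 := by positivity
  have h4 : (1 + t) ≠ 0 := by positivity
  field_simp
  ring

theorem bip_centroids (i : Fin n) :
    centroid (bipyramid t K) i.succ = ((n:ℝ) + 1) / ((n:ℝ) + 2) * centroid K i := by
  rw [centroid, bip_As ht hK, bip_vol ht hK, centroid]
  have h1 : ((n:ℝ) + 1) ≠ 0 := by positivity
  have h2 : ((n:ℝ) + 2) ≠ 0 := by positivity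
  have h4 : (1 + t) ≠ 0 := by positivity
  field_simp

theorem bip_cov00 :
    covMatrix (bipyramid t K) 0 0
      = (((n:ℝ) + 1) * (1 + t ^ 2) + 2 * t) / (((n:ℝ) + 2) ^ 2 * ((n:ℝ) + 3)) := by
  rw [cov_eq (isCompact_bipyramid ht hK) (bip_vol_ne ht hK hV), bip_B00 ht hK, bip_vol ht hK,
    bip_centroid0 ht hK hV]
  have h1 : ((n:ℝ) + 1) ≠ 0 := by positivity
  have h2 : ((n:ℝ) + 2) ≠ 0 := by positivity
  have h3 : ((n:ℝ) + 3) ≠ 0 := by positivity
  have h4 : (1 + t) ≠ 0 := by positivity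
  field_simp
  ring

theorem bip_cov0s (j : Fin n) :
    covMatrix (bipyramid t K) 0 j.succ
      = -((1 - t) * ((n:ℝ) + 1) / (((n:ℝ) + 2) ^ 2 * ((n:ℝ) + 3))) * centroid K j := by
  rw [cov_eq (isCompact_bipyramid ht hK) (bip_vol_ne ht hK hV), bip_B0s ht hK, bip_vol ht hK,
    bip_centroid0 ht hK hV, bip_centroids ht hK hV, centroid]
  have h1 : ((n:ℝ) + 1) ≠ 0 := by positivity
  have h2 : ((n:ℝ) + 2) ≠ 0 := by positivity
  have h3 : ((n:ℝ) + 3) ≠ 0 := by positivity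
  have h4 : (1 + t) ≠ 0 := by positivity
  field_simp
  ring

theorem bip_covs0 (i : Fin n) :
    covMatrix (bipyramid t K) i.succ 0
      = -((1 - t) * ((n:ℝ) + 1) / (((n:ℝ) + 2) ^ 2 * ((n:ℝ) + 3))) * centroid K i := by
  rw [covMatrix_symm, bip_cov0s ht hK hV]

theorem bip_covss (i j : Fin n) :
    covMatrix (bipyramid t K) i.succ j.succ
      = ((n:ℝ) + 1) / ((n:ℝ) + 3) * covMatrix K i j
        + ((n:ℝ) + 1) / (((n:ℝ) + 2) ^ 2 * ((n:ℝ) + 3)) * centroid K i * centroid K j := by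
  rw [cov_eq (isCompact_bipyramid ht hK) (bip_vol_ne ht hK hV), bip_Bss ht hK, bip_vol ht hK,
    bip_centroids ht hK hV, bip_centroids ht hK hV, cov_eq hK hV]
  have h1 : ((n:ℝ) + 1) ≠ 0 := by positivity
  have h2 : ((n:ℝ) + 2) ≠ 0 := by positivity
  have h3 : ((n:ℝ) + 3) ≠ 0 := by positivity
  have h4 : (1 + t) ≠ 0 := by positivity
  field_simp
  ring

end

end Vale.Agent.Lib.P254
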