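import Vale.Agent.Lib.P254.Final

namespace Vale.Agent.Lib.P254
open Set

/-- `K` is an `n`-simplex: the convex hull of `n + 1` affinely independent points of `ℝ^n`. -/
def IsSimplex {n : ℕ} (K : Set (Fin n → ℝ)) : Prop :=
  ∃ p : Fin (n + 1) → (Fin n → ℝ), AffineIndependent ℝ p ∧ K = convexHull ℝ (Set.range p)

variable {n : ℕ}

/-- Drop the coordinate `0`. -/
def dropL (n : ℕ) : (Fin (n + 1) → ℝ) →ₗ[ℝ] (Fin n → ℝ) where
  toFun x := fun i => x i.succ
  map_add' := fun _ _ => rfl
  map_smul' := fun _ _ => rfl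

/-- Insert a coordinate `0` equal to zero. -/
def consL (n : ℕ) : (Fin n → ℝ) →ₗ[ℝ] (Fin (n + 1) → ℝ) where
  toFun k := Fin.cons 0 k
  map_add' := by
    intro x y; ext i; refine Fin.cases ?_ (fun j => ?_) i <;> simp
  map_smul' := by
    intro c x; ext i; refine Fin.cases ?_ (fun j => ?_) i <;> simp

theorem consL_dropL {x : Fin (n + 1) → ℝ} (h : x 0 = 0) : consL n (dropL n x) = x := by
  ext i; refine Fin.cases ?_ (fun j => ?_) i
  · simp [consL, h]
  · simp [consL, dropL]

theorem base_eq (K : Set (Fin n → ℝ)) : K = dropL n '' {x | x ∈ pyramid K ∧ x 0 = 0} := by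
  ext k
  constructor
  · intro hk
    refine ⟨Fin.cons 0 k, ⟨⟨by simp, by simp, k, hk, fun i => by simp⟩, by simp⟩, ?_⟩
    ext i; simp [dropL]
  · rintro ⟨x, ⟨⟨-, -, k', hk', hx⟩, hx0⟩, rfl⟩
    have : dropL n x = k' := by
      ext i
      simp [dropL, hx i, hx0]
    rw [this]; exact hk'

theorem face_eq {m : ℕ} {ι : Type} [Fintype ι] (q : ι → (Fin (m + 1) → ℝ))
    (hq : ∀ j, 0 ≤ q j 0) :
    {x | x ∈ convexHull ℝ (range q) ∧ x 0 = 0}
      = convexHull ℝ (range fun j : {j // q j 0 = 0} => q j) := by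
  classical
  apply Subset.antisymm
  · rintro x ⟨hx, hx0⟩
    rw [convexHull_range_eq_exists_affineCombination] at hx
    obtain ⟨s, w, hw0, hw1, rfl⟩ := hx
    rw [Finset.affineCombination_eq_linear_combination _ _ _ hw1] at hx0 ⊢
    have hsum : ∑ i ∈ s, w i * q i 0 = 0 := by
      simpa [Finset.sum_apply] using hx0
    have hz : ∀ i ∈ s, w i * q i 0 = 0 :=
      (Finset.sum_eq_zero_iff_of_nonneg (fun i hi => mul_nonneg (hw0 i hi) (hq i))).mp hsum
    have hw : ∀ i ∈ s, ¬ (q i 0 = 0) → w i = 0 := by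
      intro i hi hne
      rcases mul_eq_zero.mp (hz i hi) with h | h
      · exact h
      · exact absurd h hne
    have e1 : ∑ i ∈ s, w i • q i = ∑ i ∈ s.filter (fun i => q i 0 = 0), w i • q i := by
      rw [Finset.sum_filter]
      apply Finset.sum_congr rfl
      intro i hi
      by_cases h : q i 0 = 0
      · simp [h]
      · simp [h, hw i hi h]
    have e2 : ∑ i ∈ s.filter (fun i => q i 0 = 0), w i = 1 := by
      rw [← hw1, Finset.sum_filter]
      apply Finset.sum_congr rfl
      intro i hi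
      by_cases h : q i 0 = 0
      · simp [h]
      · simp [h, hw i hi h]
    rw [e1]
    apply (convex_convexHull ℝ _).sum_mem
    · intro i hi
      exact hw0 i (Finset.mem_of_mem_filter i hi)
    · exact e2
    · intro i hi
      exact subset_convexHull ℝ _ ⟨⟨i, (Finset.mem_filter.mp hi).2⟩, rfl⟩
  · apply convexHull_min
    · rintro _ ⟨j, rfl⟩
      exact ⟨subset_convexHull ℝ _ ⟨j.1, rfl⟩, j.2⟩
    · intro x hx y hy a b ha hb hab
      refine ⟨convex_convexHull ℝ _ hx.1 hy.1 ha hb hab, ?_⟩
      have h1 : x 0 = 0 := hx.2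
      have h2 : y 0 = 0 := hy.2
      show (a • x + b • y) 0 = 0
      simp [h1, h2]

theorem isSimplex_of_pyramid {K : Set (Fin n → ℝ)} (hK : IsConvexBody K)
    (h : IsSimplex (pyramid K)) : IsSimplex K := by
  classical
  obtain ⟨q, hq, hP⟩ := h
  have hq0 : ∀ j, 0 ≤ q j 0 := fun j => by
    have : q j ∈ pyramid K := by rw [hP]; exact subset_convexHull ℝ _ ⟨j, rfl⟩
    exact this.1
  let r : {j // q j 0 = 0} → (Fin n → ℝ) := fun j => dropL n (q j)
  have hKr : K = convexHull ℝ (range r) := by
    conv_lhs => rw [base_eq K, hP, face_eq q hq0]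
    rw [LinearMap.image_convexHull]
    congr 1
    rw [← range_comp]
    rfl
  have hr : AffineIndependent ℝ r := by
    apply AffineIndependent.of_comp (consL n).toAffineMap
    have : (consL n).toAffineMap ∘ r = fun j : {j // q j 0 = 0} => q j := by
      funext j
      exact consL_dropL j.2
    rw [this]
    exact hq.comp_embedding (Function.Embedding.subtype _)
  have hspan : affineSpan ℝ (range r) = ⊤ := by
    rw [← interior_convexHull_nonempty_iff_affineSpan_eq_top, ← hKr]
    exact hK.2.2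
  have hcard : Fintype.card {j // q j 0 = 0} = n + 1 := by
    have := hr.affineSpan_eq_top_iff_card_eq_finrank_add_one.mp hspan
    simpa using this
  let e : Fin (n + 1) ≃ {j // q j 0 = 0} := (Fintype.equivFinOfCardEq hcard).symm
  refine ⟨r ∘ e, hr.comp_embedding e.toEmbedding, ?_⟩
  rw [hKr, EquivLike.range_comp]

/-- The vertices `0, e_1, …, e_n` of the standard solid simplex. -/
def sVert (n : ℕ) : Fin (n + 1) → (Fin n → ℝ) := Fin.cons 0 (fun i => Pi.single i 1)

theorem solidSimplex_eq_hull (n : ℕ) : solidSimplex n = convexHull ℝ (range (sVert n)) := by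
  apply Subset.antisymm
  · rintro x ⟨hx0, hx1⟩
    have hx : x = ∑ j : Fin (n + 1),
        (Fin.cons (1 - ∑ i, x i) x : Fin (n + 1) → ℝ) j • sVert n j := by
      rw [Fin.sum_univ_succ]
      simp only [Fin.cons_zero, Fin.cons_succ, sVert, smul_zero, zero_add]
      ext i
      simp [Finset.sum_apply, Pi.single_apply]
    rw [hx]
    apply (convex_convexHull ℝ _).sum_mem
    · intro j _
      refine Fin.cases ?_ (fun i => ?_) j
      · simpa using hx1
      · simpa using hx0 i
    · rw [Fin.sum_univ_succ]; simp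
    · intro j _; exact subset_convexHull ℝ _ ⟨j, rfl⟩
  · apply convexHull_min _ (solidSimplex_convex n)
    rintro _ ⟨j, rfl⟩
    refine Fin.cases ?_ (fun i => ?_) j
    · simp [sVert, solidSimplex]
    · simp only [sVert, Fin.cons_succ]
      refine ⟨fun k => ?_, ?_⟩
      · simp only [Pi.single_apply]; split_ifs <;> norm_num
      · simp [Pi.single_apply]

theorem sVert_affineIndependent (n : ℕ) : AffineIndependent ℝ (sVert n) := by
  rw [affineIndependent_iff_linearIndependent_vsub ℝ _ (0 : Fin (n + 1))]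
  let f : {x : Fin (n + 1) // x ≠ 0} → Fin n := fun x => x.1.pred x.2
  have hf : Function.Injective f := by
    intro a b hab
    apply Subtype.ext
    exact Fin.pred_inj.mp hab
  have hfun : (fun i : {x : Fin (n + 1) // x ≠ 0} => (sVert n i -ᵥ sVert n 0 : Fin n → ℝ))
      = (Pi.basisFun ℝ (Fin n)) ∘ f := by
    funext ⟨i, hi⟩
    obtain ⟨j, rfl⟩ := Fin.exists_succ_eq.mpr hi
    ext k
    simp [sVert, f, Pi.basisFun_apply, Pi.single_apply]
  rw [hfun]
  exact (Pi.basisFun ℝ (Fin n)).linearIndependent.comp f hf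

theorem solidSimplex_isSimplex (n : ℕ) : IsSimplex (solidSimplex n) :=
  ⟨sVert n, sVert_affineIndependent n, solidSimplex_eq_hull n⟩

theorem isoConst_eq_iff {K M : Set (Fin n → ℝ)} (hn : n ≠ 0) (hK : 0 ≤ lam K) (hM : 0 ≤ lam M) :
    isoConst K = isoConst M ↔ lam K = lam M := by
  rw [le_antisymm_iff, le_antisymm_iff, isoConst_le_iff hn hK hM, isoConst_le_iff hn hM hK]

theorem pyramid_compare_eq {K : Set (Fin n → ℝ)} (hn : n ≠ 0) (hK : IsConvexBody K) :
    isoConst K = isoConst (solidSimplex n) ↔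
      isoConst (pyramid K) = isoConst (solidSimplex (n + 1)) := by
  rw [isoConst_eq_iff hn (lam_nonneg_body hK) (lam_nonneg_body (solidSimplex_body n)),
    isoConst_eq_iff (Nat.succ_ne_zero n) (lam_nonneg_body (pyramid_body hK))
      (lam_nonneg_body (solidSimplex_body (n + 1))),
    ← pyramid_solidSimplex, pyramid_lam_body (solidSimplex_body n), pyramid_lam_body hK]
  constructor
  · intro h; rw [h]
  · intro h; exact mul_left_cancel₀ (cn_pos n).ne' h

theorem pyramid_compare_ge {K : Set (Fin n → ℝ)} (hn : n ≠ 0) (hK : IsConvexBody K) :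
    isoConst (solidSimplex n) ≤ isoConst K ↔
      isoConst (solidSimplex (n + 1)) ≤ isoConst (pyramid K) := by
  rw [isoConst_le_iff hn (lam_nonneg_body (solidSimplex_body n)) (lam_nonneg_body hK),
    isoConst_le_iff (Nat.succ_ne_zero n) (lam_nonneg_body (solidSimplex_body (n + 1)))
      (lam_nonneg_body (pyramid_body hK)),
    ← pyramid_solidSimplex, pyramid_lam_body (solidSimplex_body n), pyramid_lam_body hK]
  exact (mul_le_mul_iff_right₀ (cn_pos n)).symm

end Vale.Agent.Lib.P254
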