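import Vale.Agent.Lib.P254.BipSimplex
import Vale.Agent.Lib.P254.Simplex

namespace Vale.Agent.Lib.P254
open MeasureTheory Set

variable {n : ℕ}

/-- The quantity `2 ∑ p_i - ∑ p_i^2 - (∑ p_i)^2`; if `β = (1 - ∑ p_i, p_1, …, p_n)` are the
barycentric coordinates of `p` in the standard simplex, it equals `1 - |β|^2`. -/
noncomputable def defect (p : Fin n → ℝ) : ℝ := 2 * ∑ i, p i - ∑ i, p i ^ 2 - (∑ i, p i) ^ 2

theorem bipSimplex_lam (p : Fin n → ℝ) {t : ℝ} (ht : 0 < t) :
    lam (bipyramid t (shiftedSimplex n p))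
      = lam (solidSimplex (n + 1)) * (1 - 2 * t / (1 + t) ^ 2 * defect p) := by
  have hdet := bipSimplex_det p ht
  have h1 : ((n:ℝ) + 1) ≠ 0 := by positivity
  have h2 : ((n:ℝ) + 2) ≠ 0 := by positivity
  have h3 : ((n:ℝ) + 3) ≠ 0 := by positivity
  have h4 : (1 + t) ≠ 0 := by positivity
  have h5 : (n.factorial : ℝ) ≠ 0 := by positivity
  have hc : (1 / (((n:ℝ) + 2) * ((n:ℝ) + 3))) ^ 2 ≠ 0 := by positivity
  have hdet' := eq_div_of_mul_eq hc hdet
  have hcn : (1 / (((n:ℝ) + 2) * ((n:ℝ) + 3))) ^ n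
      = 1 / (((n:ℝ) + 2) ^ n * ((n:ℝ) + 3) ^ n) := by rw [one_div_pow, mul_pow]
  rw [hcn] at hdet'
  rw [lam, hdet', bip_vol ht (shiftedSimplex_compact n p), shiftedSimplex_vol, lam_solidSimplex,
    Nat.factorial_succ, defect]
  push_cast
  have e1 : (n:ℝ) + 1 + 1 = n + 2 := by ring
  have e2 : (n:ℝ) + 1 + 2 = n + 3 := by ring
  rw [e1, e2]
  field_simp
  ring

theorem defect_nonneg {p : Fin n → ℝ} (hp : p ∈ solidSimplex n) : 0 ≤ defect p := by
  obtain ⟨h0, h1⟩ := hp
  have hs0 : 0 ≤ ∑ i, p i := Finset.sum_nonneg fun i _ => h0 i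
  have hle : ∀ i, p i ≤ 1 := fun i =>
    le_trans (Finset.single_le_sum (fun j _ => h0 j) (Finset.mem_univ i)) h1
  have h2 : ∑ i, p i ^ 2 ≤ ∑ i, p i := by
    apply Finset.sum_le_sum
    intro i _
    have := h0 i
    have := hle i
    nlinarith
  unfold defect
  nlinarith

theorem defect_eq_zero_iff {p : Fin n → ℝ} (hp : p ∈ solidSimplex n) :
    defect p = 0 ↔ (p = 0 ∨ ∃ i, p = Pi.single i 1) := by
  obtain ⟨h0, h1⟩ := hp
  have hs0 : 0 ≤ ∑ i, p i := Finset.sum_nonneg fun i _ => h0 i
  have hle : ∀ i, p i ≤ 1 := fun i =>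
    le_trans (Finset.single_le_sum (fun j _ => h0 j) (Finset.mem_univ i)) h1
  have hterm : ∀ i, 0 ≤ p i - p i ^ 2 := by
    intro i
    have := h0 i
    have := hle i
    nlinarith
  have hsum : ∑ i, (p i - p i ^ 2) = ∑ i, p i - ∑ i, p i ^ 2 := Finset.sum_sub_distrib _ _
  have h2 : 0 ≤ ∑ i, (p i - p i ^ 2) := Finset.sum_nonneg fun i _ => hterm i
  constructor
  · intro hd
    unfold defect at hd
    have hA : ∑ i, (p i - p i ^ 2) = 0 := by nlinarith
    have hB : (∑ i, p i) * (1 - ∑ i, p i) = 0 := by nlinarith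
    rcases mul_eq_zero.mp hB with hz | hz
    · left
      ext i
      have := (Finset.sum_eq_zero_iff_of_nonneg (fun j _ => h0 j)).mp hz i (Finset.mem_univ i)
      simpa using this
    · right
      have hone : ∑ i, p i = 1 := by linarith
      have hex : ∃ i, p i ≠ 0 := by
        by_contra hcon
        have hall : ∀ i, p i = 0 := by
          intro i
          by_contra hi
          exact hcon ⟨i, hi⟩
        have : ∑ i, p i = 0 := Finset.sum_eq_zero fun i _ => hall i
        linarith
      obtain ⟨i, hi⟩ := hex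
      have hpi : p i - p i ^ 2 = 0 :=
        (Finset.sum_eq_zero_iff_of_nonneg (fun j _ => hterm j)).mp hA i (Finset.mem_univ i)
      have hpi1 : p i = 1 := by
        have : p i * (1 - p i) = 0 := by nlinarith
        rcases mul_eq_zero.mp this with h | h
        · exact absurd h hi
        · linarith
      refine ⟨i, ?_⟩
      ext j
      by_cases hj : j = i
      · subst hj
        simp [hpi1]
      · simp only [Pi.single_apply, hj, if_false]
        have hsplit : ∑ k, p k = p i + ∑ k ∈ Finset.univ.erase i, p k := by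
          rw [Finset.add_sum_erase _ _ (Finset.mem_univ i)]
        have hrest : ∑ k ∈ Finset.univ.erase i, p k = 0 := by linarith
        have := (Finset.sum_eq_zero_iff_of_nonneg (fun k _ => h0 k)).mp hrest j
          (Finset.mem_erase.mpr ⟨hj, Finset.mem_univ j⟩)
        exact this
  · rintro (rfl | ⟨i, rfl⟩)
    · simp [defect]
    · have e1 : ∑ j, (Pi.single i (1:ℝ) : Fin n → ℝ) j = 1 := by
        simp [Pi.single_apply]
      have e2 : ∑ j, (Pi.single i (1:ℝ) : Fin n → ℝ) j ^ 2 = 1 := by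
        simp [Pi.single_apply]
      unfold defect
      rw [e1, e2]
      norm_num

theorem lam_solidSimplex_pos (n : ℕ) : 0 < lam (solidSimplex n) := by
  rw [lam_solidSimplex]; positivity

section
variable {p : Fin n → ℝ} (hp : p ∈ solidSimplex n) {t : ℝ} (ht : 0 < t)
include hp ht

theorem bipSimplex_body : IsConvexBody (bipyramid t (shiftedSimplex n p)) :=
  bipyramid_body ht (shiftedSimplex_body n p) (shiftedSimplex_zero_mem hp)

theorem bipSimplex_pow :
    isoConst (bipyramid t (shiftedSimplex n p)) ^ (2 * (n + 1))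
      = isoConst (solidSimplex (n + 1)) ^ (2 * (n + 1))
        * (1 - 2 * t / (1 + t) ^ 2 * defect p) := by
  rw [isoConst_pow (Nat.succ_ne_zero n) (lam_nonneg_body (bipSimplex_body hp ht)),
    isoConst_pow (Nat.succ_ne_zero n) (lam_nonneg_body (solidSimplex_body (n + 1))),
    bipSimplex_lam p ht]

theorem bipSimplex_le :
    isoConst (bipyramid t (shiftedSimplex n p)) ≤ isoConst (solidSimplex (n + 1)) := by
  rw [isoConst_le_iff (Nat.succ_ne_zero n) (lam_nonneg_body (bipSimplex_body hp ht))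
    (lam_nonneg_body (solidSimplex_body (n + 1))), bipSimplex_lam p ht]
  have h1 : 0 ≤ 2 * t / (1 + t) ^ 2 * defect p :=
    mul_nonneg (by positivity) (defect_nonneg hp)
  have h2 := (lam_solidSimplex_pos (n + 1)).le
  nlinarith

theorem bipSimplex_eq_iff :
    isoConst (bipyramid t (shiftedSimplex n p)) = isoConst (solidSimplex (n + 1)) ↔
      (p = 0 ∨ ∃ i, p = Pi.single i 1) := by
  rw [isoConst_eq_iff (Nat.succ_ne_zero n) (lam_nonneg_body (bipSimplex_body hp ht))
    (lam_nonneg_body (solidSimplex_body (n + 1))), bipSimplex_lam p ht,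
    ← defect_eq_zero_iff hp]
  have hpos := lam_solidSimplex_pos (n + 1)
  have hc : 0 < 2 * t / (1 + t) ^ 2 := by positivity
  constructor
  · intro h
    have h1 : 1 - 2 * t / (1 + t) ^ 2 * defect p = 1 := by
      have := mul_left_cancel₀ hpos.ne' (h.trans (mul_one _).symm)
      exact this
    have h2 : 2 * t / (1 + t) ^ 2 * defect p = 0 := by linarith
    rcases mul_eq_zero.mp h2 with h3 | h3
    · exact absurd h3 hc.ne'
    · exact h3
  · intro h
    rw [h]; ring

end

end Vale.Agent.Lib.P254
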