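import Vale.Agent.Lib.P254.BipFinal
import Vale.Agent.Lib.P254.Affine

namespace Vale.Agent.Lib.P254
open Set

variable {n : ℕ}

/-- upper apex `(1, 0, …, 0)` -/
def apexUp (n : ℕ) : Fin (n + 1) → ℝ := Fin.cons 1 0

/-- lower apex `(-t, 0, …, 0)` -/
def apexDown (n : ℕ) (t : ℝ) : Fin (n + 1) → ℝ := Fin.cons (-t) 0

/-- base vertices `(0, u_j - p)`, where `u_0 = 0` and `u_j = e_j` -/
def baseVert (n : ℕ) (p : Fin n → ℝ) (j : Fin (n + 1)) : Fin (n + 1) → ℝ :=
  Fin.cons 0 (sVert n j - p)

theorem sVert_mem (n : ℕ) (j : Fin (n + 1)) : sVert n j ∈ solidSimplex n := by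
  rw [solidSimplex_eq_hull]
  exact subset_convexHull ℝ _ ⟨j, rfl⟩

theorem sum_sVert (q : Fin n → ℝ) (k : Fin n) (w0 : ℝ) :
    ∑ j : Fin (n + 1), (Fin.cons w0 q : Fin (n + 1) → ℝ) j * sVert n j k = q k := by
  rw [Fin.sum_univ_succ]
  simp [sVert, Pi.single_apply]

theorem base_mem {p κ : Fin n → ℝ} (hκ : κ ∈ shiftedSimplex n p) :
    (Fin.cons 0 κ : Fin (n + 1) → ℝ) ∈ convexHull ℝ (range (baseVert n p)) := by
  obtain ⟨hq0, hq1⟩ := hκ
  have hw1 : ∑ j : Fin (n + 1),
      (Fin.cons (1 - ∑ i, (κ + p) i) (κ + p) : Fin (n + 1) → ℝ) j = 1 := by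
    rw [Fin.sum_univ_succ]; simp
  have hx : (Fin.cons 0 κ : Fin (n + 1) → ℝ) = ∑ j : Fin (n + 1),
      (Fin.cons (1 - ∑ i, (κ + p) i) (κ + p) : Fin (n + 1) → ℝ) j • baseVert n p j := by
    ext i
    refine Fin.cases ?_ (fun k => ?_) i
    · simp [baseVert, Finset.sum_apply]
    · simp only [Fin.cons_succ, Finset.sum_apply, Pi.smul_apply, smul_eq_mul, baseVert,
        Pi.sub_apply]
      have e : ∀ j : Fin (n + 1),
          (Fin.cons (1 - ∑ i, (κ + p) i) (κ + p) : Fin (n + 1) → ℝ) j * (sVert n j k - p k)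
          = (Fin.cons (1 - ∑ i, (κ + p) i) (κ + p) : Fin (n + 1) → ℝ) j * sVert n j k
            - (Fin.cons (1 - ∑ i, (κ + p) i) (κ + p) : Fin (n + 1) → ℝ) j * p k := by
        intro j; ring
      simp_rw [e]
      rw [Finset.sum_sub_distrib, sum_sVert, ← Finset.sum_mul, hw1]
      simp
  rw [hx]
  apply (convex_convexHull ℝ _).sum_mem
  · intro j _
    refine Fin.cases ?_ (fun i => ?_) j
    · simpa using hq1
    · simpa using hq0 i
  · exact hw1
  · intro j _; exact subset_convexHull ℝ _ ⟨j, rfl⟩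

theorem bipSimplex_eq_hull {p : Fin n → ℝ} (hp : p ∈ solidSimplex n) {t : ℝ} (ht : 0 < t) :
    bipyramid t (shiftedSimplex n p)
      = convexHull ℝ (insert (apexUp n) (insert (apexDown n t) (range (baseVert n p)))) := by
  have h0 := shiftedSimplex_zero_mem hp
  apply Subset.antisymm
  · have hsub : convexHull ℝ (range (baseVert n p))
        ⊆ convexHull ℝ (insert (apexUp n) (insert (apexDown n t) (range (baseVert n p)))) :=
      convexHull_mono ((subset_insert _ _).trans (subset_insert _ _))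
    have hup : apexUp n ∈ convexHull ℝ
        (insert (apexUp n) (insert (apexDown n t) (range (baseVert n p)))) :=
      subset_convexHull ℝ _ (mem_insert _ _)
    have hdown : apexDown n t ∈ convexHull ℝ
        (insert (apexUp n) (insert (apexDown n t) (range (baseVert n p)))) :=
      subset_convexHull ℝ _ (mem_insert_of_mem _ (mem_insert _ _))
    rintro x (⟨h1, h2, κ, hκ, hx⟩ | ⟨h1, h2, κ, hκ, hx⟩)
    · have e : x = x 0 • apexUp n + (1 - x 0) • (Fin.cons 0 κ : Fin (n + 1) → ℝ) := by
        ext i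
        refine Fin.cases ?_ (fun k => ?_) i
        · simp [apexUp]
        · simp [apexUp, hx k]
      rw [e]
      exact convex_convexHull ℝ _ hup (hsub (base_mem hκ)) h1 (by linarith) (by ring)
    · have h3 : 0 ≤ -x 0 / t := div_nonneg (by linarith) ht.le
      have h4 : -x 0 / t ≤ 1 := by rw [div_le_one ht]; linarith
      have e : x = (-x 0 / t) • apexDown n t
          + (1 + x 0 / t) • (Fin.cons 0 κ : Fin (n + 1) → ℝ) := by
        ext i
        refine Fin.cases ?_ (fun k => ?_) i
        · simp [apexDown]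
          field_simp
        · simp [apexDown, hx k]
      rw [e]
      refine convex_convexHull ℝ _ hdown (hsub (base_mem hκ)) h3 ?_ (by ring)
      have : x 0 / t = -(-x 0 / t) := by ring
      linarith
  · apply convexHull_min _ (bipyramid_convex ht (shiftedSimplex_convex n p) h0)
    rw [insert_subset_iff, insert_subset_iff]
    refine ⟨?_, ?_, ?_⟩
    · left
      exact ⟨by simp [apexUp], by simp [apexUp], 0, h0, fun i => by simp [apexUp]⟩
    · right
      refine ⟨by simp [apexDown], ?_, 0, h0, fun i => by simp [apexDown]⟩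
      simp only [apexDown, Fin.cons_zero]
      linarith
    · rintro _ ⟨j, rfl⟩
      left
      refine ⟨by simp [baseVert], by simp [baseVert], sVert n j - p, ?_, fun i => by
        simp [baseVert]⟩
      show sVert n j - p + p ∈ solidSimplex n
      rw [sub_add_cancel]
      exact sVert_mem n j

end Vale.Agent.Lib.P254
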