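import Vale.Agent.Lib.P254.ShellCov

namespace Vale.Agent.Lib.P254
open MeasureTheory Set

variable {n : ℕ}

section
variable {t : ℝ} {K : Set (Fin n → ℝ)} (ht : 0 < t) (hK : IsCompact K) (hV : vol K ≠ 0)
include ht hK hV

/-- `bip_lam_general` without the hypothesis `lam K ≠ 0` -/
theorem bip_lam_general' :
    lam (bipyramid t K)
      = stepF n t ((((n:ℝ) + 1) * (1 + t ^ 2) + 2 * t) / (((n:ℝ) + 2) ^ 2 * ((n:ℝ) + 3)))
          ((1 - t) * ((n:ℝ) + 1) / (((n:ℝ) + 2) ^ 2 * ((n:ℝ) + 3)))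
          (((n:ℝ) + 1) / (((n:ℝ) + 2) ^ 2 * ((n:ℝ) + 3))) (lam K) (muAt 0 K) := by
  have h1 : ((n:ℝ) + 1) ≠ 0 := by positivity
  have h2 : ((n:ℝ) + 2) ≠ 0 := by positivity
  have h3 : ((n:ℝ) + 3) ≠ 0 := by positivity
  have h4 : (1 + t) ≠ 0 := by positivity
  have hdet := det_tower' (covMatrix K) (centroid K)
    ((((n:ℝ) + 1) * (1 + t ^ 2) + 2 * t) / (((n:ℝ) + 2) ^ 2 * ((n:ℝ) + 3)))
    ((1 - t) * ((n:ℝ) + 1) / (((n:ℝ) + 2) ^ 2 * ((n:ℝ) + 3)))
    (((n:ℝ) + 1) / (((n:ℝ) + 2) ^ 2 * ((n:ℝ) + 3))) (((n:ℝ) + 1) / ((n:ℝ) + 3))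
    (by positivity) (by positivity) (covMatrix (bipyramid t K)) (bip_cov00 ht hK hV)
    (fun j => bip_cov0s ht hK hV j) (fun i => bip_covs0 ht hK hV i)
    (fun i j => bip_covss ht hK hV i j)
  have hmu : muAt 0 K
      = (Matrix.of fun i j => covMatrix K i j + centroid K i * centroid K j).det / vol K ^ 2 := by
    simp [muAt]
  rw [lam, hdet, bip_vol ht hK, stepF, hmu, lam]
  field_simp

/-- The bipyramid over a compact convex set `K ∋ 0` of positive volume has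
`det Σ / vol^2` at most that of the pyramid over `K`. -/
theorem bip_lam_le (hc : Convex ℝ K) (h0 : (0 : Fin n → ℝ) ∈ K) :
    lam (bipyramid t K) ≤ cn n * lam K := by
  have hmu := mu_le hK hc h0 hV
  rw [bip_lam_general' ht hK hV]
  have h1 : (0:ℝ) < (n:ℝ) + 1 := by positivity
  have h2 : (0:ℝ) < (n:ℝ) + 2 := by positivity
  have h3 : (0:ℝ) < (n:ℝ) + 3 := by positivity
  have h4 : (0:ℝ) < 1 + t := by positivity
  generalize lam K = L at hmu ⊢
  generalize muAt 0 K = m at hmu ⊢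
  have key : stepF n t ((((n:ℝ) + 1) * (1 + t ^ 2) + 2 * t) / (((n:ℝ) + 2) ^ 2 * ((n:ℝ) + 3)))
          ((1 - t) * ((n:ℝ) + 1) / (((n:ℝ) + 2) ^ 2 * ((n:ℝ) + 3)))
          (((n:ℝ) + 1) / (((n:ℝ) + 2) ^ 2 * ((n:ℝ) + 3))) L m
      = cn n * L - (((n:ℝ) + 1) / ((n:ℝ) + 3)) ^ n * ((n:ℝ) + 1) ^ 2 / (1 + t) ^ 2
          * (2 * t / (((n:ℝ) + 2) ^ 3 * ((n:ℝ) + 3))) * (((n:ℝ) + 1) ^ 2 * L - m) := by
    rw [stepF, cn, div_pow]
    field_simp
    ring
  rw [key]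
  have hnn : 0 ≤ (((n:ℝ) + 1) / ((n:ℝ) + 3)) ^ n * ((n:ℝ) + 1) ^ 2 / (1 + t) ^ 2
          * (2 * t / (((n:ℝ) + 2) ^ 3 * ((n:ℝ) + 3))) * (((n:ℝ) + 1) ^ 2 * L - m) :=
    mul_nonneg (by positivity) (by linarith)
  linarith

end

/-- Isotropic-constant form: `L_B^(2(n+2)) ≤ c_(n+1) L_K^(2(n+1))` for the bipyramid `B` over a
convex body `K ∋ 0` of `ℝ^(n+1)`. -/
theorem bip_isoConst_pow_le {t : ℝ} {K : Set (Fin (n + 1) → ℝ)} (ht : 0 < t)
    (hK : IsConvexBody K) (h0 : (0 : Fin (n + 1) → ℝ) ∈ K) :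
    isoConst (bipyramid t K) ^ (2 * (n + 2)) ≤ cn (n + 1) * isoConst K ^ (2 * (n + 1)) := by
  have hB := bipyramid_body ht hK h0
  have e1 : isoConst (bipyramid t K) ^ (2 * (n + 2)) = lam (bipyramid t K) :=
    isoConst_pow (n := n + 1 + 1) (by omega) (lam_nonneg_body hB)
  have e2 : isoConst K ^ (2 * (n + 1)) = lam K :=
    isoConst_pow (n := n + 1) (by omega) (lam_nonneg_body hK)
  rw [e1, e2]
  exact bip_lam_le ht hK.1 (vol_pos_of_body hK).ne' hK.2.1 h0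

/-- Inheritance of the simplex bound by bipyramids. -/
theorem bip_inherit {t : ℝ} {K : Set (Fin (n + 1) → ℝ)} (ht : 0 < t)
    (hK : IsConvexBody K) (h0 : (0 : Fin (n + 1) → ℝ) ∈ K)
    (h : isoConst K ≤ isoConst (solidSimplex (n + 1))) :
    isoConst (bipyramid t K) ≤ isoConst (solidSimplex (n + 2)) := by
  have hB := bipyramid_body ht hK h0
  have hS1 := solidSimplex_body (n + 1)
  have hS2 := solidSimplex_body (n + 2)
  rw [isoConst_le_iff (by omega) (lam_nonneg_body hK) (lam_nonneg_body hS1)] at h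
  have e : lam (solidSimplex (n + 2)) = cn (n + 1) * lam (solidSimplex (n + 1)) := by
    rw [← pyramid_solidSimplex, pyramid_lam_body hS1]
  have goal' : isoConst (bipyramid t K) ≤ isoConst (solidSimplex (n + 1 + 1)) := by
    rw [isoConst_le_iff (by omega) (lam_nonneg_body hB) (lam_nonneg_body hS2)]
    show lam (bipyramid t K) ≤ lam (solidSimplex (n + 2))
    rw [e]
    calc lam (bipyramid t K) ≤ cn (n + 1) * lam K :=
          bip_lam_le ht hK.1 (vol_pos_of_body hK).ne' hK.2.1 h0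
      _ ≤ cn (n + 1) * lam (solidSimplex (n + 1)) :=
          mul_le_mul_of_nonneg_left h (cn_pos _).le
  exact goal'

end Vale.Agent.Lib.P254
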