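import Vale.Agent.Lib.P254.BipAffine

namespace Vale.Agent.Lib.P254
open Set

variable {n : ℕ}

/-- the matrix with columns `q_1 - q_0, …, q_n - q_0` -/
def edgeMat (n : ℕ) (q : Fin (n + 1) → Fin n → ℝ) : Matrix (Fin n) (Fin n) ℝ :=
  Matrix.of fun r j => q j.succ r - q 0 r

theorem edge_apply (q : Fin (n + 1) → Fin n → ℝ) (x : Fin n → ℝ) (r : Fin n) :
    affMap (edgeMat n q) (q 0) x r = ∑ i : Fin n, (q i.succ r - q 0 r) * x i + q 0 r := by
  rw [affMap_apply]
  simp [edgeMat]

theorem edge_sVert (q : Fin (n + 1) → Fin n → ℝ) (j : Fin (n + 1)) :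
    affMap (edgeMat n q) (q 0) (sVert n j) = q j := by
  ext r
  rw [edge_apply]
  refine Fin.cases ?_ (fun k => ?_) j
  · simp [sVert]
  · simp [sVert, Pi.single_apply]

theorem edge_det_ne {q : Fin (n + 1) → Fin n → ℝ} (hind : AffineIndependent ℝ q) :
    (edgeMat n q).det ≠ 0 := by
  have hinj : Function.Injective (edgeMat n q).mulVec := by
    intro x y hxy
    have h0 : (edgeMat n q).mulVec (x - y) = 0 := by
      rw [Matrix.mulVec_sub, hxy, sub_self]
    set d := x - y with hd
    let W : Fin (n + 1) → ℝ := Fin.cons (-∑ i : Fin n, d i) d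
    have hW1 : ∑ e, W e = 0 := by
      rw [Fin.sum_univ_succ]
      simp [W]
    have hW2 : ∑ e, W e • q e = 0 := by
      ext r
      have h0r := congrFun h0 r
      simp only [Matrix.mulVec, dotProduct, edgeMat, Matrix.of_apply, Pi.zero_apply] at h0r
      rw [Fin.sum_univ_succ]
      simp only [W, Fin.cons_zero, Fin.cons_succ, Pi.add_apply, Pi.smul_apply, smul_eq_mul,
        Finset.sum_apply, Pi.zero_apply]
      have e2 : ∀ i : Fin n, (q i.succ r - q 0 r) * d i = d i * q i.succ r - d i * q 0 r := by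
        intro i; ring
      simp_rw [e2] at h0r
      rw [Finset.sum_sub_distrib, ← Finset.sum_mul] at h0r
      linear_combination h0r
    have hz := (affineIndependent_iff.mp hind) Finset.univ W hW1 hW2
    have hdz : d = 0 := by
      ext i
      have := hz i.succ (Finset.mem_univ _)
      simpa [W] using this
    exact sub_eq_zero.mp hdz
  have hu := Matrix.mulVec_injective_iff_isUnit.mp hinj
  exact ((Matrix.isUnit_iff_isUnit_det _).mp hu).ne_zero

/-- all simplices have the isotropic constant of the standard solid simplex -/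
theorem isoConst_of_isSimplex {S : Set (Fin n → ℝ)} (hS : IsSimplex S) :
    isoConst S = isoConst (solidSimplex n) := by
  obtain ⟨q, hq, rfl⟩ := hS
  have hcomp : (affMap (edgeMat n q) (q 0) ∘ sVert n) = q := funext fun j => edge_sVert q j
  have himg : convexHull ℝ (range q) = affMap (edgeMat n q) (q 0) '' solidSimplex n := by
    rw [solidSimplex_eq_hull, affMap_image_convexHull, ← range_comp, hcomp]
  rw [himg]
  exact affine_isoConst (edge_det_ne hq) (q 0) (solidSimplex_body n)

theorem sum_sq_le_one {β : Fin (n + 1) → ℝ} (hβ0 : ∀ i, 0 ≤ β i) (hβ1 : ∑ i, β i = 1) :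
    ∑ i, β i ^ 2 ≤ 1 := by
  have hle : ∀ i, β i ≤ 1 := fun i =>
    hβ1 ▸ Finset.single_le_sum (fun j _ => hβ0 j) (Finset.mem_univ i)
  calc ∑ i, β i ^ 2 ≤ ∑ i, β i := by
        apply Finset.sum_le_sum
        intro i _
        have := hβ0 i
        have := hle i
        nlinarith
    _ = 1 := hβ1

section
variable {a a' : Fin (n + 1) → ℝ} {v : Fin (n + 1) → Fin (n + 1) → ℝ}
  {β : Fin (n + 1) → ℝ} {s : ℝ}
  (hind : AffineIndependent ℝ (Fin.cons a v : Fin (n + 2) → Fin (n + 1) → ℝ))
  (hβ0 : ∀ i, 0 ≤ β i) (hβ1 : ∑ i, β i = 1) (hs0 : 0 < s) (hs1 : s < 1)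
  (hcross : (1 - s) • a + s • a' = ∑ i, β i • v i)
include hind hβ0 hβ1 hs0 hs1 hcross

theorem intrinsic_p_mem : (fun i : Fin n => β i.succ) ∈ solidSimplex n := by
  refine ⟨fun i => hβ0 i.succ, ?_⟩
  rw [Fin.sum_univ_succ] at hβ1
  have := hβ0 0
  linarith

theorem intrinsic_body : IsConvexBody (convexHull ℝ (insert a (insert a' (range v)))) := by
  rw [hull_eq_image hβ0 hβ1 hs0 hs1 hcross]
  exact affine_body (frame_det_ne hβ1 hind) _
    (bipSimplex_body (intrinsic_p_mem hind hβ0 hβ1 hs0 hs1 hcross) (div_pos (by linarith) hs0))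

theorem intrinsic_iso :
    isoConst (convexHull ℝ (insert a (insert a' (range v))))
      = isoConst (bipyramid ((1 - s) / s) (shiftedSimplex n (fun i => β i.succ))) := by
  rw [hull_eq_image hβ0 hβ1 hs0 hs1 hcross]
  exact affine_isoConst (frame_det_ne hβ1 hind) _
    (bipSimplex_body (intrinsic_p_mem hind hβ0 hβ1 hs0 hs1 hcross) (div_pos (by linarith) hs0))

theorem intrinsic_defect : defect (fun i : Fin n => β i.succ) = 1 - ∑ i, β i ^ 2 := by
  have hb : ∑ i : Fin n, β i.succ = 1 - β 0 := by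
    rw [Fin.sum_univ_succ] at hβ1; linarith
  unfold defect
  rw [Fin.sum_univ_succ (fun i => β i ^ 2), hb]
  ring

theorem intrinsic_pow :
    isoConst (convexHull ℝ (insert a (insert a' (range v)))) ^ (2 * (n + 1))
      = isoConst (solidSimplex (n + 1)) ^ (2 * (n + 1))
        * (1 - 2 * s * (1 - s) * (1 - ∑ i, β i ^ 2)) := by
  rw [intrinsic_iso hind hβ0 hβ1 hs0 hs1 hcross,
    bipSimplex_pow (intrinsic_p_mem hind hβ0 hβ1 hs0 hs1 hcross) (div_pos (by linarith) hs0),
    intrinsic_defect hind hβ0 hβ1 hs0 hs1 hcross]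
  have hs : s ≠ 0 := hs0.ne'
  have e : 2 * ((1 - s) / s) / (1 + (1 - s) / s) ^ 2 = 2 * s * (1 - s) := by
    field_simp
    ring
  rw [e]

theorem intrinsic_le :
    isoConst (convexHull ℝ (insert a (insert a' (range v)))) ≤ isoConst (solidSimplex (n + 1)) := by
  rw [intrinsic_iso hind hβ0 hβ1 hs0 hs1 hcross]
  exact bipSimplex_le (intrinsic_p_mem hind hβ0 hβ1 hs0 hs1 hcross) (div_pos (by linarith) hs0)

theorem intrinsic_eq_iff :
    isoConst (convexHull ℝ (insert a (insert a' (range v)))) = isoConst (solidSimplex (n + 1)) ↔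
      ∑ i, β i ^ 2 = 1 := by
  rw [intrinsic_iso hind hβ0 hβ1 hs0 hs1 hcross,
    bipSimplex_eq_iff (intrinsic_p_mem hind hβ0 hβ1 hs0 hs1 hcross) (div_pos (by linarith) hs0),
    ← defect_eq_zero_iff (intrinsic_p_mem hind hβ0 hβ1 hs0 hs1 hcross),
    intrinsic_defect hind hβ0 hβ1 hs0 hs1 hcross]
  constructor
  · intro h; linarith
  · intro h; linarith

end

end Vale.Agent.Lib.P254
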