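import Vale.Agent.Lib.P254.BipCov

namespace Vale.Agent.Lib.P254
open MeasureTheory Set

variable {n : ℕ}

theorem shiftedSimplex_vol_ne (n : ℕ) (p : Fin n → ℝ) : vol (shiftedSimplex n p) ≠ 0 := by
  rw [shiftedSimplex_vol]; positivity

theorem shiftedSimplex_centroid (p : Fin n → ℝ) (i : Fin n) :
    centroid (shiftedSimplex n p) i = 1 / ((n:ℝ) + 1) - p i := by
  rw [centroid, shiftedSimplex_int1, shiftedSimplex_vol, Nat.factorial_succ]
  push_cast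
  have h1 : ((n:ℝ) + 1) ≠ 0 := by positivity
  have h2 : (n.factorial : ℝ) ≠ 0 := by positivity
  field_simp

theorem shiftedSimplex_cov (p : Fin n → ℝ) (i j : Fin n) :
    covMatrix (shiftedSimplex n p) i j
      = ((if i = j then ((n:ℝ) + 1) else 0) - 1) / (((n:ℝ) + 1) ^ 2 * ((n:ℝ) + 2)) := by
  rw [cov_eq (shiftedSimplex_compact n p) (shiftedSimplex_vol_ne n p), shiftedSimplex_int2,
    shiftedSimplex_vol, shiftedSimplex_centroid, shiftedSimplex_centroid]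
  have f2 : ((n + 2).factorial : ℝ) = ((n:ℝ) + 2) * ((n:ℝ) + 1) * n.factorial := by
    rw [Nat.factorial_succ, Nat.factorial_succ]
    push_cast
    ring
  have f1 : ((n + 1).factorial : ℝ) = ((n:ℝ) + 1) * n.factorial := by
    rw [Nat.factorial_succ]
    push_cast
    ring
  rw [f2, f1]
  have h1 : ((n:ℝ) + 1) ≠ 0 := by positivity
  have h2 : ((n:ℝ) + 2) ≠ 0 := by positivity
  have h3 : (n.factorial : ℝ) ≠ 0 := by positivity
  by_cases h : i = j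
  · simp only [h, if_true]
    field_simp
    ring
  · simp only [h, if_false]
    field_simp
    ring

/-- determinant of the covariance matrix of the bipyramid over a shifted simplex -/
theorem bipSimplex_det (p : Fin n → ℝ) {t : ℝ} (ht : 0 < t) :
    (covMatrix (bipyramid t (shiftedSimplex n p))).det * (1 / (((n:ℝ) + 2) * ((n:ℝ) + 3))) ^ 2
      = (1 / (((n:ℝ) + 2) * ((n:ℝ) + 3))) ^ n * (1 / (((n:ℝ) + 1) * ((n:ℝ) + 2) * ((n:ℝ) + 3)))
        * (((n:ℝ) + 1) / (((n:ℝ) + 2) ^ 3 * ((n:ℝ) + 3) ^ 2))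
        * ((1 + t) ^ 2 - 2 * t * (2 * ∑ i, p i - ∑ i, p i ^ 2 - (∑ i, p i) ^ 2)) := by
  have hK := shiftedSimplex_compact n p
  have hV := shiftedSimplex_vol_ne n p
  have h1 : ((n:ℝ) + 1) ≠ 0 := by positivity
  have h2 : ((n:ℝ) + 2) ≠ 0 := by positivity
  have h3 : ((n:ℝ) + 3) ≠ 0 := by positivity
  have hnum : ((n:ℝ) + 1) * (1 + t ^ 2) + 2 * t ≠ 0 := by positivity
  set u : ℝ := (((n:ℝ) + 1) * (1 + t ^ 2) + 2 * t) / (((n:ℝ) + 2) ^ 2 * ((n:ℝ) + 3)) with hu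
  set w : ℝ := (1 - t) * ((n:ℝ) + 1) / (((n:ℝ) + 2) ^ 2 * ((n:ℝ) + 3)) with hw
  set v : ℝ := ((n:ℝ) + 1) / (((n:ℝ) + 2) ^ 2 * ((n:ℝ) + 3)) with hv
  set c : ℝ := 1 / (((n:ℝ) + 2) * ((n:ℝ) + 3)) with hc
  set a : ℝ := 1 / (((n:ℝ) + 1) * ((n:ℝ) + 2) * ((n:ℝ) + 3)) with ha
  have hu0 : u ≠ 0 := by rw [hu]; positivity
  have hstep := det_bip_step
    (Matrix.of fun i j => ((n:ℝ) + 1) / ((n:ℝ) + 3) * covMatrix (shiftedSimplex n p) i j)
    (centroid (shiftedSimplex n p)) u w v hu0 (covMatrix (bipyramid t (shiftedSimplex n p)))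
    (bip_cov00 ht hK hV) (fun j => bip_cov0s ht hK hV j) (fun i => bip_covs0 ht hK hV i)
    (fun i j => by rw [bip_covss ht hK hV i j]; rfl)
  have hmat : (Matrix.of fun i j : Fin n =>
        (Matrix.of fun i j => ((n:ℝ) + 1) / ((n:ℝ) + 3) * covMatrix (shiftedSimplex n p) i j) i j
          + (v - w ^ 2 / u) * centroid (shiftedSimplex n p) i * centroid (shiftedSimplex n p) j)
      = Matrix.of fun i j : Fin n => (if i = j then c else 0) - a
          + (v - w ^ 2 / u) * (1 / ((n:ℝ) + 1) - p i) * (1 / ((n:ℝ) + 1) - p j) := by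
    ext i j
    simp only [Matrix.of_apply, shiftedSimplex_cov, shiftedSimplex_centroid]
    by_cases h : i = j
    · simp only [h, if_true, hc, ha]
      field_simp
    · simp only [h, if_false, hc, ha]
      field_simp
      ring
  rw [hmat] at hstep
  have hr := det_rank2 c a (v - w ^ 2 / u) (fun i => 1 / ((n:ℝ) + 1) - p i)
  have hs1 : ∑ i : Fin n, (1 / ((n:ℝ) + 1) - p i) = n / ((n:ℝ) + 1) - ∑ i, p i := by
    rw [Finset.sum_sub_distrib, Finset.sum_const, Finset.card_univ, Fintype.card_fin,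
      nsmul_eq_mul]
    ring
  have hs2 : ∑ i : Fin n, (1 / ((n:ℝ) + 1) - p i) ^ 2
      = n / ((n:ℝ) + 1) ^ 2 - 2 / ((n:ℝ) + 1) * ∑ i, p i + ∑ i, p i ^ 2 := by
    have e : ∀ i : Fin n, (1 / ((n:ℝ) + 1) - p i) ^ 2
        = 1 / ((n:ℝ) + 1) ^ 2 - 2 / ((n:ℝ) + 1) * p i + p i ^ 2 := by
      intro i; field_simp; ring
    simp_rw [e]
    rw [Finset.sum_add_distrib, Finset.sum_sub_distrib, Finset.sum_const, Finset.card_univ,
      Fintype.card_fin, nsmul_eq_mul, ← Finset.mul_sum]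
    ring
  rw [hs1, hs2] at hr
  rw [hstep, mul_assoc, hr]
  have hug : u * (v - w ^ 2 / u) = v * (2 * t / (((n:ℝ) + 2) * ((n:ℝ) + 3))) := by
    rw [hu, hv, hw]
    field_simp
    ring
  have hca : c - a * n = a := by
    rw [hc, ha]
    field_simp
    ring
  rw [hca]
  set P1 := ∑ i, p i with hP1
  set P2 := ∑ i, p i ^ 2 with hP2
  set g := v - w ^ 2 / u with hg
  have key : u * (a * (c + g * (n / ((n:ℝ) + 1) ^ 2 - 2 / ((n:ℝ) + 1) * P1 + P2))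
        + a * g * (n / ((n:ℝ) + 1) - P1) ^ 2)
      = a * (((n:ℝ) + 1) / (((n:ℝ) + 2) ^ 3 * ((n:ℝ) + 3) ^ 2))
        * ((1 + t) ^ 2 - 2 * t * (2 * P1 - P2 - P1 ^ 2)) := by
    have e : u * (a * (c + g * (n / ((n:ℝ) + 1) ^ 2 - 2 / ((n:ℝ) + 1) * P1 + P2))
        + a * g * (n / ((n:ℝ) + 1) - P1) ^ 2)
        = a * (u * c + (u * g) * ((n / ((n:ℝ) + 1) ^ 2 - 2 / ((n:ℝ) + 1) * P1 + P2)
          + (n / ((n:ℝ) + 1) - P1) ^ 2)) := by ring
    rw [e, hug, hu, hv, hc]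
    field_simp
    ring
  calc u * (c ^ n * (a * (c + g * (n / ((n:ℝ) + 1) ^ 2 - 2 / ((n:ℝ) + 1) * P1 + P2))
        + a * g * (n / ((n:ℝ) + 1) - P1) ^ 2))
      = c ^ n * (u * (a * (c + g * (n / ((n:ℝ) + 1) ^ 2 - 2 / ((n:ℝ) + 1) * P1 + P2))
        + a * g * (n / ((n:ℝ) + 1) - P1) ^ 2)) := by ring
    _ = c ^ n * a * (((n:ℝ) + 1) / (((n:ℝ) + 2) ^ 3 * ((n:ℝ) + 3) ^ 2))
        * ((1 + t) ^ 2 - 2 * t * (2 * P1 - P2 - P1 ^ 2)) := by rw [key]; ring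

end Vale.Agent.Lib.P254
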