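import Vale.Agent.Lib.P254.Psd

namespace Vale.Agent.Lib.P254
open MeasureTheory Set

variable {n : ℕ}

theorem vol_pos_of_body {K : Set (Fin n → ℝ)} (hK : IsConvexBody K) : 0 < vol K := by
  obtain ⟨hc, -, hi⟩ := hK
  unfold vol
  apply ENNReal.toReal_pos
  · have h1 : 0 < volume (interior K) := isOpen_interior.measure_pos volume hi
    exact (lt_of_lt_of_le h1 (measure_mono interior_subset)).ne'
  · exact hc.measure_lt_top.ne

/-! ### the solid simplex -/

theorem solidSimplex_convex (n : ℕ) : Convex ℝ (solidSimplex n) := by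
  intro x hx y hy a b ha hb hab
  refine ⟨fun i => ?_, ?_⟩
  · have := hx.1 i
    have := hy.1 i
    simp only [Pi.add_apply, Pi.smul_apply, smul_eq_mul]
    positivity
  · simp only [Pi.add_apply, Pi.smul_apply, smul_eq_mul, Finset.sum_add_distrib, ← Finset.mul_sum]
    have h1 := hx.2
    have h2 := hy.2
    nlinarith

theorem solidSimplex_compact (n : ℕ) : IsCompact (solidSimplex n) := by
  apply IsCompact.of_isClosed_subset (isCompact_Icc (a := (0 : Fin n → ℝ)) (b := 1))
  · have : solidSimplex n = (⋂ i, {x : Fin n → ℝ | 0 ≤ x i}) ∩ {x | ∑ i, x i ≤ 1} := by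
      ext x; simp [solidSimplex]
    rw [this]
    apply IsClosed.inter
    · apply isClosed_iInter
      intro i
      exact isClosed_le continuous_const (continuous_apply i)
    · exact isClosed_le (by fun_prop) continuous_const
  · intro x hx
    refine ⟨fun i => hx.1 i, fun i => ?_⟩
    have : x i ≤ ∑ j, x j := Finset.single_le_sum (fun j _ => hx.1 j) (Finset.mem_univ i)
    exact le_trans this hx.2

theorem solidSimplex_interior (n : ℕ) : (interior (solidSimplex n)).Nonempty := by
  have hsub : (Set.pi univ fun _ : Fin n => Ioo (0:ℝ) (1 / ((n:ℝ) + 1))) ⊆ solidSimplex n := by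
    intro x hx
    have hx' : ∀ i, x i ∈ Ioo (0:ℝ) (1 / ((n:ℝ) + 1)) := fun i => hx i (mem_univ i)
    refine ⟨fun i => (hx' i).1.le, ?_⟩
    have h1 : ∑ i, x i ≤ ∑ _i : Fin n, (1 / ((n:ℝ) + 1)) :=
      Finset.sum_le_sum (fun i _ => (hx' i).2.le)
    have h2 : ∑ _i : Fin n, (1 / ((n:ℝ) + 1)) ≤ 1 := by
      rw [Finset.sum_const, Finset.card_univ, Fintype.card_fin, nsmul_eq_mul]
      have : (0:ℝ) < (n:ℝ) + 1 := by positivity
      rw [mul_one_div, div_le_one this]
      linarith
    exact le_trans h1 h2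
  have hopen : IsOpen (Set.pi univ fun _ : Fin n => Ioo (0:ℝ) (1 / ((n:ℝ) + 1))) :=
    isOpen_set_pi finite_univ (fun _ _ => isOpen_Ioo)
  have hne : (Set.pi univ fun _ : Fin n => Ioo (0:ℝ) (1 / ((n:ℝ) + 1))).Nonempty := by
    refine ⟨fun _ => 1 / (2 * ((n:ℝ) + 1)), fun i _ => ?_⟩
    have : (0:ℝ) < (n:ℝ) + 1 := by positivity
    constructor
    · positivity
    · rw [div_lt_div_iff₀ (by positivity) this]
      linarith
  exact hne.mono (interior_maximal hsub hopen)

theorem solidSimplex_body (n : ℕ) : IsConvexBody (solidSimplex n) :=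
  ⟨solidSimplex_compact n, solidSimplex_convex n, solidSimplex_interior n⟩

theorem pyramid_solidSimplex (n : ℕ) : pyramid (solidSimplex n) = solidSimplex (n + 1) := by
  ext x
  constructor
  · rintro ⟨h0, h1, k, ⟨hk0, hk1⟩, hx⟩
    refine ⟨fun i => ?_, ?_⟩
    · refine Fin.cases h0 (fun i => ?_) i
      rw [hx i]
      exact mul_nonneg (by linarith) (hk0 i)
    · rw [Fin.sum_univ_succ]
      simp_rw [hx, ← Finset.mul_sum]
      nlinarith
  · rintro ⟨hx0, hx1⟩
    rw [Fin.sum_univ_succ] at hx1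
    have hs : 0 ≤ ∑ i : Fin n, x i.succ := Finset.sum_nonneg (fun i _ => hx0 i.succ)
    have h0 : 0 ≤ x 0 := hx0 0
    have h1 : x 0 ≤ 1 := by linarith
    refine ⟨h0, h1, ?_⟩
    by_cases h : x 0 = 1
    · refine ⟨0, ⟨fun i => le_refl _, by simp⟩, fun i => ?_⟩
      have hsum : ∑ i : Fin n, x i.succ = 0 := by linarith
      have := (Finset.sum_eq_zero_iff_of_nonneg (fun i _ => hx0 i.succ)).1 hsum i (Finset.mem_univ i)
      rw [this, h]
      simp
    · have hpos : 0 < 1 - x 0 := by
        rcases lt_or_eq_of_le h1 with h' | h'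
        · linarith
        · exact absurd h' h
      refine ⟨fun i => x i.succ / (1 - x 0), ⟨fun i => div_nonneg (hx0 i.succ) hpos.le, ?_⟩,
        fun i => ?_⟩
      · rw [← Finset.sum_div, div_le_one hpos]
        linarith
      · field_simp

end Vale.Agent.Lib.P254
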