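import Mathlib

namespace Vale.Agent.Lib.P254

/-- determinant of the covariance matrix of a pyramid -/
theorem det_pyr {n : ℕ} (M : Matrix (Fin n) (Fin n) ℝ) (b : Fin n → ℝ) (v α : ℝ)
    (M' : Matrix (Fin (n + 1)) (Fin (n + 1)) ℝ) (h00 : M' 0 0 = v)
    (h0s : ∀ j : Fin n, M' 0 j.succ = -v * b j) (hs0 : ∀ i : Fin n, M' i.succ 0 = -v * b i)
    (hss : ∀ i j : Fin n, M' i.succ j.succ = α * M i j + v * b i * b j) :
    M'.det = v * α ^ n * M.det := by
  let B : Matrix (Fin (n + 1)) (Fin (n + 1)) ℝ :=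
    Matrix.of (fun i j => Fin.cases (M' 0 j) (fun i' => Fin.cases 0 (fun j' => α * M i' j') j) i)
  have hB : M'.det = B.det := by
    apply Matrix.det_eq_of_forall_row_eq_smul_add_const
      (Fin.cases 0 (fun i' => -b i')) 0 (by simp)
    intro i j
    refine Fin.cases ?_ (fun i' => ?_) i
    · simp [B]
    · refine Fin.cases ?_ (fun j' => ?_) j
      · simp [B, hs0, h00]
        ring
      · simp [B, hss, h0s]
        ring
  rw [hB, Matrix.det_succ_column_zero, Fin.sum_univ_succ]
  have hz : ∀ i : Fin n, B i.succ 0 = 0 := by intro i; simp [B]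
  have h0 : B 0 0 = v := by simp [B, h00]
  have hsub : B.submatrix (Fin.succAbove 0) Fin.succ = α • M := by
    ext i j
    simp [B]
  simp only [hz, mul_zero, zero_mul, Finset.sum_const_zero, add_zero, h0, Fin.val_zero, pow_zero,
    one_mul, hsub, Matrix.det_smul, Fintype.card_fin]
  ring

end Vale.Agent.Lib.P254
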