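import Vale.Agent.Lib.P254.Transfer
import Vale.Agent.Lib.P254.Det

namespace Vale.Agent.Lib.P254
open MeasureTheory Set
open scoped Pointwise

variable {n : ℕ}

theorem vol_eq_integral (K : Set (Fin n → ℝ)) : vol K = ∫ _x in K, (1:ℝ) := by
  rw [setIntegral_const, smul_eq_mul, mul_one]
  rfl

theorem intOn_of_cont {K : Set (Fin n → ℝ)} (hK : IsCompact K) (f : (Fin n → ℝ) → ℝ)
    (hf : Continuous f) : IntegrableOn f K :=
  hf.continuousOn.integrableOn_compact hK

/-- covariance in terms of raw moments -/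
theorem cov_eq {K : Set (Fin n → ℝ)} (hK : IsCompact K) (hV : vol K ≠ 0) (i j : Fin n) :
    covMatrix K i j = (∫ x in K, x i * x j) / vol K - centroid K i * centroid K j := by
  set a := centroid K i with ha
  set b := centroid K j with hb
  have h1 : ∫ x in K, (x i - a) * (x j - b)
      = (∫ x in K, x i * x j) - a * (∫ x in K, x j) - b * (∫ x in K, x i)
        + a * b * (∫ _x in K, (1:ℝ)) := by
    have e : ∀ x : Fin n → ℝ, (x i - a) * (x j - b)
        = x i * x j - a * x j - b * x i + a * b * 1 := by intro x; ring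
    simp_rw [e]
    have i1 : IntegrableOn (fun x : Fin n → ℝ => x i * x j) K := intOn_of_cont hK _ (by fun_prop)
    have i2 : IntegrableOn (fun x : Fin n → ℝ => a * x j) K := intOn_of_cont hK _ (by fun_prop)
    have i3 : IntegrableOn (fun x : Fin n → ℝ => b * x i) K := intOn_of_cont hK _ (by fun_prop)
    have i4 : IntegrableOn (fun _x : Fin n → ℝ => a * b * (1:ℝ)) K :=
      intOn_of_cont hK _ (by fun_prop)
    have i12 : IntegrableOn (fun x : Fin n → ℝ => x i * x j - a * x j) K := i1.sub i2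
    have i123 : IntegrableOn (fun x : Fin n → ℝ => x i * x j - a * x j - b * x i) K := i12.sub i3
    rw [integral_add i123 i4, integral_sub i12 i3, integral_sub i1 i2,
      integral_const_mul, integral_const_mul, integral_const_mul]
  have hAj : ∫ x in K, x j = b * vol K := by
    rw [hb, centroid]; field_simp
  have hAi : ∫ x in K, x i = a * vol K := by
    rw [ha, centroid]; field_simp
  show (∫ x in K, (x i - a) * (x j - b)) / vol K = _
  rw [h1, hAj, hAi, ← vol_eq_integral]
  field_simp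
  ring

/-! ### moments of the pyramid -/

theorem pyramid_vol {K : Set (Fin n → ℝ)} (hK : IsCompact K) :
    vol (pyramid K) = vol K / ((n:ℝ) + 1) := by
  rw [vol_eq_integral, vol_eq_integral, ← pyr_m0 hK]
  exact integral_pyramid K (fun _ => (1:ℝ))

theorem pyramid_A0 {K : Set (Fin n → ℝ)} (hK : IsCompact K) :
    ∫ x in pyramid K, x 0 = vol K / (((n:ℝ) + 1) * ((n:ℝ) + 2)) := by
  rw [vol_eq_integral, ← pyr_mh hK]
  exact integral_pyramid K (fun z => z.1)

theorem pyramid_As {K : Set (Fin n → ℝ)} (hK : IsCompact K) (i : Fin n) :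
    ∫ x in pyramid K, x i.succ = (∫ x in K, x i) / ((n:ℝ) + 2) := by
  rw [← pyr_my hK, ← integral_pyramid K (fun z => z.2 i)]
  simp_rw [splitE_snd]

theorem pyramid_B00 {K : Set (Fin n → ℝ)} (hK : IsCompact K) :
    ∫ x in pyramid K, x 0 * x 0 = 2 * vol K / (((n:ℝ) + 1) * ((n:ℝ) + 2) * ((n:ℝ) + 3)) := by
  rw [vol_eq_integral, ← pyr_mhh hK, ← integral_pyramid K (fun z => z.1 ^ 2)]
  simp_rw [splitE_fst, sq]

theorem pyramid_B0s {K : Set (Fin n → ℝ)} (hK : IsCompact K) (i : Fin n) :
    ∫ x in pyramid K, x 0 * x i.succ = (∫ x in K, x i) / (((n:ℝ) + 2) * ((n:ℝ) + 3)) := by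
  rw [← pyr_mhy hK, ← integral_pyramid K (fun z => z.1 * z.2 i)]
  simp_rw [splitE_fst, splitE_snd]

theorem pyramid_Bss {K : Set (Fin n → ℝ)} (hK : IsCompact K) (i j : Fin n) :
    ∫ x in pyramid K, x i.succ * x j.succ = (∫ x in K, x i * x j) / ((n:ℝ) + 3) := by
  rw [← pyr_myy hK, ← integral_pyramid K (fun z => z.2 i * z.2 j)]
  simp_rw [splitE_snd]

end Vale.Agent.Lib.P254
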