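import Mathlib

namespace Vale.Agent.Lib.P254
open MeasureTheory

/-- Lebesgue volume `|K|` of a subset of `ℝ^n`, as a real number. -/
noncomputable def vol {n : ℕ} (K : Set (Fin n → ℝ)) : ℝ := (volume K).toReal

/-- The centroid `b_K = |K|⁻¹ ∫_K x dx`, coordinate by coordinate. -/
noncomputable def centroid {n : ℕ} (K : Set (Fin n → ℝ)) (i : Fin n) : ℝ :=
  (∫ x in K, x i) / vol K

/-- The covariance matrix `Σ_K = |K|⁻¹ ∫_K (x - b_K)(x - b_K)ᵀ dx`. -/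
noncomputable def covMatrix {n : ℕ} (K : Set (Fin n → ℝ)) : Matrix (Fin n) (Fin n) ℝ :=
  Matrix.of fun i j => (∫ x in K, (x i - centroid K i) * (x j - centroid K j)) / vol K

/-- The isotropic constant `L_K = (det Σ_K / |K|^2)^(1/(2n))`. -/
noncomputable def isoConst {n : ℕ} (K : Set (Fin n → ℝ)) : ℝ :=
  ((covMatrix K).det / vol K ^ 2) ^ (1 / (2 * (n : ℝ)))

/-- Convex body: compact, convex, nonempty interior. -/
def IsConvexBody {n : ℕ} (K : Set (Fin n → ℝ)) : Prop :=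
  IsCompact K ∧ Convex ℝ K ∧ (interior K).Nonempty

/-- The standard solid `n`-simplex `{x : x_i ≥ 0, ∑ x_i ≤ 1}` (the convex hull of the origin and
the `n` unit vectors). -/
def solidSimplex (n : ℕ) : Set (Fin n → ℝ) := {x | (∀ i, 0 ≤ x i) ∧ ∑ i, x i ≤ 1}

/-- The pyramid over `K ⊆ ℝ^n` in `ℝ^(n+1)`: base `K` at height `x_0 = 0`, apex the point
`(1, 0, …, 0)`; its section at height `x_0 = h ∈ [0,1]` is `(1 - h) K`. -/
def pyramid {n : ℕ} (K : Set (Fin n → ℝ)) : Set (Fin (n + 1) → ℝ) :=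
  {x | 0 ≤ x 0 ∧ x 0 ≤ 1 ∧ ∃ k ∈ K, ∀ i : Fin n, x i.succ = (1 - x 0) * k i}

/-- The constant `c_n = (n+1)^(n+3) / ((n+3)^(n+1) (n+2)^2)` relating the isotropic constants of a
pyramid and of its base. -/
noncomputable def cn (n : ℕ) : ℝ :=
  ((n:ℝ) + 1) ^ (n + 3) / (((n:ℝ) + 3) ^ (n + 1) * ((n:ℝ) + 2) ^ 2)

end Vale.Agent.Lib.P254
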