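import Vale.Agent.Lib.P254.TowerFew

namespace Vale.Agent.Lib.P254
open MeasureTheory Set

variable {n : ℕ}

/-- The strong isotropic constant conjecture, with its equality case, for the convex hull of a
finite set of at most `n + 3` points of `ℝ^(n+1)`: every polytope with at most `d + 2` vertices,
`d = n + 1`. -/
theorem few_points_finset (S : Finset (Fin (n + 1) → ℝ)) (hcard : S.card ≤ n + 3)
    (hint : (interior (convexHull ℝ (S : Set (Fin (n + 1) → ℝ)))).Nonempty) :
    isoConst (convexHull ℝ (S : Set (Fin (n + 1) → ℝ))) ≤ isoConst (solidSimplex (n + 1)) ∧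
    (isoConst (convexHull ℝ (S : Set (Fin (n + 1) → ℝ))) = isoConst (solidSimplex (n + 1)) ↔
      IsSimplex (convexHull ℝ (S : Set (Fin (n + 1) → ℝ)))) := by
  classical
  have hne : S.Nonempty := by
    by_contra h
    rw [Finset.not_nonempty_iff_eq_empty] at h
    subst h
    simp at hint
  haveI : Nonempty S := hne.to_subtype
  have hcard' : Fintype.card S ≤ Fintype.card (Fin (n + 3)) := by simpa using hcard
  obtain ⟨e⟩ := Function.Embedding.nonempty_of_card_le hcard'
  have hp : range (fun i : Fin (n + 3) => ((Function.invFun e i : S) : Fin (n + 1) → ℝ))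
      = (S : Set (Fin (n + 1) → ℝ)) := by
    ext x
    constructor
    · rintro ⟨i, rfl⟩
      exact (Function.invFun e i).2
    · intro hx
      refine ⟨e ⟨x, hx⟩, ?_⟩
      have := Function.leftInverse_invFun e.injective ⟨x, hx⟩
      simp [this]
  rw [← hp] at hint ⊢
  exact few_points _ hint

end Vale.Agent.Lib.P254
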