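import Vale.Agent.Lib.P254.Iso

namespace Vale.Agent.Lib.P254
open MeasureTheory Set

variable {n : ℕ}

theorem cov_quadratic {K : Set (Fin n → ℝ)} (hK : IsCompact K) (x : Fin n → ℝ) :
    ∑ i, ∑ j, x i * covMatrix K i j * x j
      = (∫ y in K, (∑ i, x i * (y i - centroid K i)) ^ 2) / vol K := by
  have e : ∀ y : Fin n → ℝ, (∑ i, x i * (y i - centroid K i)) ^ 2
      = ∑ i, ∑ j, x i * x j * ((y i - centroid K i) * (y j - centroid K j)) := by
    intro y
    rw [sq, Finset.sum_mul_sum]
    apply Finset.sum_congr rfl; intro i _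
    apply Finset.sum_congr rfl; intro j _
    ring
  simp_rw [e]
  rw [integral_finset_sum _ (fun i _ => intOn_of_cont hK _ (by fun_prop)), Finset.sum_div]
  apply Finset.sum_congr rfl; intro i _
  rw [integral_finset_sum _ (fun j _ => intOn_of_cont hK _ (by fun_prop)), Finset.sum_div]
  apply Finset.sum_congr rfl; intro j _
  rw [integral_const_mul]
  simp only [covMatrix, Matrix.of_apply]
  ring

theorem cov_posSemidef {K : Set (Fin n → ℝ)} (hK : IsCompact K) (hV : 0 < vol K) :
    (covMatrix K).PosSemidef := by
  apply Matrix.PosSemidef.of_dotProduct_mulVec_nonneg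
  · ext i j
    simp only [Matrix.conjTranspose_apply, star_trivial]
    exact covMatrix_symm K j i
  · intro x
    have : star x ⬝ᵥ (covMatrix K).mulVec x = ∑ i, ∑ j, x i * covMatrix K i j * x j := by
      simp only [dotProduct, Matrix.mulVec, star_trivial, Pi.star_apply, Finset.mul_sum, mul_assoc]
    rw [this, cov_quadratic hK]
    apply div_nonneg _ hV.le
    apply integral_nonneg
    intro y
    positivity

theorem lam_nonneg {K : Set (Fin n → ℝ)} (hK : IsCompact K) (hV : 0 < vol K) : 0 ≤ lam K := by
  unfold lam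
  exact div_nonneg (cov_posSemidef hK hV).det_nonneg (by positivity)

end Vale.Agent.Lib.P254
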