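import Vale.Agent.Lib.P254.PyrBody
import Vale.Agent.Lib.P254.Psd

namespace Vale.Agent.Lib.P254
open MeasureTheory Set

variable {n : ℕ}

theorem isoConst_eq_lam (K : Set (Fin n → ℝ)) : isoConst K = lam K ^ (1 / (2 * (n:ℝ))) := rfl

theorem isoConst_pow {K : Set (Fin n → ℝ)} (hn : n ≠ 0) (h : 0 ≤ lam K) :
    isoConst K ^ (2 * n) = lam K := by
  rw [isoConst_eq_lam, ← Real.rpow_natCast, ← Real.rpow_mul h]
  have hn' : (n:ℝ) ≠ 0 := Nat.cast_ne_zero.mpr hn
  have : (1 / (2 * (n:ℝ))) * ((2 * n : ℕ) : ℝ) = 1 := by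
    push_cast; field_simp
  rw [this, Real.rpow_one]

theorem isoConst_lt_iff {K M : Set (Fin n → ℝ)} (hn : n ≠ 0) (hK : 0 ≤ lam K) (hM : 0 ≤ lam M) :
    isoConst K < isoConst M ↔ lam K < lam M := by
  rw [isoConst_eq_lam, isoConst_eq_lam]
  have hn' : (0:ℝ) < n := Nat.cast_pos.mpr (Nat.pos_of_ne_zero hn)
  exact Real.rpow_lt_rpow_iff hK hM (by positivity)

theorem isoConst_le_iff {K M : Set (Fin n → ℝ)} (hn : n ≠ 0) (hK : 0 ≤ lam K) (hM : 0 ≤ lam M) :
    isoConst K ≤ isoConst M ↔ lam K ≤ lam M := by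
  rw [isoConst_eq_lam, isoConst_eq_lam]
  have hn' : (0:ℝ) < n := Nat.cast_pos.mpr (Nat.pos_of_ne_zero hn)
  exact Real.rpow_le_rpow_iff hK hM (by positivity)

theorem lam_nonneg_body {K : Set (Fin n → ℝ)} (hK : IsConvexBody K) : 0 ≤ lam K :=
  lam_nonneg hK.1 (vol_pos_of_body hK)

theorem pyramid_lam_body {K : Set (Fin n → ℝ)} (hK : IsConvexBody K) :
    lam (pyramid K) = cn n * lam K :=
  pyramid_lam hK.1 (vol_pos_of_body hK).ne'

/-- The value of `det Σ / vol ^ 2` for the standard simplex. -/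
theorem lam_solidSimplex (n : ℕ) :
    lam (solidSimplex n) = (n.factorial : ℝ) ^ 2 / (((n:ℝ) + 1) ^ (n + 1) * ((n:ℝ) + 2) ^ n) := by
  induction n with
  | zero =>
    have hv : vol (solidSimplex 0) = 1 := by
      have : solidSimplex 0 = univ := by
        ext x; simp [solidSimplex]
      rw [this, vol, volume_pi, Measure.pi_empty_univ]
      simp
    rw [lam, hv]
    simp
  | succ n ih =>
    rw [← pyramid_solidSimplex, pyramid_lam_body (solidSimplex_body n), ih, cn, Nat.factorial_succ]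
    push_cast
    have h1 : ((n:ℝ) + 1) ≠ 0 := by positivity
    have h2 : ((n:ℝ) + 2) ≠ 0 := by positivity
    have h3 : ((n:ℝ) + 3) ≠ 0 := by positivity
    have e1 : (n:ℝ) + 1 + 1 = n + 2 := by ring
    have e2 : (n:ℝ) + 1 + 2 = n + 3 := by ring
    rw [e1, e2]
    field_simp
    ring

theorem pyramid_compare_lt {K : Set (Fin n → ℝ)} (hn : n ≠ 0) (hK : IsConvexBody K) :
    isoConst (solidSimplex n) < isoConst K ↔
      isoConst (solidSimplex (n + 1)) < isoConst (pyramid K) := by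
  rw [isoConst_lt_iff hn (lam_nonneg_body (solidSimplex_body n)) (lam_nonneg_body hK),
    isoConst_lt_iff (Nat.succ_ne_zero n) (lam_nonneg_body (solidSimplex_body (n + 1)))
      (lam_nonneg_body (pyramid_body hK)),
    ← pyramid_solidSimplex, pyramid_lam_body (solidSimplex_body n), pyramid_lam_body hK]
  exact (mul_lt_mul_iff_right₀ (cn_pos n)).symm

theorem pyramid_compare_le {K : Set (Fin n → ℝ)} (hn : n ≠ 0) (hK : IsConvexBody K) :
    isoConst K ≤ isoConst (solidSimplex n) ↔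
      isoConst (pyramid K) ≤ isoConst (solidSimplex (n + 1)) := by
  rw [isoConst_le_iff hn (lam_nonneg_body hK) (lam_nonneg_body (solidSimplex_body n)),
    isoConst_le_iff (Nat.succ_ne_zero n) (lam_nonneg_body (pyramid_body hK))
      (lam_nonneg_body (solidSimplex_body (n + 1))),
    ← pyramid_solidSimplex, pyramid_lam_body (solidSimplex_body n), pyramid_lam_body hK]
  exact (mul_le_mul_iff_right₀ (cn_pos n)).symm

theorem pyramid_isoConst_pow {K : Set (Fin n → ℝ)} (hn : n ≠ 0) (hK : IsConvexBody K) :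
    isoConst (pyramid K) ^ (2 * (n + 1)) = cn n * isoConst K ^ (2 * n) := by
  rw [isoConst_pow (Nat.succ_ne_zero n) (lam_nonneg_body (pyramid_body hK)),
    isoConst_pow hn (lam_nonneg_body hK), pyramid_lam_body hK]

end Vale.Agent.Lib.P254
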