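import Vale.Agent.Lib.P254.TowerGood
import Vale.Agent.Lib.P254.BipAffine

namespace Vale.Agent.Lib.P254
open MeasureTheory Set

variable {n : ℕ}

/-- bipyramid over a convex hull containing the origin, as a convex hull -/
theorem bipyramid_hull {t : ℝ} (ht : 0 < t) (s : Set (Fin n → ℝ))
    (h0 : (0 : Fin n → ℝ) ∈ convexHull ℝ s) :
    bipyramid t (convexHull ℝ s)
      = convexHull ℝ (insert (apexUp n) (insert (apexDown n t) (consL n '' s))) := by
  have himg : consL n '' convexHull ℝ s = convexHull ℝ (consL n '' s) :=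
    (consL n).image_convexHull s
  apply Subset.antisymm
  · have hsub : consL n '' convexHull ℝ s
        ⊆ convexHull ℝ (insert (apexUp n) (insert (apexDown n t) (consL n '' s))) := by
      rw [himg]
      exact convexHull_mono ((subset_insert _ _).trans (subset_insert _ _))
    have hup : apexUp n ∈ convexHull ℝ
        (insert (apexUp n) (insert (apexDown n t) (consL n '' s))) :=
      subset_convexHull ℝ _ (mem_insert _ _)
    have hdown : apexDown n t ∈ convexHull ℝ
        (insert (apexUp n) (insert (apexDown n t) (consL n '' s))) :=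
      subset_convexHull ℝ _ (mem_insert_of_mem _ (mem_insert _ _))
    rintro x (⟨h1, h2, κ, hκ, hx⟩ | ⟨h1, h2, κ, hκ, hx⟩)
    · have e : x = x 0 • apexUp n + (1 - x 0) • consL n κ := by
        ext i
        refine Fin.cases ?_ (fun k => ?_) i
        · simp [apexUp, consL]
        · simp [apexUp, consL, hx k]
      rw [e]
      exact convex_convexHull ℝ _ hup (hsub ⟨κ, hκ, rfl⟩) h1 (by linarith) (by ring)
    · have h3 : 0 ≤ -x 0 / t := div_nonneg (by linarith) ht.le
      have h4 : -x 0 / t ≤ 1 := by rw [div_le_one ht]; linarith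
      have e : x = (-x 0 / t) • apexDown n t + (1 + x 0 / t) • consL n κ := by
        ext i
        refine Fin.cases ?_ (fun k => ?_) i
        · simp [apexDown, consL]
          field_simp
        · simp [apexDown, consL, hx k]
      rw [e]
      refine convex_convexHull ℝ _ hdown (hsub ⟨κ, hκ, rfl⟩) h3 ?_ (by ring)
      have : x 0 / t = -(-x 0 / t) := by ring
      linarith
  · apply convexHull_min _ (bipyramid_convex ht (convex_convexHull ℝ s) h0)
    rw [insert_subset_iff, insert_subset_iff]
    refine ⟨?_, ?_, ?_⟩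
    · left
      exact ⟨by simp [apexUp], by simp [apexUp], 0, h0, fun i => by simp [apexUp]⟩
    · right
      refine ⟨by simp [apexDown], ?_, 0, h0, fun i => by simp [apexDown]⟩
      simp only [apexDown, Fin.cons_zero]
      linarith
    · rintro _ ⟨k, hk, rfl⟩
      left
      exact ⟨by simp [consL], by simp [consL], k, subset_convexHull ℝ s hk,
        fun i => by simp [consL]⟩

/-- The convex hull of the standard simplex `conv(0, e_1, …, e_n)` and one more point `θ`. -/
def simplexPlus (n : ℕ) (θ : Fin n → ℝ) : Set (Fin n → ℝ) :=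
  convexHull ℝ (insert θ (range (sVert n)))

theorem solidSimplex_subset_simplexPlus (θ : Fin n → ℝ) : solidSimplex n ⊆ simplexPlus n θ := by
  rw [solidSimplex_eq_hull]
  exact convexHull_mono (subset_insert _ _)

theorem simplexPlus_body (θ : Fin n → ℝ) : IsConvexBody (simplexPlus n θ) := by
  have hc : IsCompact (convexHull ℝ (insert θ (range (sVert n)))) :=
    ((finite_range (sVert n)).insert θ).isCompact_convexHull ℝ
  exact ⟨hc, convex_convexHull ℝ _,
    (solidSimplex_interior n).mono (interior_mono (solidSimplex_subset_simplexPlus θ))⟩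

theorem simplexPlus_zero_mem (θ : Fin n → ℝ) : (0 : Fin n → ℝ) ∈ simplexPlus n θ :=
  subset_convexHull ℝ _ (Or.inr ⟨0, by simp [sVert]⟩)

/-- the matrix of the linear map `x ↦ (-(1+t) x_0 - ∑_{i ≥ 1} x_i, x_1, …, x_n)` -/
def stepMat (n : ℕ) (t : ℝ) : Matrix (Fin (n + 1)) (Fin (n + 1)) ℝ :=
  Matrix.of fun r j =>
    Fin.cases (Fin.cases (-(1 + t)) (fun _ => -1) j) (fun i => if i.succ = j then 1 else 0) r

theorem stepMat_mulVec_zero (t : ℝ) (x : Fin (n + 1) → ℝ) :
    (stepMat n t).mulVec x 0 = -(1 + t) * x 0 - ∑ i : Fin n, x i.succ := by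
  simp [Matrix.mulVec, dotProduct, Fin.sum_univ_succ, stepMat]
  ring

theorem stepMat_mulVec_succ (t : ℝ) (x : Fin (n + 1) → ℝ) (i : Fin n) :
    (stepMat n t).mulVec x i.succ = x i.succ := by
  simp [Matrix.mulVec, dotProduct, Fin.sum_univ_succ, stepMat]

theorem stepMat_det_ne {t : ℝ} (ht : 0 < t) : (stepMat n t).det ≠ 0 := by
  have hinj : Function.Injective (stepMat n t).mulVec := by
    intro x y hxy
    have hs : ∀ i : Fin n, x i.succ = y i.succ := fun i => by
      have := congrFun hxy i.succ
      rwa [stepMat_mulVec_succ, stepMat_mulVec_succ] at this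
    have h0 := congrFun hxy 0
    rw [stepMat_mulVec_zero, stepMat_mulVec_zero] at h0
    have hsum : ∑ i : Fin n, x i.succ = ∑ i : Fin n, y i.succ :=
      Finset.sum_congr rfl (fun i _ => hs i)
    have hm : (1 + t) * (x 0 - y 0) = 0 := by linear_combination -h0 - hsum
    ext i
    refine Fin.cases ?_ (fun k => hs k) i
    rcases mul_eq_zero.mp hm with h | h
    · linarith
    · linarith
  exact ((Matrix.isUnit_iff_isUnit_det _).mp (Matrix.mulVec_injective_iff_isUnit.mp hinj)).ne_zero

theorem simplexPlus_step (θ' : Fin n → ℝ) {c : ℝ} (hc : 0 < c) (hcg : c < 1 - ∑ i, θ' i) :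
    bipyramid ((1 - ∑ i, θ' i) / c - 1) (simplexPlus n θ')
      = affMap (stepMat n ((1 - ∑ i, θ' i) / c - 1)) (apexUp n) ''
          simplexPlus (n + 1) (Fin.cons c θ') := by
  set t : ℝ := (1 - ∑ i, θ' i) / c - 1 with ht_def
  have ht : 0 < t := by
    have : 1 < (1 - ∑ i, θ' i) / c := by rw [lt_div_iff₀ hc]; linarith
    linarith
  have htc : (1 + t) * c = 1 - ∑ i, θ' i := by
    rw [ht_def]; field_simp; ring
  have h1t : (1 + t) ≠ 0 := by positivity
  unfold simplexPlus
  rw [bipyramid_hull ht _ (simplexPlus_zero_mem θ'), affMap_image_convexHull, image_insert_eq,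
    ← range_comp, image_insert_eq, ← range_comp]
  have hAθ : affMap (stepMat n t) (apexUp n) (Fin.cons c θ') = consL n θ' := by
    ext i
    refine Fin.cases ?_ (fun k => ?_) i
    · show (stepMat n t).mulVec (Fin.cons c θ') 0 + apexUp n 0 = _
      rw [stepMat_mulVec_zero]
      simp only [Fin.cons_zero, Fin.cons_succ, apexUp, consL, LinearMap.coe_mk, AddHom.coe_mk]
      linarith
    · show (stepMat n t).mulVec (Fin.cons c θ') k.succ + apexUp n k.succ = _
      rw [stepMat_mulVec_succ]
      simp [apexUp, consL]
  have hA0 : affMap (stepMat n t) (apexUp n) (sVert (n + 1) 0) = apexUp n := by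
    have : sVert (n + 1) 0 = 0 := by simp [sVert]
    rw [this]
    simp [affMap]
  have hA1 : affMap (stepMat n t) (apexUp n) (sVert (n + 1) (Fin.succ 0)) = apexDown n t := by
    ext i
    refine Fin.cases ?_ (fun k => ?_) i
    · show (stepMat n t).mulVec (sVert (n + 1) (Fin.succ 0)) 0 + apexUp n 0 = _
      rw [stepMat_mulVec_zero]
      simp [sVert, apexUp, apexDown, Pi.single_apply]
    · show (stepMat n t).mulVec (sVert (n + 1) (Fin.succ 0)) k.succ + apexUp n k.succ = _
      rw [stepMat_mulVec_succ]
      simp [sVert, apexUp, apexDown, Pi.single_apply]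
  have hAs : ∀ i : Fin n, affMap (stepMat n t) (apexUp n) (sVert (n + 1) i.succ.succ)
      = consL n (sVert n i.succ) := by
    intro i
    ext r
    refine Fin.cases ?_ (fun k => ?_) r
    · show (stepMat n t).mulVec (sVert (n + 1) i.succ.succ) 0 + apexUp n 0 = _
      rw [stepMat_mulVec_zero]
      simp [sVert, apexUp, consL, Pi.single_apply]
    · show (stepMat n t).mulVec (sVert (n + 1) i.succ.succ) k.succ + apexUp n k.succ = _
      rw [stepMat_mulVec_succ]
      simp [sVert, apexUp, consL, Pi.single_apply]
  rw [hAθ]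
  apply Subset.antisymm
  · apply convexHull_min _ (convex_convexHull ℝ _)
    have hup : apexUp n ∈ convexHull ℝ (insert (consL n θ')
        (range (affMap (stepMat n t) (apexUp n) ∘ sVert (n + 1)))) :=
      subset_convexHull ℝ _ (Or.inr ⟨0, hA0⟩)
    have hdown : apexDown n t ∈ convexHull ℝ (insert (consL n θ')
        (range (affMap (stepMat n t) (apexUp n) ∘ sVert (n + 1)))) :=
      subset_convexHull ℝ _ (Or.inr ⟨Fin.succ 0, hA1⟩)
    rintro x (rfl | rfl | rfl | ⟨j, rfl⟩)
    · exact hup
    · exact hdown
    · exact subset_convexHull ℝ _ (Or.inl rfl)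
    · refine Fin.cases ?_ (fun i => ?_) j
      · have e : consL n (sVert n 0)
            = (t / (1 + t)) • apexUp n + (1 / (1 + t)) • apexDown n t := by
          ext r
          refine Fin.cases ?_ (fun k => ?_) r
          · simp [sVert, consL, apexUp, apexDown]
            field_simp
            ring
          · simp [sVert, consL, apexUp, apexDown]
        show consL n (sVert n 0) ∈ _
        rw [e]
        refine convex_convexHull ℝ _ hup hdown (by positivity) (by positivity) ?_
        field_simp
        ring
      · exact subset_convexHull ℝ _ (Or.inr ⟨i.succ.succ, hAs i⟩)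
  · apply convexHull_min _ (convex_convexHull ℝ _)
    rintro x (rfl | ⟨j, rfl⟩)
    · exact subset_convexHull ℝ _ (Or.inr (Or.inr (Or.inl rfl)))
    · refine Fin.cases ?_ (fun j' => ?_) j
      · rw [Function.comp_apply, hA0]
        exact subset_convexHull ℝ _ (Or.inl rfl)
      · refine Fin.cases ?_ (fun i => ?_) j'
        · rw [Function.comp_apply, hA1]
          exact subset_convexHull ℝ _ (Or.inr (Or.inl rfl))
        · rw [Function.comp_apply, hAs]
          exact subset_convexHull ℝ _ (Or.inr (Or.inr (Or.inr ⟨i.succ, rfl⟩)))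

end Vale.Agent.Lib.P254
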