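import Vale.Agent.Lib.P254.Cov

namespace Vale.Agent.Lib.P254
open MeasureTheory Set
open scoped Pointwise

variable {n : ℕ}

/-- `L_K^(2n)`: the quantity `det Σ_K / |K|^2`. -/
noncomputable def lam (K : Set (Fin n → ℝ)) : ℝ := (covMatrix K).det / vol K ^ 2

theorem cn_pos (n : ℕ) : 0 < cn n := by
  unfold cn; positivity

theorem covMatrix_symm (K : Set (Fin n → ℝ)) (i j : Fin n) :
    covMatrix K i j = covMatrix K j i := by
  simp only [covMatrix, Matrix.of_apply]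
  congr 1
  congr 1
  ext x
  ring

section
variable {K : Set (Fin n → ℝ)} (hK : IsCompact K) (hV : vol K ≠ 0)
include hK hV

theorem pyramid_vol_ne : vol (pyramid K) ≠ 0 := by
  rw [pyramid_vol hK]
  have : ((n:ℝ) + 1) ≠ 0 := by positivity
  exact div_ne_zero hV this

theorem pyramid_centroid0 : centroid (pyramid K) 0 = 1 / ((n:ℝ) + 2) := by
  rw [centroid, pyramid_A0 hK, pyramid_vol hK]
  have h1 : ((n:ℝ) + 1) ≠ 0 := by positivity
  have h2 : ((n:ℝ) + 2) ≠ 0 := by positivity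
  field_simp

theorem pyramid_centroids (i : Fin n) :
    centroid (pyramid K) i.succ = ((n:ℝ) + 1) / ((n:ℝ) + 2) * centroid K i := by
  rw [centroid, pyramid_As hK, pyramid_vol hK, centroid]
  have h1 : ((n:ℝ) + 1) ≠ 0 := by positivity
  have h2 : ((n:ℝ) + 2) ≠ 0 := by positivity
  field_simp

theorem pyramid_cov00 :
    covMatrix (pyramid K) 0 0 = ((n:ℝ) + 1) / (((n:ℝ) + 2) ^ 2 * ((n:ℝ) + 3)) := by
  rw [cov_eq (isCompact_pyramid hK) (pyramid_vol_ne hK hV), pyramid_B00 hK, pyramid_vol hK,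
    pyramid_centroid0 hK hV]
  have h1 : ((n:ℝ) + 1) ≠ 0 := by positivity
  have h2 : ((n:ℝ) + 2) ≠ 0 := by positivity
  have h3 : ((n:ℝ) + 3) ≠ 0 := by positivity
  field_simp
  ring

theorem pyramid_cov0s (j : Fin n) :
    covMatrix (pyramid K) 0 j.succ
      = -(((n:ℝ) + 1) / (((n:ℝ) + 2) ^ 2 * ((n:ℝ) + 3))) * centroid K j := by
  rw [cov_eq (isCompact_pyramid hK) (pyramid_vol_ne hK hV), pyramid_B0s hK, pyramid_vol hK,
    pyramid_centroid0 hK hV, pyramid_centroids hK hV, centroid]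
  have h1 : ((n:ℝ) + 1) ≠ 0 := by positivity
  have h2 : ((n:ℝ) + 2) ≠ 0 := by positivity
  have h3 : ((n:ℝ) + 3) ≠ 0 := by positivity
  field_simp
  ring

theorem pyramid_covs0 (i : Fin n) :
    covMatrix (pyramid K) i.succ 0
      = -(((n:ℝ) + 1) / (((n:ℝ) + 2) ^ 2 * ((n:ℝ) + 3))) * centroid K i := by
  rw [covMatrix_symm, pyramid_cov0s hK hV]

theorem pyramid_covss (i j : Fin n) :
    covMatrix (pyramid K) i.succ j.succ
      = ((n:ℝ) + 1) / ((n:ℝ) + 3) * covMatrix K i j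
        + ((n:ℝ) + 1) / (((n:ℝ) + 2) ^ 2 * ((n:ℝ) + 3)) * centroid K i * centroid K j := by
  rw [cov_eq (isCompact_pyramid hK) (pyramid_vol_ne hK hV), pyramid_Bss hK, pyramid_vol hK,
    pyramid_centroids hK hV, pyramid_centroids hK hV, cov_eq hK hV]
  have h1 : ((n:ℝ) + 1) ≠ 0 := by positivity
  have h2 : ((n:ℝ) + 2) ≠ 0 := by positivity
  have h3 : ((n:ℝ) + 3) ≠ 0 := by positivity
  field_simp
  ring

theorem pyramid_det :
    (covMatrix (pyramid K)).det
      = ((n:ℝ) + 1) / (((n:ℝ) + 2) ^ 2 * ((n:ℝ) + 3)) * (((n:ℝ) + 1) / ((n:ℝ) + 3)) ^ n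
        * (covMatrix K).det := by
  apply det_pyr (covMatrix K) (centroid K) _ _ (covMatrix (pyramid K)) (pyramid_cov00 hK hV)
  · intro j; exact pyramid_cov0s hK hV j
  · intro i; exact pyramid_covs0 hK hV i
  · intro i j; exact pyramid_covss hK hV i j

theorem pyramid_lam : lam (pyramid K) = cn n * lam K := by
  rw [lam, lam, pyramid_det hK hV, pyramid_vol hK, cn, div_pow]
  have h1 : ((n:ℝ) + 1) ≠ 0 := by positivity
  have h2 : ((n:ℝ) + 2) ≠ 0 := by positivity
  have h3 : ((n:ℝ) + 3) ≠ 0 := by positivity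
  field_simp
  ring

end

end Vale.Agent.Lib.P254
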