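import Vale.Agent.Lib.P254.Shift

namespace Vale.Agent.Lib.P254
open MeasureTheory Set

variable {n : ℕ}

/-- The lower pyramid over `K ⊆ ℝ^n` in `ℝ^(n+1)`: base `K` at height `x_0 = 0`, apex the point
`(-t, 0, …, 0)`; its section at height `x_0 ∈ [-t, 0]` is `(1 + x_0 / t) K`. -/
def lowerPyramid {n : ℕ} (t : ℝ) (K : Set (Fin n → ℝ)) : Set (Fin (n + 1) → ℝ) :=
  {x | -t ≤ x 0 ∧ x 0 ≤ 0 ∧ ∃ k ∈ K, ∀ i : Fin n, x i.succ = (1 + x 0 / t) * k i}

/-- diagonal entries of the map `(x_0, x') ↦ (-t x_0, x')` -/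
noncomputable def flipD (n : ℕ) (t : ℝ) : Fin (n + 1) → ℝ := Fin.cons (-t) (fun _ => 1)

/-- the linear map `(x_0, x') ↦ (-t x_0, x')` -/
noncomputable def flipL (n : ℕ) (t : ℝ) : (Fin (n + 1) → ℝ) →L[ℝ] (Fin (n + 1) → ℝ) :=
  LinearMap.toContinuousLinearMap (Matrix.toLin' (Matrix.diagonal (flipD n t)))

theorem flipL_apply (t : ℝ) (x : Fin (n + 1) → ℝ) (i : Fin (n + 1)) :
    flipL n t x i = flipD n t i * x i := by
  simp [flipL, Matrix.toLin'_apply, Matrix.mulVec_diagonal]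

theorem flipL_zero (t : ℝ) (x : Fin (n + 1) → ℝ) : flipL n t x 0 = -t * x 0 := by
  rw [flipL_apply]; simp [flipD]

theorem flipL_succ (t : ℝ) (x : Fin (n + 1) → ℝ) (i : Fin n) : flipL n t x i.succ = x i.succ := by
  rw [flipL_apply]; simp [flipD]

theorem flipL_det (t : ℝ) : (flipL n t).det = -t := by
  have : ((flipL n t : (Fin (n + 1) → ℝ) →L[ℝ] (Fin (n + 1) → ℝ)) :
      (Fin (n + 1) → ℝ) →ₗ[ℝ] (Fin (n + 1) → ℝ)) = Matrix.toLin' (Matrix.diagonal (flipD n t)) := by
    ext x i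
    simp [flipL]
  rw [ContinuousLinearMap.det, this, LinearMap.det_toLin', Matrix.det_diagonal,
    Fin.prod_univ_succ]
  simp [flipD]

theorem lowerPyramid_eq_image {t : ℝ} (ht : 0 < t) (K : Set (Fin n → ℝ)) :
    lowerPyramid t K = flipL n t '' pyramid K := by
  have ht' : t ≠ 0 := ht.ne'
  ext x
  constructor
  · rintro ⟨h1, h2, k, hk, hx⟩
    refine ⟨Fin.cons (-x 0 / t) (fun i => x i.succ), ⟨?_, ?_, k, hk, fun i => ?_⟩, ?_⟩
    · simp only [Fin.cons_zero]
      apply div_nonneg <;> linarith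
    · simp only [Fin.cons_zero]
      rw [div_le_one ht]; linarith
    · simp only [Fin.cons_zero, Fin.cons_succ]
      rw [hx i]; ring
    · ext i
      refine Fin.cases ?_ (fun j => ?_) i
      · rw [flipL_zero]; simp only [Fin.cons_zero]; field_simp
      · rw [flipL_succ]; simp
  · rintro ⟨z, ⟨h0, h1, k, hk, hz⟩, rfl⟩
    refine ⟨?_, ?_, k, hk, fun i => ?_⟩
    · rw [flipL_zero]; nlinarith
    · rw [flipL_zero]; nlinarith
    · rw [flipL_zero, flipL_succ, hz i]
      field_simp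
      ring

theorem isCompact_lowerPyramid {t : ℝ} (ht : 0 < t) {K : Set (Fin n → ℝ)} (hK : IsCompact K) :
    IsCompact (lowerPyramid t K) := by
  rw [lowerPyramid_eq_image ht]
  exact (isCompact_pyramid hK).image (flipL n t).continuous

theorem integral_lowerPyramid {t : ℝ} (ht : 0 < t) {K : Set (Fin n → ℝ)} (hK : IsCompact K)
    (g : (Fin (n + 1) → ℝ) → ℝ) :
    ∫ x in lowerPyramid t K, g x = t * ∫ x in pyramid K, g (flipL n t x) := by
  rw [lowerPyramid_eq_image ht]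
  have hm : MeasurableSet (pyramid K) := (isCompact_pyramid hK).isClosed.measurableSet
  have hinj : InjOn (flipL n t) (pyramid K) := by
    intro x _ y _ hxy
    ext i
    have h := congrFun hxy i
    rw [flipL_apply, flipL_apply] at h
    have hd : flipD n t i ≠ 0 := by
      refine Fin.cases ?_ (fun j => ?_) i
      · simp [flipD]; exact ht.ne'
      · simp [flipD]
    exact mul_left_cancel₀ hd h
  rw [integral_image_eq_integral_abs_det_fderiv_smul volume hm
    (fun x _ => (flipL n t).hasFDerivWithinAt) hinj g]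
  simp only [flipL_det, abs_neg, abs_of_pos ht, smul_eq_mul]
  rw [integral_const_mul]

variable {t : ℝ} {K : Set (Fin n → ℝ)}

theorem lower_vol (ht : 0 < t) (hK : IsCompact K) :
    vol (lowerPyramid t K) = t * (vol K / ((n:ℝ) + 1)) := by
  rw [vol_eq_integral, integral_lowerPyramid ht hK, ← vol_eq_integral, pyramid_vol hK]

theorem lower_A0 (ht : 0 < t) (hK : IsCompact K) :
    ∫ x in lowerPyramid t K, x 0 = -t ^ 2 * (vol K / (((n:ℝ) + 1) * ((n:ℝ) + 2))) := by
  rw [integral_lowerPyramid ht hK]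
  simp_rw [flipL_zero]
  rw [integral_const_mul, pyramid_A0 hK]
  ring

theorem lower_As (ht : 0 < t) (hK : IsCompact K) (i : Fin n) :
    ∫ x in lowerPyramid t K, x i.succ = t * ((∫ x in K, x i) / ((n:ℝ) + 2)) := by
  rw [integral_lowerPyramid ht hK]
  simp_rw [flipL_succ]
  rw [pyramid_As hK]

theorem lower_B00 (ht : 0 < t) (hK : IsCompact K) :
    ∫ x in lowerPyramid t K, x 0 * x 0
      = t ^ 3 * (2 * vol K / (((n:ℝ) + 1) * ((n:ℝ) + 2) * ((n:ℝ) + 3))) := by
  rw [integral_lowerPyramid ht hK]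
  simp_rw [flipL_zero]
  have e : ∀ x : Fin (n + 1) → ℝ, -t * x 0 * (-t * x 0) = t ^ 2 * (x 0 * x 0) := by
    intro x; ring
  simp_rw [e]
  rw [integral_const_mul, pyramid_B00 hK]
  ring

theorem lower_B0s (ht : 0 < t) (hK : IsCompact K) (i : Fin n) :
    ∫ x in lowerPyramid t K, x 0 * x i.succ
      = -t ^ 2 * ((∫ x in K, x i) / (((n:ℝ) + 2) * ((n:ℝ) + 3))) := by
  rw [integral_lowerPyramid ht hK]
  simp_rw [flipL_zero, flipL_succ]
  have e : ∀ x : Fin (n + 1) → ℝ, -t * x 0 * x i.succ = -t * (x 0 * x i.succ) := by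
    intro x; ring
  simp_rw [e]
  rw [integral_const_mul, pyramid_B0s hK]
  ring

theorem lower_Bss (ht : 0 < t) (hK : IsCompact K) (i j : Fin n) :
    ∫ x in lowerPyramid t K, x i.succ * x j.succ = t * ((∫ x in K, x i * x j) / ((n:ℝ) + 3)) := by
  rw [integral_lowerPyramid ht hK]
  simp_rw [flipL_succ]
  rw [pyramid_Bss hK]

end Vale.Agent.Lib.P254
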