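import Vale.Agent.Lib.P254.Pyr
import Vale.Agent.Lib.P254.Beta

namespace Vale.Agent.Lib.P254
open MeasureTheory Set
open scoped Pointwise

variable {n : ℕ}

theorem setInt_const_eq (K : Set (Fin n → ℝ)) (c : ℝ) :
    ∫ _x in K, c = c * ∫ _x in K, (1:ℝ) := by
  rw [← integral_const_mul]
  simp only [mul_one]

theorem pyr_m0 {K : Set (Fin n → ℝ)} (hK : IsCompact K) :
    ∫ _z in pyrProd K, (1:ℝ) = (∫ _x in K, (1:ℝ)) / ((n:ℝ) + 1) := by
  rw [integral_pyrProd hK (fun _ => (1:ℝ)) (by fun_prop)]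
  rw [integral_mul_const, beta0]
  ring

theorem pyr_mh {K : Set (Fin n → ℝ)} (hK : IsCompact K) :
    ∫ z in pyrProd K, z.1 = (∫ _x in K, (1:ℝ)) / (((n:ℝ) + 1) * ((n:ℝ) + 2)) := by
  rw [integral_pyrProd hK (fun z => z.1) (by fun_prop)]
  have key : ∀ h : ℝ, (1 - h) ^ n * (∫ _x in K, h) = h * (1 - h) ^ n * ∫ _x in K, (1:ℝ) := by
    intro h; rw [setInt_const_eq K h]; ring
  calc ∫ h in Icc (0:ℝ) 1, (1 - h) ^ n * ∫ _x in K, h
      = ∫ h in Icc (0:ℝ) 1, h * (1 - h) ^ n * ∫ _x in K, (1:ℝ) :=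
        setIntegral_congr_fun measurableSet_Icc (fun h _ => key h)
    _ = _ := by
        rw [integral_mul_const, beta1]
        ring

theorem pyr_mhh {K : Set (Fin n → ℝ)} (hK : IsCompact K) :
    ∫ z in pyrProd K, z.1 ^ 2
      = 2 * (∫ _x in K, (1:ℝ)) / (((n:ℝ) + 1) * ((n:ℝ) + 2) * ((n:ℝ) + 3)) := by
  rw [integral_pyrProd hK (fun z => z.1 ^ 2) (by fun_prop)]
  have key : ∀ h : ℝ, (1 - h) ^ n * (∫ _x in K, h ^ 2)
      = h ^ 2 * (1 - h) ^ n * ∫ _x in K, (1:ℝ) := by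
    intro h; rw [setInt_const_eq K (h ^ 2)]; ring
  calc ∫ h in Icc (0:ℝ) 1, (1 - h) ^ n * ∫ _x in K, h ^ 2
      = ∫ h in Icc (0:ℝ) 1, h ^ 2 * (1 - h) ^ n * ∫ _x in K, (1:ℝ) :=
        setIntegral_congr_fun measurableSet_Icc (fun h _ => key h)
    _ = _ := by
        rw [integral_mul_const, beta2]
        ring

theorem pyr_my {K : Set (Fin n → ℝ)} (hK : IsCompact K) (i : Fin n) :
    ∫ z in pyrProd K, z.2 i = (∫ x in K, x i) / ((n:ℝ) + 2) := by
  rw [integral_pyrProd hK (fun z => z.2 i) (by fun_prop)]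
  simp only [Pi.smul_apply, smul_eq_mul, integral_const_mul]
  have : ∀ h : ℝ, (1 - h) ^ n * ((1 - h) * ∫ x in K, x i)
      = (1 - h) ^ (n + 1) * ∫ x in K, x i := by
    intro h; ring
  simp_rw [this]
  rw [integral_mul_const, beta0]
  push_cast
  ring

theorem pyr_mhy {K : Set (Fin n → ℝ)} (hK : IsCompact K) (i : Fin n) :
    ∫ z in pyrProd K, z.1 * z.2 i = (∫ x in K, x i) / (((n:ℝ) + 2) * ((n:ℝ) + 3)) := by
  rw [integral_pyrProd hK (fun z => z.1 * z.2 i) (by fun_prop)]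
  simp only [Pi.smul_apply, smul_eq_mul, integral_const_mul]
  have : ∀ h : ℝ, (1 - h) ^ n * (h * ((1 - h) * ∫ x in K, x i))
      = h * (1 - h) ^ (n + 1) * ∫ x in K, x i := by
    intro h; ring
  simp_rw [this]
  rw [integral_mul_const, beta1]
  push_cast
  ring

theorem pyr_myy {K : Set (Fin n → ℝ)} (hK : IsCompact K) (i j : Fin n) :
    ∫ z in pyrProd K, z.2 i * z.2 j = (∫ x in K, x i * x j) / ((n:ℝ) + 3) := by
  rw [integral_pyrProd hK (fun z => z.2 i * z.2 j) (by fun_prop)]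
  simp only [Pi.smul_apply, smul_eq_mul]
  have h1 : ∀ (h : ℝ) (x : Fin n → ℝ), (1 - h) * x i * ((1 - h) * x j)
      = (1 - h) ^ 2 * (x i * x j) := by
    intro h x; ring
  simp_rw [h1, integral_const_mul]
  have : ∀ h : ℝ, (1 - h) ^ n * ((1 - h) ^ 2 * ∫ x in K, x i * x j)
      = (1 - h) ^ (n + 2) * ∫ x in K, x i * x j := by
    intro h; ring
  simp_rw [this]
  rw [integral_mul_const, beta0]
  push_cast
  ring

end Vale.Agent.Lib.P254
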