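import Mathlib

namespace Vale.Agent.Lib.P254
open MeasureTheory Set
open scoped Pointwise

variable {n : ℕ}

/-- The pyramid over `K` with apex at height one over the origin, in product coordinates
`(height, point)`: the section at height `h ∈ [0,1]` is `(1 - h) • K`. -/
def pyrProd (K : Set (Fin n → ℝ)) : Set (ℝ × (Fin n → ℝ)) :=
  {z | 0 ≤ z.1 ∧ z.1 ≤ 1 ∧ z.2 ∈ (1 - z.1) • K}

theorem pyrProd_eq_image (K : Set (Fin n → ℝ)) :
    pyrProd K = (fun p : ℝ × (Fin n → ℝ) => (p.1, (1 - p.1) • p.2)) '' (Icc (0:ℝ) 1 ×ˢ K) := by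
  ext ⟨h, y⟩
  simp only [pyrProd, mem_setOf_eq, mem_image, mem_prod, mem_Icc, Prod.mk.injEq, Prod.exists]
  constructor
  · rintro ⟨h0, h1, k, hk, rfl⟩
    exact ⟨h, k, ⟨⟨h0, h1⟩, hk⟩, rfl, rfl⟩
  · rintro ⟨a, k, ⟨⟨h0, h1⟩, hk⟩, rfl, rfl⟩
    exact ⟨h0, h1, smul_mem_smul_set hk⟩

theorem isCompact_pyrProd {K : Set (Fin n → ℝ)} (hK : IsCompact K) : IsCompact (pyrProd K) := by
  rw [pyrProd_eq_image]
  apply IsCompact.image (isCompact_Icc.prod hK)
  fun_prop

theorem integral_pyrProd {K : Set (Fin n → ℝ)} (hK : IsCompact K) (f : ℝ × (Fin n → ℝ) → ℝ)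
    (hf : Continuous f) :
    ∫ z in pyrProd K, f z = ∫ h in Icc (0:ℝ) 1, (1 - h) ^ n * ∫ x in K, f (h, (1 - h) • x) := by
  have hc := isCompact_pyrProd hK
  have hm : MeasurableSet (pyrProd K) := hc.isClosed.measurableSet
  have hint : IntegrableOn f (pyrProd K) (volume : Measure (ℝ × (Fin n → ℝ))) :=
    hf.continuousOn.integrableOn_compact hc
  have h1 : ∫ z in pyrProd K, f z = ∫ z, (pyrProd K).indicator f z := (integral_indicator hm).symm
  rw [h1, Measure.volume_eq_prod, integral_prod _ (by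
    rw [← Measure.volume_eq_prod]; exact hint.integrable_indicator hm)]
  have h2 : ∀ h : ℝ, ∫ y, (pyrProd K).indicator f (h, y) =
      (Icc (0:ℝ) 1).indicator (fun h => ∫ y in (1 - h) • K, f (h, y)) h := by
    intro h
    by_cases hh : h ∈ Icc (0:ℝ) 1
    · rw [indicator_of_mem hh]
      have hmK : MeasurableSet ((1 - h) • K) := (hK.smul (1 - h)).isClosed.measurableSet
      rw [← integral_indicator hmK]
      congr 1
      ext y
      by_cases hy : y ∈ (1 - h) • K
      · rw [indicator_of_mem hy, indicator_of_mem]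
        exact ⟨hh.1, hh.2, hy⟩
      · rw [indicator_of_notMem hy, indicator_of_notMem]
        intro hmem
        exact hy hmem.2.2
    · rw [indicator_of_notMem hh]
      have : ∀ y, (pyrProd K).indicator f (h, y) = 0 := by
        intro y
        apply indicator_of_notMem
        intro hmem
        exact hh ⟨hmem.1, hmem.2.1⟩
      simp [this]
  simp_rw [h2]
  rw [integral_indicator measurableSet_Icc, integral_Icc_eq_integral_Ico, integral_Icc_eq_integral_Ico]
  apply setIntegral_congr_fun measurableSet_Ico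
  intro h hh
  have hpos : 0 < 1 - h := by linarith [hh.2]
  have := Measure.setIntegral_comp_smul_of_pos (volume : Measure (Fin n → ℝ))
    (fun y => f (h, y)) K hpos
  simp only [Module.finrank_fin_fun, smul_eq_mul] at this
  show ∫ y in (1 - h) • K, f (h, y) = (1 - h) ^ n * ∫ x in K, f (h, (1 - h) • x)
  rw [this]
  field_simp

end Vale.Agent.Lib.P254
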