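import Vale.Agent.Lib.P254.Body

namespace Vale.Agent.Lib.P254
open MeasureTheory Set

variable {n : ℕ}

theorem pyramid_convex {K : Set (Fin n → ℝ)} (hc : Convex ℝ K) : Convex ℝ (pyramid K) := by
  intro x hx y hy a b ha hb hab
  obtain ⟨hx0, hx1, kx, hkx, hxe⟩ := hx
  obtain ⟨hy0, hy1, ky, hky, hye⟩ := hy
  have hz : (a • x + b • y) 0 = a * x 0 + b * y 0 := by simp
  have hs : 0 ≤ a * (1 - x 0) := mul_nonneg ha (by linarith)
  have ht : 0 ≤ b * (1 - y 0) := mul_nonneg hb (by linarith)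
  have hst : a * (1 - x 0) + b * (1 - y 0) = 1 - (a • x + b • y) 0 := by
    rw [hz]; linear_combination hab
  have hzs : ∀ i : Fin n, (a • x + b • y) i.succ
      = a * (1 - x 0) * kx i + b * (1 - y 0) * ky i := by
    intro i
    simp only [Pi.add_apply, Pi.smul_apply, smul_eq_mul, hxe i, hye i]
    ring
  refine ⟨?_, ?_, ?_⟩
  · rw [hz]; positivity
  · rw [hz]; nlinarith
  · rcases (add_nonneg hs ht).eq_or_lt with h0 | hpos
    · have hs0 : a * (1 - x 0) = 0 := by linarith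
      have ht0 : b * (1 - y 0) = 0 := by linarith
      refine ⟨kx, hkx, fun i => ?_⟩
      rw [hzs i, hs0, ht0, ← hst, ← h0]
      ring
    · set s := a * (1 - x 0) with hsdef
      set t := b * (1 - y 0) with htdef
      refine ⟨(s / (s + t)) • kx + (t / (s + t)) • ky, ?_, fun i => ?_⟩
      · apply hc hkx hky (div_nonneg hs hpos.le) (div_nonneg ht hpos.le)
        field_simp
      · rw [hzs i, ← hst]
        simp only [Pi.add_apply, Pi.smul_apply, smul_eq_mul]
        field_simp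

theorem pyramid_interior {K : Set (Fin n → ℝ)} (hi : (interior K).Nonempty) :
    (interior (pyramid K)).Nonempty := by
  obtain ⟨x0, hx0⟩ := hi
  let S : Set (Fin (n + 1) → ℝ) := {x | x 0 ∈ Ioo (0:ℝ) 1}
  let g : (Fin (n + 1) → ℝ) → (Fin n → ℝ) := fun x => (1 - x 0)⁻¹ • (fun i => x i.succ)
  have hS : IsOpen S := isOpen_Ioo.preimage (continuous_apply 0)
  have hg : ContinuousOn g S := by
    refine ContinuousOn.smul (f := fun x : Fin (n + 1) → ℝ => (1 - x 0)⁻¹)
      (g := fun (x : Fin (n + 1) → ℝ) (i : Fin n) => x i.succ) ?_ ?_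
    · apply ContinuousOn.inv₀
      · fun_prop
      · intro x hx
        have : x 0 < 1 := hx.2
        have h2 : (0:ℝ) < 1 - x 0 := by linarith
        exact h2.ne'
    · fun_prop
  have hU : IsOpen (S ∩ g ⁻¹' interior K) := hg.isOpen_inter_preimage hS isOpen_interior
  have hsub : S ∩ g ⁻¹' interior K ⊆ pyramid K := by
    rintro x ⟨hxS, hxg⟩
    have h1 : x 0 < 1 := hxS.2
    refine ⟨hxS.1.le, h1.le, g x, interior_subset hxg, fun i => ?_⟩
    simp only [g, Pi.smul_apply, smul_eq_mul]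
    have : 1 - x 0 ≠ 0 := by linarith
    field_simp
  refine ⟨Fin.cons (1 / 2) ((1 / 2 : ℝ) • x0), interior_maximal hsub hU ⟨?_, ?_⟩⟩
  · show (Fin.cons (1 / 2 : ℝ) ((1 / 2 : ℝ) • x0) : Fin (n + 1) → ℝ) 0 ∈ Ioo (0:ℝ) 1
    simp only [Fin.cons_zero]
    constructor <;> norm_num
  · show g (Fin.cons (1 / 2) ((1 / 2 : ℝ) • x0)) ∈ interior K
    have : g (Fin.cons (1 / 2) ((1 / 2 : ℝ) • x0)) = x0 := by
      ext i
      simp only [g, Fin.cons_zero, Fin.cons_succ, Pi.smul_apply, smul_eq_mul]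
      norm_num
      ring
    rw [this]
    exact hx0

theorem pyramid_body {K : Set (Fin n → ℝ)} (hK : IsConvexBody K) : IsConvexBody (pyramid K) :=
  ⟨isCompact_pyramid hK.1, pyramid_convex hK.2.1, pyramid_interior hK.2.2⟩

end Vale.Agent.Lib.P254
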