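import Vale.Agent.Lib.P254.TowerDet
import Vale.Agent.Lib.P254.BipHull

namespace Vale.Agent.Lib.P254
open MeasureTheory Set

variable {n : ℕ}

/-- normalised second moment about the point `q`: `det(Σ_K + (b_K - q)(b_K - q)ᵀ) / |K|^2` -/
noncomputable def muAt (q : Fin n → ℝ) (K : Set (Fin n → ℝ)) : ℝ :=
  (Matrix.of fun i j => covMatrix K i j + (centroid K i - q i) * (centroid K j - q j)).det
    / vol K ^ 2

/-- the value of `det / vol^2` given by a bordered matrix with parameters `u, w, v` -/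
noncomputable def stepF (n : ℕ) (t u w v lamK muK : ℝ) : ℝ :=
  (((n:ℝ) + 1) / ((n:ℝ) + 3)) ^ n * ((n:ℝ) + 1) ^ 2 / (1 + t) ^ 2
    * (u * lamK + (u * v - w ^ 2) / (((n:ℝ) + 1) / ((n:ℝ) + 3)) * (muK - lamK))

section
variable {M : Matrix (Fin n) (Fin n) ℝ} (hM : M.det ≠ 0) (c : Fin n → ℝ)
  {K : Set (Fin n → ℝ)} (hK : IsCompact K)
include hM hK

theorem affine_muAt (hV : vol K ≠ 0) (q : Fin n → ℝ) :
    muAt (affMap M c q) (affMap M c '' K) = muAt q K := by
  have hd : |M.det| ≠ 0 := abs_ne_zero.mpr hM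
  have hmat : (Matrix.of fun i j => covMatrix (affMap M c '' K) i j
        + (centroid (affMap M c '' K) i - affMap M c q i)
          * (centroid (affMap M c '' K) j - affMap M c q j))
      = M * (Matrix.of fun i j => covMatrix K i j
          + (centroid K i - q i) * (centroid K j - q j)) * M.transpose := by
    ext i j
    rw [Matrix.of_apply, affine_cov hM c hK hV, affine_centroid hM c hK hV,
      affine_centroid hM c hK hV]
    have h1 : ∀ i : Fin n, affMap M c (centroid K) i - affMap M c q i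
        = ∑ k, M i k * (centroid K k - q k) := by
      intro i
      rw [affMap_apply, affMap_apply]
      simp only [mul_sub, Finset.sum_sub_distrib]
      ring
    rw [h1, h1]
    simp only [Matrix.mul_apply, Matrix.transpose_apply, Matrix.of_apply, mul_add, add_mul,
      Finset.sum_add_distrib]
    congr 1
    rw [Finset.sum_mul_sum, Finset.sum_comm]
    apply Finset.sum_congr rfl; intro l _
    rw [Finset.sum_mul]
    apply Finset.sum_congr rfl; intro k _
    ring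
  rw [muAt, muAt, hmat, affine_vol hM c hK, Matrix.det_mul, Matrix.det_mul,
    Matrix.det_transpose, mul_pow, sq_abs]
  field_simp

end

section
variable {t : ℝ} {K : Set (Fin n → ℝ)} (ht : 0 < t) (hK : IsCompact K) (hV : vol K ≠ 0)
  (hL : lam K ≠ 0)
include ht hK hV hL

theorem bip_lam_general :
    lam (bipyramid t K)
      = stepF n t ((((n:ℝ) + 1) * (1 + t ^ 2) + 2 * t) / (((n:ℝ) + 2) ^ 2 * ((n:ℝ) + 3)))
          ((1 - t) * ((n:ℝ) + 1) / (((n:ℝ) + 2) ^ 2 * ((n:ℝ) + 3)))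
          (((n:ℝ) + 1) / (((n:ℝ) + 2) ^ 2 * ((n:ℝ) + 3))) (lam K) (muAt 0 K) := by
  have h1 : ((n:ℝ) + 1) ≠ 0 := by positivity
  have h2 : ((n:ℝ) + 2) ≠ 0 := by positivity
  have h3 : ((n:ℝ) + 3) ≠ 0 := by positivity
  have h4 : (1 + t) ≠ 0 := by positivity
  have hS : (covMatrix K).det ≠ 0 := by
    intro h; apply hL; rw [lam, h, zero_div]
  have hdet := det_tower (covMatrix K) hS (centroid K)
    ((((n:ℝ) + 1) * (1 + t ^ 2) + 2 * t) / (((n:ℝ) + 2) ^ 2 * ((n:ℝ) + 3)))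
    ((1 - t) * ((n:ℝ) + 1) / (((n:ℝ) + 2) ^ 2 * ((n:ℝ) + 3)))
    (((n:ℝ) + 1) / (((n:ℝ) + 2) ^ 2 * ((n:ℝ) + 3))) (((n:ℝ) + 1) / ((n:ℝ) + 3))
    (by positivity) (by positivity) (covMatrix (bipyramid t K)) (bip_cov00 ht hK hV)
    (fun j => bip_cov0s ht hK hV j) (fun i => bip_covs0 ht hK hV i)
    (fun i j => bip_covss ht hK hV i j)
  have hmu : muAt 0 K
      = (Matrix.of fun i j => covMatrix K i j + centroid K i * centroid K j).det / vol K ^ 2 := by
    simp [muAt]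
  rw [lam, hdet, bip_vol ht hK, stepF, hmu, lam]
  field_simp

theorem bip_mu_general :
    muAt (apexUp n) (bipyramid t K)
      = stepF n t ((((n:ℝ) + 1) * (1 + t ^ 2) + 2 * t) / (((n:ℝ) + 2) ^ 2 * ((n:ℝ) + 3))
            + (((n:ℝ) + 1 + t) / ((n:ℝ) + 2)) ^ 2)
          ((1 - t) * ((n:ℝ) + 1) / (((n:ℝ) + 2) ^ 2 * ((n:ℝ) + 3))
            + ((n:ℝ) + 1 + t) / ((n:ℝ) + 2) * (((n:ℝ) + 1) / ((n:ℝ) + 2)))
          (((n:ℝ) + 1) / (((n:ℝ) + 2) ^ 2 * ((n:ℝ) + 3)) + (((n:ℝ) + 1) / ((n:ℝ) + 2)) ^ 2)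
          (lam K) (muAt 0 K) := by
  have h1 : ((n:ℝ) + 1) ≠ 0 := by positivity
  have h2 : ((n:ℝ) + 2) ≠ 0 := by positivity
  have h3 : ((n:ℝ) + 3) ≠ 0 := by positivity
  have h4 : (1 + t) ≠ 0 := by positivity
  have hS : (covMatrix K).det ≠ 0 := by
    intro h; apply hL; rw [lam, h, zero_div]
  have hdet := det_tower (covMatrix K) hS (centroid K)
    ((((n:ℝ) + 1) * (1 + t ^ 2) + 2 * t) / (((n:ℝ) + 2) ^ 2 * ((n:ℝ) + 3))
            + (((n:ℝ) + 1 + t) / ((n:ℝ) + 2)) ^ 2)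
    ((1 - t) * ((n:ℝ) + 1) / (((n:ℝ) + 2) ^ 2 * ((n:ℝ) + 3))
            + ((n:ℝ) + 1 + t) / ((n:ℝ) + 2) * (((n:ℝ) + 1) / ((n:ℝ) + 2)))
    (((n:ℝ) + 1) / (((n:ℝ) + 2) ^ 2 * ((n:ℝ) + 3)) + (((n:ℝ) + 1) / ((n:ℝ) + 2)) ^ 2)
    (((n:ℝ) + 1) / ((n:ℝ) + 3))
    (by positivity) (by positivity)
    (Matrix.of fun i j => covMatrix (bipyramid t K) i j
      + (centroid (bipyramid t K) i - apexUp n i) * (centroid (bipyramid t K) j - apexUp n j))
    (by
      rw [Matrix.of_apply, bip_cov00 ht hK hV, bip_centroid0 ht hK hV]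
      simp only [apexUp, Fin.cons_zero]
      field_simp
      ring)
    (fun j => by
      rw [Matrix.of_apply, bip_cov0s ht hK hV, bip_centroid0 ht hK hV, bip_centroids ht hK hV]
      simp only [apexUp, Fin.cons_zero, Fin.cons_succ, Pi.zero_apply, sub_zero]
      field_simp
      ring)
    (fun i => by
      rw [Matrix.of_apply, bip_covs0 ht hK hV, bip_centroid0 ht hK hV, bip_centroids ht hK hV]
      simp only [apexUp, Fin.cons_zero, Fin.cons_succ, Pi.zero_apply, sub_zero]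
      field_simp
      ring)
    (fun i j => by
      rw [Matrix.of_apply, bip_covss ht hK hV, bip_centroids ht hK hV, bip_centroids ht hK hV]
      simp only [apexUp, Fin.cons_succ, Pi.zero_apply, sub_zero]
      ring)
  have hmu : muAt 0 K
      = (Matrix.of fun i j => covMatrix K i j + centroid K i * centroid K j).det / vol K ^ 2 := by
    simp [muAt]
  rw [muAt, hdet, bip_vol ht hK, stepF, hmu, lam]
  field_simp

end

end Vale.Agent.Lib.P254
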