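import Vale.Agent.Lib.P254.ShellDet
import Vale.Agent.Lib.P254.TowerStep

namespace Vale.Agent.Lib.P254
open MeasureTheory Set

variable {n : ℕ}

section general
variable {K : Set (Fin n → ℝ)}
  (hI : ∀ f : (Fin n → ℝ) → ℝ, Continuous f → IntegrableOn f K)
include hI

/-- covariance in terms of raw moments, for a set on which continuous functions are integrable -/
theorem cov_eq' (hV : vol K ≠ 0) (i j : Fin n) :
    covMatrix K i j = (∫ x in K, x i * x j) / vol K - centroid K i * centroid K j := by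
  set a := centroid K i with ha
  set b := centroid K j with hb
  have h1 : ∫ x in K, (x i - a) * (x j - b)
      = (∫ x in K, x i * x j) - a * (∫ x in K, x j) - b * (∫ x in K, x i)
        + a * b * (∫ _x in K, (1:ℝ)) := by
    have e : ∀ x : Fin n → ℝ, (x i - a) * (x j - b)
        = x i * x j - a * x j - b * x i + a * b * 1 := by intro x; ring
    simp_rw [e]
    have i1 : IntegrableOn (fun x : Fin n → ℝ => x i * x j) K := hI _ (by fun_prop)
    have i2 : IntegrableOn (fun x : Fin n → ℝ => a * x j) K := hI _ (by fun_prop)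
    have i3 : IntegrableOn (fun x : Fin n → ℝ => b * x i) K := hI _ (by fun_prop)
    have i4 : IntegrableOn (fun _x : Fin n → ℝ => a * b * (1:ℝ)) K := hI _ (by fun_prop)
    have i12 : IntegrableOn (fun x : Fin n → ℝ => x i * x j - a * x j) K := i1.sub i2
    have i123 : IntegrableOn (fun x : Fin n → ℝ => x i * x j - a * x j - b * x i) K := i12.sub i3
    rw [integral_add i123 i4, integral_sub i12 i3, integral_sub i1 i2,
      integral_const_mul, integral_const_mul, integral_const_mul]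
  have hAj : ∫ x in K, x j = b * vol K := by
    rw [hb, centroid]; field_simp
  have hAi : ∫ x in K, x i = a * vol K := by
    rw [ha, centroid]; field_simp
  show (∫ x in K, (x i - a) * (x j - b)) / vol K = _
  rw [h1, hAj, hAi, ← vol_eq_integral]
  field_simp
  ring

theorem cov_quadratic' (x : Fin n → ℝ) :
    ∑ i, ∑ j, x i * covMatrix K i j * x j
      = (∫ y in K, (∑ i, x i * (y i - centroid K i)) ^ 2) / vol K := by
  have e : ∀ y : Fin n → ℝ, (∑ i, x i * (y i - centroid K i)) ^ 2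
      = ∑ i, ∑ j, x i * x j * ((y i - centroid K i) * (y j - centroid K j)) := by
    intro y
    rw [sq, Finset.sum_mul_sum]
    apply Finset.sum_congr rfl; intro i _
    apply Finset.sum_congr rfl; intro j _
    ring
  simp_rw [e]
  rw [integral_finset_sum _ (fun i _ => hI _ (by fun_prop)), Finset.sum_div]
  apply Finset.sum_congr rfl; intro i _
  rw [integral_finset_sum _ (fun j _ => hI _ (by fun_prop)), Finset.sum_div]
  apply Finset.sum_congr rfl; intro j _
  rw [integral_const_mul]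
  simp only [covMatrix, Matrix.of_apply]
  ring

theorem cov_posSemidef' (hV : 0 < vol K) : (covMatrix K).PosSemidef := by
  apply Matrix.PosSemidef.of_dotProduct_mulVec_nonneg
  · ext i j
    simp only [Matrix.conjTranspose_apply, star_trivial]
    exact covMatrix_symm K j i
  · intro x
    have : star x ⬝ᵥ (covMatrix K).mulVec x = ∑ i, ∑ j, x i * covMatrix K i j * x j := by
      simp only [dotProduct, Matrix.mulVec, star_trivial, Pi.star_apply, Finset.mul_sum, mul_assoc]
    rw [this, cov_quadratic' hI]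
    apply div_nonneg _ hV.le
    apply integral_nonneg
    intro y
    positivity

theorem lam_nonneg' (hV : 0 < vol K) : 0 ≤ lam K := by
  unfold lam
  exact div_nonneg (cov_posSemidef' hI hV).det_nonneg (by positivity)

end general

/-- the pyramid over `K` with apex `(τ, 0, …, 0)` -/
def lowPyr (τ : ℝ) (K : Set (Fin n → ℝ)) : Set (Fin (n + 1) → ℝ) := flipL n (-τ) '' pyramid K

/-- the shell between the pyramids over `K` with apexes `(1, 0, …, 0)` and `(τ, 0, …, 0)` -/
def shell (τ : ℝ) (K : Set (Fin n → ℝ)) : Set (Fin (n + 1) → ℝ) := pyramid K \ lowPyr τ K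

theorem integral_lowPyr {τ : ℝ} (hτ : 0 < τ) {K : Set (Fin n → ℝ)} (hK : IsCompact K)
    (g : (Fin (n + 1) → ℝ) → ℝ) :
    ∫ x in lowPyr τ K, g x = τ * ∫ x in pyramid K, g (flipL n (-τ) x) := by
  unfold lowPyr
  have hm : MeasurableSet (pyramid K) := (isCompact_pyramid hK).isClosed.measurableSet
  have hinj : InjOn (flipL n (-τ)) (pyramid K) := by
    intro x _ y _ hxy
    ext i
    have h := congrFun hxy i
    rw [flipL_apply, flipL_apply] at h
    have hd : flipD n (-τ) i ≠ 0 := by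
      refine Fin.cases ?_ (fun j => ?_) i
      · simp [flipD]; exact hτ.ne'
      · simp [flipD]
    exact mul_left_cancel₀ hd h
  rw [integral_image_eq_integral_abs_det_fderiv_smul volume hm
    (fun x _ => (flipL n (-τ)).hasFDerivWithinAt) hinj g]
  simp only [flipL_det, neg_neg, abs_of_pos hτ, smul_eq_mul]
  rw [integral_const_mul]

theorem lowPyr_subset {τ : ℝ} (hτ0 : 0 < τ) (hτ1 : τ < 1) {K : Set (Fin n → ℝ)}
    (hc : Convex ℝ K) (h0 : (0 : Fin n → ℝ) ∈ K) : lowPyr τ K ⊆ pyramid K := by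
  rintro _ ⟨z, ⟨hz0, hz1, k, hk, hz⟩, rfl⟩
  have hden : 0 < 1 - τ * z 0 := by nlinarith
  have hr0 : 0 ≤ (1 - z 0) / (1 - τ * z 0) := div_nonneg (by linarith) hden.le
  have hr1 : (1 - z 0) / (1 - τ * z 0) ≤ 1 := by rw [div_le_one hden]; nlinarith
  refine ⟨?_, ?_, ((1 - z 0) / (1 - τ * z 0)) • k, ?_, fun i => ?_⟩
  · rw [flipL_zero]; nlinarith
  · rw [flipL_zero]; nlinarith
  · have := hc hk h0 hr0 (sub_nonneg.mpr hr1) (by ring)
    simpa using this
  · rw [flipL_zero, flipL_succ, hz i]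
    simp only [Pi.smul_apply, smul_eq_mul, neg_neg]
    have hne : 1 - τ * z 0 ≠ 0 := hden.ne'
    have hne' : 1 - z 0 * τ ≠ 0 := by rw [mul_comm]; exact hne
    field_simp

section
variable {τ : ℝ} {K : Set (Fin n → ℝ)} (hτ0 : 0 < τ) (hτ1 : τ < 1) (hK : IsCompact K)
  (hc : Convex ℝ K) (h0 : (0 : Fin n → ℝ) ∈ K)
include hτ0 hτ1 hK hc h0

theorem integral_shell (g : (Fin (n + 1) → ℝ) → ℝ) (hg : Continuous g) :
    ∫ x in shell τ K, g x
      = (∫ x in pyramid K, g x) - τ * ∫ x in pyramid K, g (flipL n (-τ) x) := by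
  unfold shell
  have hL : IsCompact (lowPyr τ K) := (isCompact_pyramid hK).image (flipL n (-τ)).continuous
  rw [setIntegral_sdiff hL.isClosed.measurableSet (intOn_of_cont (isCompact_pyramid hK) g hg)
    (lowPyr_subset hτ0 hτ1 hc h0), integral_lowPyr hτ0 hK]

omit hτ0 hτ1 hc h0 in
theorem shell_intOn (f : (Fin (n + 1) → ℝ) → ℝ) (hf : Continuous f) :
    IntegrableOn f (shell τ K) :=
  (intOn_of_cont (isCompact_pyramid hK) f hf).mono_set diff_subset

theorem shell_vol : vol (shell τ K) = (1 - τ) * (vol K / ((n:ℝ) + 1)) := by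
  rw [vol_eq_integral, integral_shell hτ0 hτ1 hK hc h0 _ (by fun_prop), ← vol_eq_integral,
    pyramid_vol hK]
  ring

theorem shell_A0 :
    ∫ x in shell τ K, x 0 = (1 - τ ^ 2) * (vol K / (((n:ℝ) + 1) * ((n:ℝ) + 2))) := by
  rw [integral_shell hτ0 hτ1 hK hc h0 (fun x => x 0) (by fun_prop)]
  simp_rw [flipL_zero]
  rw [integral_const_mul, pyramid_A0 hK]
  ring

theorem shell_As (i : Fin n) :
    ∫ x in shell τ K, x i.succ = (1 - τ) * ((∫ x in K, x i) / ((n:ℝ) + 2)) := by
  rw [integral_shell hτ0 hτ1 hK hc h0 (fun x => x i.succ) (by fun_prop)]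
  simp_rw [flipL_succ]
  rw [pyramid_As hK]
  ring

theorem shell_B00 :
    ∫ x in shell τ K, x 0 * x 0
      = (1 - τ ^ 3) * (2 * vol K / (((n:ℝ) + 1) * ((n:ℝ) + 2) * ((n:ℝ) + 3))) := by
  rw [integral_shell hτ0 hτ1 hK hc h0 (fun x => x 0 * x 0) (by fun_prop)]
  simp_rw [flipL_zero]
  have e : ∀ x : Fin (n + 1) → ℝ, -(-τ) * x 0 * (-(-τ) * x 0) = τ ^ 2 * (x 0 * x 0) := by
    intro x; ring
  simp_rw [e]
  rw [integral_const_mul, pyramid_B00 hK]
  ring

theorem shell_B0s (i : Fin n) :
    ∫ x in shell τ K, x 0 * x i.succ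
      = (1 - τ ^ 2) * ((∫ x in K, x i) / (((n:ℝ) + 2) * ((n:ℝ) + 3))) := by
  rw [integral_shell hτ0 hτ1 hK hc h0 (fun x => x 0 * x i.succ) (by fun_prop)]
  simp_rw [flipL_zero, flipL_succ]
  have e : ∀ x : Fin (n + 1) → ℝ, -(-τ) * x 0 * x i.succ = τ * (x 0 * x i.succ) := by
    intro x; ring
  simp_rw [e]
  rw [integral_const_mul, pyramid_B0s hK]
  ring

theorem shell_Bss (i j : Fin n) :
    ∫ x in shell τ K, x i.succ * x j.succ = (1 - τ) * ((∫ x in K, x i * x j) / ((n:ℝ) + 3)) := by
  rw [integral_shell hτ0 hτ1 hK hc h0 (fun x => x i.succ * x j.succ) (by fun_prop)]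
  simp_rw [flipL_succ]
  rw [pyramid_Bss hK]
  ring

end

end Vale.Agent.Lib.P254
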