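import Vale.Agent.Lib.P254.Shell

namespace Vale.Agent.Lib.P254
open MeasureTheory Set

variable {n : ℕ}

section
variable {τ : ℝ} {K : Set (Fin n → ℝ)} (hτ0 : 0 < τ) (hτ1 : τ < 1) (hK : IsCompact K)
  (hc : Convex ℝ K) (h0 : (0 : Fin n → ℝ) ∈ K) (hV : vol K ≠ 0)
include hτ0 hτ1 hK hc h0 hV

theorem shell_vol_ne : vol (shell τ K) ≠ 0 := by
  rw [shell_vol hτ0 hτ1 hK hc h0]
  have h1 : ((n:ℝ) + 1) ≠ 0 := by positivity
  have h2 : (1 - τ) ≠ 0 := by linarith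
  exact mul_ne_zero h2 (div_ne_zero hV h1)

theorem shell_centroid0 : centroid (shell τ K) 0 = (1 + τ) / ((n:ℝ) + 2) := by
  rw [centroid, shell_A0 hτ0 hτ1 hK hc h0, shell_vol hτ0 hτ1 hK hc h0]
  have h1 : ((n:ℝ) + 1) ≠ 0 := by positivity
  have h2 : ((n:ℝ) + 2) ≠ 0 := by positivity
  have h4 : (1 - τ) ≠ 0 := by linarith
  field_simp
  ring

theorem shell_centroids (i : Fin n) :
    centroid (shell τ K) i.succ = ((n:ℝ) + 1) / ((n:ℝ) + 2) * centroid K i := by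
  rw [centroid, shell_As hτ0 hτ1 hK hc h0, shell_vol hτ0 hτ1 hK hc h0, centroid]
  have h1 : ((n:ℝ) + 1) ≠ 0 := by positivity
  have h2 : ((n:ℝ) + 2) ≠ 0 := by positivity
  have h4 : (1 - τ) ≠ 0 := by linarith
  field_simp

theorem shell_cov00 :
    covMatrix (shell τ K) 0 0
      = (((n:ℝ) + 1) * (1 + τ ^ 2) - 2 * τ) / (((n:ℝ) + 2) ^ 2 * ((n:ℝ) + 3)) := by
  rw [cov_eq' (shell_intOn hK) (shell_vol_ne hτ0 hτ1 hK hc h0 hV), shell_B00 hτ0 hτ1 hK hc h0,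
    shell_vol hτ0 hτ1 hK hc h0, shell_centroid0 hτ0 hτ1 hK hc h0 hV]
  have h1 : ((n:ℝ) + 1) ≠ 0 := by positivity
  have h2 : ((n:ℝ) + 2) ≠ 0 := by positivity
  have h3 : ((n:ℝ) + 3) ≠ 0 := by positivity
  have h4 : (1 - τ) ≠ 0 := by linarith
  field_simp
  ring

theorem shell_cov0s (j : Fin n) :
    covMatrix (shell τ K) 0 j.succ
      = -((1 + τ) * ((n:ℝ) + 1) / (((n:ℝ) + 2) ^ 2 * ((n:ℝ) + 3))) * centroid K j := by
  rw [cov_eq' (shell_intOn hK) (shell_vol_ne hτ0 hτ1 hK hc h0 hV), shell_B0s hτ0 hτ1 hK hc h0,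
    shell_vol hτ0 hτ1 hK hc h0, shell_centroid0 hτ0 hτ1 hK hc h0 hV,
    shell_centroids hτ0 hτ1 hK hc h0 hV, centroid]
  have h1 : ((n:ℝ) + 1) ≠ 0 := by positivity
  have h2 : ((n:ℝ) + 2) ≠ 0 := by positivity
  have h3 : ((n:ℝ) + 3) ≠ 0 := by positivity
  have h4 : (1 - τ) ≠ 0 := by linarith
  field_simp
  ring

theorem shell_covs0 (i : Fin n) :
    covMatrix (shell τ K) i.succ 0
      = -((1 + τ) * ((n:ℝ) + 1) / (((n:ℝ) + 2) ^ 2 * ((n:ℝ) + 3))) * centroid K i := by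
  rw [covMatrix_symm, shell_cov0s hτ0 hτ1 hK hc h0 hV]

theorem shell_covss (i j : Fin n) :
    covMatrix (shell τ K) i.succ j.succ
      = ((n:ℝ) + 1) / ((n:ℝ) + 3) * covMatrix K i j
        + ((n:ℝ) + 1) / (((n:ℝ) + 2) ^ 2 * ((n:ℝ) + 3)) * centroid K i * centroid K j := by
  rw [cov_eq' (shell_intOn hK) (shell_vol_ne hτ0 hτ1 hK hc h0 hV), shell_Bss hτ0 hτ1 hK hc h0,
    shell_vol hτ0 hτ1 hK hc h0, shell_centroids hτ0 hτ1 hK hc h0 hV,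
    shell_centroids hτ0 hτ1 hK hc h0 hV, cov_eq hK hV]
  have h1 : ((n:ℝ) + 1) ≠ 0 := by positivity
  have h2 : ((n:ℝ) + 2) ≠ 0 := by positivity
  have h3 : ((n:ℝ) + 3) ≠ 0 := by positivity
  have h4 : (1 - τ) ≠ 0 := by linarith
  field_simp
  ring

/-- positive semidefiniteness of the covariance matrix of the shell, as an inequality between
`det Σ_K / |K|^2` and the normalised second moment about the origin -/
theorem shell_ineq :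
    2 * τ * (muAt 0 K - lam K)
      ≤ ((n:ℝ) + 2) * (((n:ℝ) + 1) * (1 + τ ^ 2) - 2 * τ) * lam K := by
  have h1 : ((n:ℝ) + 1) ≠ 0 := by positivity
  have h2 : ((n:ℝ) + 2) ≠ 0 := by positivity
  have h3 : ((n:ℝ) + 3) ≠ 0 := by positivity
  have hn0 : (0:ℝ) ≤ n := Nat.cast_nonneg n
  have hu : 0 < ((n:ℝ) + 1) * (1 + τ ^ 2) - 2 * τ := by nlinarith [sq_nonneg (1 - τ)]
  have hVpos : 0 < vol K := lt_of_le_of_ne ENNReal.toReal_nonneg (Ne.symm hV)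
  have hpos : 0 < vol (shell τ K) := by
    rw [shell_vol hτ0 hτ1 hK hc h0]
    have : 0 < 1 - τ := by linarith
    positivity
  have hdet := det_tower' (covMatrix K) (centroid K)
    ((((n:ℝ) + 1) * (1 + τ ^ 2) - 2 * τ) / (((n:ℝ) + 2) ^ 2 * ((n:ℝ) + 3)))
    ((1 + τ) * ((n:ℝ) + 1) / (((n:ℝ) + 2) ^ 2 * ((n:ℝ) + 3)))
    (((n:ℝ) + 1) / (((n:ℝ) + 2) ^ 2 * ((n:ℝ) + 3))) (((n:ℝ) + 1) / ((n:ℝ) + 3))
    (by positivity) (by positivity) (covMatrix (shell τ K))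
    (shell_cov00 hτ0 hτ1 hK hc h0 hV)
    (fun j => shell_cov0s hτ0 hτ1 hK hc h0 hV j) (fun i => shell_covs0 hτ0 hτ1 hK hc h0 hV i)
    (fun i j => shell_covss hτ0 hτ1 hK hc h0 hV i j)
  have hnn : 0 ≤ (covMatrix (shell τ K)).det :=
    (cov_posSemidef' (shell_intOn hK) hpos).det_nonneg
  rw [hdet] at hnn
  have hα : 0 < (((n:ℝ) + 1) / ((n:ℝ) + 3)) ^ n := by positivity
  set D0 := (covMatrix K).det with hD0
  set D1 := (Matrix.of fun i j => covMatrix K i j + centroid K i * centroid K j).det with hD1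
  have hin : 0 ≤ ((((n:ℝ) + 1) * (1 + τ ^ 2) - 2 * τ) / (((n:ℝ) + 2) ^ 2 * ((n:ℝ) + 3))) * D0
      + ((((n:ℝ) + 1) * (1 + τ ^ 2) - 2 * τ) / (((n:ℝ) + 2) ^ 2 * ((n:ℝ) + 3))
          * (((n:ℝ) + 1) / (((n:ℝ) + 2) ^ 2 * ((n:ℝ) + 3)))
          - ((1 + τ) * ((n:ℝ) + 1) / (((n:ℝ) + 2) ^ 2 * ((n:ℝ) + 3))) ^ 2)
        / (((n:ℝ) + 1) / ((n:ℝ) + 3)) * (D1 - D0) := by
    by_contra hneg
    push_neg at hneg
    have := mul_neg_of_pos_of_neg hα hneg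
    linarith
  have key : ((((n:ℝ) + 1) * (1 + τ ^ 2) - 2 * τ) / (((n:ℝ) + 2) ^ 2 * ((n:ℝ) + 3))) * D0
      + ((((n:ℝ) + 1) * (1 + τ ^ 2) - 2 * τ) / (((n:ℝ) + 2) ^ 2 * ((n:ℝ) + 3))
          * (((n:ℝ) + 1) / (((n:ℝ) + 2) ^ 2 * ((n:ℝ) + 3)))
          - ((1 + τ) * ((n:ℝ) + 1) / (((n:ℝ) + 2) ^ 2 * ((n:ℝ) + 3))) ^ 2)
        / (((n:ℝ) + 1) / ((n:ℝ) + 3)) * (D1 - D0)
      = (((n:ℝ) + 2) * (((n:ℝ) + 1) * (1 + τ ^ 2) - 2 * τ) * D0 - 2 * τ * (D1 - D0))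
        / (((n:ℝ) + 2) ^ 3 * ((n:ℝ) + 3)) := by
    field_simp
    ring
  rw [key] at hin
  have hden : 0 < ((n:ℝ) + 2) ^ 3 * ((n:ℝ) + 3) := by positivity
  have hnum : 0 ≤ ((n:ℝ) + 2) * (((n:ℝ) + 1) * (1 + τ ^ 2) - 2 * τ) * D0 - 2 * τ * (D1 - D0) := by
    by_contra hneg
    push_neg at hneg
    have := div_neg_of_neg_of_pos hneg hden
    linarith
  have hmu : muAt 0 K = D1 / vol K ^ 2 := by
    simp [muAt, hD1]
  have hV2 : 0 < vol K ^ 2 := by positivity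
  rw [hmu, lam, ← sub_nonneg]
  have e : ((n:ℝ) + 2) * (((n:ℝ) + 1) * (1 + τ ^ 2) - 2 * τ) * (D0 / vol K ^ 2)
      - 2 * τ * (D1 / vol K ^ 2 - D0 / vol K ^ 2)
      = (((n:ℝ) + 2) * (((n:ℝ) + 1) * (1 + τ ^ 2) - 2 * τ) * D0 - 2 * τ * (D1 - D0))
        / vol K ^ 2 := by
    field_simp
  rw [e]
  exact div_nonneg hnum hV2.le

end

/-- The classical sharp bound `(b_K - q)ᵀ Σ_K⁻¹ (b_K - q) ≤ n(n+2)` for `q = 0 ∈ K`, in the
determinant form `det(Σ_K + b bᵀ) ≤ (n+1)^2 det Σ_K`. -/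
theorem mu_le {K : Set (Fin n → ℝ)} (hK : IsCompact K) (hc : Convex ℝ K)
    (h0 : (0 : Fin n → ℝ) ∈ K) (hV : vol K ≠ 0) :
    muAt 0 K ≤ ((n:ℝ) + 1) ^ 2 * lam K := by
  by_contra hcon
  push_neg at hcon
  have hVpos : 0 < vol K := lt_of_le_of_ne ENNReal.toReal_nonneg (Ne.symm hV)
  have hlam : 0 ≤ lam K := lam_nonneg hK hVpos
  set D := muAt 0 K - ((n:ℝ) + 1) ^ 2 * lam K with hD
  have hDpos : 0 < D := by linarith
  set C := ((n:ℝ) + 1) * ((n:ℝ) + 2) * lam K with hC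
  have hC0 : 0 ≤ C := by positivity
  set ε := min (1 / 2) (D / (4 * C + 1)) with hε
  have hε0 : 0 < ε := lt_min (by norm_num) (div_pos hDpos (by positivity))
  have hε1 : ε ≤ 1 / 2 := min_le_left _ _
  have hε2 : ε ≤ D / (4 * C + 1) := min_le_right _ _
  have hε3 : ε * (4 * C + 1) ≤ D := by rwa [le_div_iff₀ (by positivity)] at hε2
  have hin := shell_ineq (τ := 1 - ε) (by linarith) (by linarith) hK hc h0 hV
  have hid : ((n:ℝ) + 2) * (((n:ℝ) + 1) * (1 + (1 - ε) ^ 2) - 2 * (1 - ε)) * lam K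
      - 2 * (1 - ε) * (muAt 0 K - lam K) = -2 * (1 - ε) * D + ε ^ 2 * C := by
    simp only [hD, hC]
    ring
  have h1 : ε * C ≤ D / 4 := by nlinarith
  have h2 : ε ^ 2 * C ≤ D / 8 := by nlinarith [mul_le_mul_of_nonneg_left h1 hε0.le]
  have h3 : D ≤ 2 * (1 - ε) * D := by nlinarith
  linarith

end Vale.Agent.Lib.P254
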