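import Vale.Agent.Lib.P254.TowerDet

namespace Vale.Agent.Lib.P254

/-- bordered matrix with first row `(1, -θ bᵀ)`, first column `(1, b)` and lower right block `N` -/
def bordered {n : ℕ} (N : Matrix (Fin n) (Fin n) ℝ) (b : Fin n → ℝ) (θ : ℝ) :
    Matrix (Fin (n + 1)) (Fin (n + 1)) ℝ :=
  Matrix.of fun i j => Fin.cases (Fin.cases 1 (fun j' => -θ * b j') j)
    (fun i' => Fin.cases (b i') (fun j' => N i' j') j) i

theorem det_bordered {n : ℕ} (N : Matrix (Fin n) (Fin n) ℝ) (b : Fin n → ℝ) (θ : ℝ) :
    (bordered N b θ).det = (Matrix.of fun i j => N i j + θ * b i * b j).det := by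
  let B : Matrix (Fin (n + 1)) (Fin (n + 1)) ℝ :=
    Matrix.of (fun i j => Fin.cases (bordered N b θ 0 j)
      (fun i' => Fin.cases 0 (fun j' => N i' j' + θ * b i' * b j') j) i)
  have hB : (bordered N b θ).det = B.det := by
    apply Matrix.det_eq_of_forall_row_eq_smul_add_const
      (Fin.cases 0 (fun i' => b i')) 0 (by simp)
    intro i j
    refine Fin.cases ?_ (fun i' => ?_) i
    · simp [B]
    · refine Fin.cases ?_ (fun j' => ?_) j
      · simp [B, bordered]
      · simp [B, bordered]
        ring
  rw [hB, Matrix.det_succ_column_zero, Fin.sum_univ_succ]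
  have hz : ∀ i : Fin n, B i.succ 0 = 0 := by intro i; simp [B]
  have h0 : B 0 0 = 1 := by simp [B, bordered]
  have hsub : B.submatrix (Fin.succAbove 0) Fin.succ
      = Matrix.of fun i j => N i j + θ * b i * b j := by
    ext i j
    simp [B]
  simp only [hz, mul_zero, zero_mul, Finset.sum_const_zero, add_zero, h0, Fin.val_zero, pow_zero,
    one_mul, hsub]

theorem bordered_row {n : ℕ} (N : Matrix (Fin n) (Fin n) ℝ) (b : Fin n → ℝ) (θ : ℝ) :
    bordered N b θ = Matrix.updateRow (bordered N b 0) 0
      ((1 - θ) • (bordered N b 0 0) + θ • (bordered N b 1 0)) := by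
  ext i j
  refine Fin.cases ?_ (fun i' => ?_) i
  · rw [Matrix.updateRow_self]
    refine Fin.cases ?_ (fun j' => ?_) j
    · simp [bordered]
    · simp [bordered]
  · rw [Matrix.updateRow_ne (Fin.succ_ne_zero i')]
    simp [bordered]

/-- a rank-one update has determinant affine in the coefficient (no invertibility needed) -/
theorem det_rank_one_lin' {n : ℕ} (N : Matrix (Fin n) (Fin n) ℝ) (b : Fin n → ℝ) (θ : ℝ) :
    (Matrix.of fun i j => N i j + θ * b i * b j).det
      = N.det + θ * ((Matrix.of fun i j => N i j + b i * b j).det - N.det) := by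
  have h0 : (bordered N b 0).det = N.det := by
    rw [det_bordered]
    congr 1
    ext i j
    simp
  have h1 : (bordered N b 1).det = (Matrix.of fun i j => N i j + b i * b j).det := by
    rw [det_bordered]
    congr 1
    ext i j
    simp
  have hr0 : Matrix.updateRow (bordered N b 0) 0 (bordered N b 0 0) = bordered N b 0 :=
    Matrix.updateRow_eq_self _ _
  have hr1 : Matrix.updateRow (bordered N b 0) 0 (bordered N b 1 0) = bordered N b 1 := by
    ext i j
    refine Fin.cases ?_ (fun i' => ?_) i
    · rw [Matrix.updateRow_self]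
    · rw [Matrix.updateRow_ne (Fin.succ_ne_zero i')]
      simp [bordered]
  rw [← det_bordered, bordered_row, Matrix.det_updateRow_add, Matrix.det_updateRow_smul,
    Matrix.det_updateRow_smul, hr0, hr1, h0, h1]
  ring

/-- `det_tower` without the invertibility hypothesis -/
theorem det_tower' {n : ℕ} (S : Matrix (Fin n) (Fin n) ℝ) (b : Fin n → ℝ)
    (u w v α : ℝ) (hu : u ≠ 0) (hα : α ≠ 0)
    (M' : Matrix (Fin (n + 1)) (Fin (n + 1)) ℝ) (h00 : M' 0 0 = u)
    (h0s : ∀ j : Fin n, M' 0 j.succ = -w * b j) (hs0 : ∀ i : Fin n, M' i.succ 0 = -w * b i)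
    (hss : ∀ i j : Fin n, M' i.succ j.succ = α * S i j + v * b i * b j) :
    M'.det = α ^ n * (u * S.det
      + (u * v - w ^ 2) / α * ((Matrix.of fun i j => S i j + b i * b j).det - S.det)) := by
  have h1 := det_bip_step (Matrix.of fun i j => α * S i j) b u w v hu M' h00 h0s hs0
    (fun i j => by rw [hss]; rfl)
  have e : (Matrix.of fun i j : Fin n =>
        (Matrix.of fun i j => α * S i j) i j + (v - w ^ 2 / u) * b i * b j)
      = α • (Matrix.of fun i j : Fin n => S i j + ((v - w ^ 2 / u) / α) * b i * b j) := by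
    ext i j
    simp only [Matrix.of_apply, Matrix.smul_apply, smul_eq_mul]
    field_simp
  rw [h1, e, Matrix.det_smul, Fintype.card_fin, det_rank_one_lin' S b]
  field_simp

end Vale.Agent.Lib.P254
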