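import Vale.Agent.Lib.P254.SimplexMoments

namespace Vale.Agent.Lib.P254
open MeasureTheory Set

variable {n : ℕ}

/-- The standard solid simplex translated by `-p`: the set `{y | y + p ∈ S_n}`. If `p ∈ S_n`
it is a simplex containing the origin. -/
def shiftedSimplex (n : ℕ) (p : Fin n → ℝ) : Set (Fin n → ℝ) := {y | y + p ∈ solidSimplex n}

theorem integral_shift (p : Fin n → ℝ) (S : Set (Fin n → ℝ)) (g : (Fin n → ℝ) → ℝ) :
    ∫ y in {y | y + p ∈ S}, g (y + p) = ∫ z in S, g z :=
  (measurePreserving_add_right volume p).setIntegral_preimage_emb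
    (measurableEmbedding_addRight p) g S

theorem shift_vol (p : Fin n → ℝ) (S : Set (Fin n → ℝ)) : vol {y | y + p ∈ S} = vol S := by
  rw [vol_eq_integral, vol_eq_integral]
  exact integral_shift p S (fun _ => (1:ℝ))

theorem shift_int1 (p : Fin n → ℝ) {S : Set (Fin n → ℝ)} (hS : IsCompact S) (i : Fin n) :
    ∫ y in {y | y + p ∈ S}, y i = (∫ z in S, z i) - p i * vol S := by
  have h := integral_shift p S (fun z => z i - p i)
  simp only [Pi.add_apply, add_sub_cancel_right] at h
  rw [h, integral_sub (intOn_of_cont hS _ (by fun_prop)) (intOn_of_cont hS _ (by fun_prop)),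
    vol_eq_integral, setIntegral_const, setIntegral_const]
  simp only [smul_eq_mul, mul_one]
  ring

theorem shift_int2 (p : Fin n → ℝ) {S : Set (Fin n → ℝ)} (hS : IsCompact S) (i j : Fin n) :
    ∫ y in {y | y + p ∈ S}, y i * y j
      = (∫ z in S, z i * z j) - p i * (∫ z in S, z j) - p j * (∫ z in S, z i)
        + p i * p j * vol S := by
  have h := integral_shift p S (fun z => (z i - p i) * (z j - p j))
  simp only [Pi.add_apply, add_sub_cancel_right] at h
  rw [h]
  have e : ∀ z : Fin n → ℝ, (z i - p i) * (z j - p j)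
      = z i * z j - p i * z j - p j * z i + p i * p j * 1 := by intro z; ring
  simp_rw [e]
  have i1 : IntegrableOn (fun z : Fin n → ℝ => z i * z j) S := intOn_of_cont hS _ (by fun_prop)
  have i2 : IntegrableOn (fun z : Fin n → ℝ => p i * z j) S := intOn_of_cont hS _ (by fun_prop)
  have i3 : IntegrableOn (fun z : Fin n → ℝ => p j * z i) S := intOn_of_cont hS _ (by fun_prop)
  have i4 : IntegrableOn (fun _z : Fin n → ℝ => p i * p j * (1:ℝ)) S :=
    intOn_of_cont hS _ (by fun_prop)
  have i12 : IntegrableOn (fun z : Fin n → ℝ => z i * z j - p i * z j) S := i1.sub i2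
  have i123 : IntegrableOn (fun z : Fin n → ℝ => z i * z j - p i * z j - p j * z i) S :=
    i12.sub i3
  rw [integral_add i123 i4, integral_sub i12 i3, integral_sub i1 i2,
    integral_const_mul, integral_const_mul, integral_const_mul, vol_eq_integral]

theorem shift_compact (p : Fin n → ℝ) {S : Set (Fin n → ℝ)} (hS : IsCompact S) :
    IsCompact {y | y + p ∈ S} :=
  (Homeomorph.addRight p).isCompact_preimage.mpr hS

theorem shift_convex (p : Fin n → ℝ) {S : Set (Fin n → ℝ)} (hS : Convex ℝ S) :
    Convex ℝ {y | y + p ∈ S} := by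
  intro x hx y hy a b ha hb hab
  have h := hS hx hy ha hb hab
  have e : a • x + b • y + p = a • (x + p) + b • (y + p) := by
    rw [smul_add, smul_add]
    have : p = a • p + b • p := by rw [← add_smul, hab, one_smul]
    nth_rewrite 1 [this]
    abel
  show a • x + b • y + p ∈ S
  rw [e]; exact h

theorem shift_interior (p : Fin n → ℝ) {S : Set (Fin n → ℝ)} (hS : (interior S).Nonempty) :
    (interior {y | y + p ∈ S}).Nonempty := by
  obtain ⟨z, hz⟩ := hS
  have : (Homeomorph.addRight p) ⁻¹' interior S = interior ((Homeomorph.addRight p) ⁻¹' S) :=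
    (Homeomorph.addRight p).preimage_interior S
  refine ⟨z - p, ?_⟩
  have h2 : z - p ∈ (Homeomorph.addRight p) ⁻¹' interior S := by
    show z - p + p ∈ interior S
    simpa using hz
  rw [this] at h2
  exact h2

theorem shiftedSimplex_compact (n : ℕ) (p : Fin n → ℝ) : IsCompact (shiftedSimplex n p) :=
  shift_compact p (solidSimplex_compact n)

theorem shiftedSimplex_convex (n : ℕ) (p : Fin n → ℝ) : Convex ℝ (shiftedSimplex n p) :=
  shift_convex p (solidSimplex_convex n)

theorem shiftedSimplex_body (n : ℕ) (p : Fin n → ℝ) : IsConvexBody (shiftedSimplex n p) :=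
  ⟨shiftedSimplex_compact n p, shiftedSimplex_convex n p,
    shift_interior p (solidSimplex_interior n)⟩

theorem shiftedSimplex_zero_mem {p : Fin n → ℝ} (hp : p ∈ solidSimplex n) :
    (0 : Fin n → ℝ) ∈ shiftedSimplex n p := by
  show (0 : Fin n → ℝ) + p ∈ solidSimplex n
  simpa using hp

theorem shiftedSimplex_vol (n : ℕ) (p : Fin n → ℝ) :
    vol (shiftedSimplex n p) = 1 / (n.factorial : ℝ) := by
  rw [shiftedSimplex, shift_vol, vol_solidSimplex]

theorem shiftedSimplex_int1 (n : ℕ) (p : Fin n → ℝ) (i : Fin n) :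
    ∫ y in shiftedSimplex n p, y i
      = 1 / ((n + 1).factorial : ℝ) - p i * (1 / (n.factorial : ℝ)) := by
  rw [shiftedSimplex, shift_int1 p (solidSimplex_compact n), int1_solidSimplex, vol_solidSimplex]

theorem shiftedSimplex_int2 (n : ℕ) (p : Fin n → ℝ) (i j : Fin n) :
    ∫ y in shiftedSimplex n p, y i * y j
      = (if i = j then 2 else 1) / ((n + 2).factorial : ℝ) - p i * (1 / ((n + 1).factorial : ℝ))
        - p j * (1 / ((n + 1).factorial : ℝ)) + p i * p j * (1 / (n.factorial : ℝ)) := by
  rw [shiftedSimplex, shift_int2 p (solidSimplex_compact n), int2_solidSimplex, int1_solidSimplex,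
    int1_solidSimplex, vol_solidSimplex]

end Vale.Agent.Lib.P254
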