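import Vale.Agent.Lib.P254.Final

namespace Vale.Agent.Lib.P254
open MeasureTheory Set

theorem vol_solidSimplex (n : ℕ) : vol (solidSimplex n) = 1 / (n.factorial : ℝ) := by
  induction n with
  | zero =>
    have : solidSimplex 0 = univ := by
      ext x; simp [solidSimplex]
    rw [this, vol, volume_pi, Measure.pi_empty_univ]
    simp
  | succ n ih =>
    rw [← pyramid_solidSimplex, pyramid_vol (solidSimplex_compact n), ih, Nat.factorial_succ]
    push_cast
    have h1 : ((n:ℝ) + 1) ≠ 0 := by positivity
    have h2 : (n.factorial : ℝ) ≠ 0 := by positivity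
    field_simp

theorem int1_solidSimplex (n : ℕ) (i : Fin n) :
    ∫ x in solidSimplex n, x i = 1 / ((n + 1).factorial : ℝ) := by
  induction n with
  | zero => exact Fin.elim0 i
  | succ n ih =>
    rw [← pyramid_solidSimplex]
    have h1 : ((n:ℝ) + 1) ≠ 0 := by positivity
    have h2 : ((n:ℝ) + 2) ≠ 0 := by positivity
    have h3 : (n.factorial : ℝ) ≠ 0 := by positivity
    refine Fin.cases ?_ (fun j => ?_) i
    · rw [pyramid_A0 (solidSimplex_compact n), vol_solidSimplex, Nat.factorial_succ,
        Nat.factorial_succ]
      push_cast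
      field_simp
      ring
    · rw [pyramid_As (solidSimplex_compact n), ih j, Nat.factorial_succ (n + 1)]
      push_cast
      have h4 : ((n + 1).factorial : ℝ) ≠ 0 := by positivity
      field_simp
      ring

theorem int2_solidSimplex (n : ℕ) (i j : Fin n) :
    ∫ x in solidSimplex n, x i * x j
      = (if i = j then 2 else 1) / ((n + 2).factorial : ℝ) := by
  induction n with
  | zero => exact Fin.elim0 i
  | succ n ih =>
    rw [← pyramid_solidSimplex]
    have h1 : ((n:ℝ) + 1) ≠ 0 := by positivity
    have h2 : ((n:ℝ) + 2) ≠ 0 := by positivity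
    have h3 : ((n:ℝ) + 3) ≠ 0 := by positivity
    have h4 : (n.factorial : ℝ) ≠ 0 := by positivity
    have h5 : ((n + 1).factorial : ℝ) ≠ 0 := by positivity
    have h6 : ((n + 2).factorial : ℝ) ≠ 0 := by positivity
    have f3 : ((n + 1 + 2).factorial : ℝ) = ((n:ℝ) + 3) * ((n:ℝ) + 2) * ((n:ℝ) + 1) * n.factorial := by
      rw [show n + 1 + 2 = (n + 2) + 1 by ring, Nat.factorial_succ, Nat.factorial_succ,
        Nat.factorial_succ]
      push_cast
      ring
    have f2 : ((n + 2).factorial : ℝ) = ((n:ℝ) + 2) * ((n:ℝ) + 1) * n.factorial := by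
      rw [Nat.factorial_succ, Nat.factorial_succ]
      push_cast
      ring
    have f1 : ((n + 1).factorial : ℝ) = ((n:ℝ) + 1) * n.factorial := by
      rw [Nat.factorial_succ]
      push_cast
      ring
    refine Fin.cases ?_ (fun i' => ?_) i
    · refine Fin.cases ?_ (fun j' => ?_) j
      · rw [pyramid_B00 (solidSimplex_compact n), vol_solidSimplex, f3]
        simp only [if_true]
        field_simp
      · rw [pyramid_B0s (solidSimplex_compact n), int1_solidSimplex, f3, f1]
        have hne : (0 : Fin (n + 1)) ≠ j'.succ := (Fin.succ_ne_zero j').symm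
        simp only [hne, if_false]
        field_simp
    · refine Fin.cases ?_ (fun j' => ?_) j
      · have hcomm : ∀ x : Fin (n + 1) → ℝ, x i'.succ * x 0 = x 0 * x i'.succ :=
          fun x => mul_comm _ _
        simp_rw [hcomm]
        rw [pyramid_B0s (solidSimplex_compact n), int1_solidSimplex, f3, f1]
        have hne : i'.succ ≠ (0 : Fin (n + 1)) := Fin.succ_ne_zero i'
        simp only [hne, if_false]
        field_simp
      · rw [pyramid_Bss (solidSimplex_compact n), ih i' j', f3, f2]
        by_cases h : i' = j'
        · simp only [h, if_true]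
          field_simp
        · have hne : i'.succ ≠ j'.succ := fun hh => h (Fin.succ_injective _ hh)
          simp only [h, hne, if_false]
          field_simp

end Vale.Agent.Lib.P254
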