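import Vale.Agent.Lib.P254.BipDet

namespace Vale.Agent.Lib.P254

/-- a rank-one update of an invertible matrix has determinant affine in the coefficient -/
theorem det_rank_one_lin {n : ℕ} (N : Matrix (Fin n) (Fin n) ℝ) (hN : N.det ≠ 0) (b : Fin n → ℝ)
    (θ : ℝ) :
    (Matrix.of fun i j => N i j + θ * b i * b j).det
      = N.det + θ * ((Matrix.of fun i j => N i j + b i * b j).det - N.det) := by
  have hu : IsUnit N.det := isUnit_iff_ne_zero.mpr hN
  have e1 : (Matrix.of fun i j => N i j + θ * b i * b j)
      = N + Matrix.replicateCol Unit (θ • b) * Matrix.replicateRow Unit b := by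
    ext i j
    simp [Matrix.mul_apply]
    ring
  have e2 : (Matrix.of fun i j => N i j + b i * b j)
      = N + Matrix.replicateCol Unit b * Matrix.replicateRow Unit b := by
    ext i j
    simp [Matrix.mul_apply]
  rw [e1, e2, Matrix.det_add_replicateCol_mul_replicateRow hu,
    Matrix.det_add_replicateCol_mul_replicateRow hu,
    Matrix.det_unique (1 + Matrix.replicateRow Unit b * N⁻¹ * Matrix.replicateCol Unit (θ • b)),
    Matrix.det_unique (1 + Matrix.replicateRow Unit b * N⁻¹ * Matrix.replicateCol Unit b)]
  have e3 : (Matrix.replicateRow Unit b * N⁻¹ * Matrix.replicateCol Unit (θ • b)) default default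
      = θ * (Matrix.replicateRow Unit b * N⁻¹ * Matrix.replicateCol Unit b) default default := by
    rw [Matrix.replicateCol_smul, Matrix.mul_smul, Matrix.smul_apply, smul_eq_mul]
  simp only [Matrix.add_apply, Matrix.one_apply_eq, e3]
  ring

/-- determinant of the bordered matrix arising from a bipyramid over a general base -/
theorem det_tower {n : ℕ} (S : Matrix (Fin n) (Fin n) ℝ) (hS : S.det ≠ 0) (b : Fin n → ℝ)
    (u w v α : ℝ) (hu : u ≠ 0) (hα : α ≠ 0)
    (M' : Matrix (Fin (n + 1)) (Fin (n + 1)) ℝ) (h00 : M' 0 0 = u)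
    (h0s : ∀ j : Fin n, M' 0 j.succ = -w * b j) (hs0 : ∀ i : Fin n, M' i.succ 0 = -w * b i)
    (hss : ∀ i j : Fin n, M' i.succ j.succ = α * S i j + v * b i * b j) :
    M'.det = α ^ n * (u * S.det
      + (u * v - w ^ 2) / α * ((Matrix.of fun i j => S i j + b i * b j).det - S.det)) := by
  have h1 := det_bip_step (Matrix.of fun i j => α * S i j) b u w v hu M' h00 h0s hs0
    (fun i j => by rw [hss]; rfl)
  have e : (Matrix.of fun i j : Fin n =>
        (Matrix.of fun i j => α * S i j) i j + (v - w ^ 2 / u) * b i * b j)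
      = α • (Matrix.of fun i j : Fin n => S i j + ((v - w ^ 2 / u) / α) * b i * b j) := by
    ext i j
    simp only [Matrix.of_apply, Matrix.smul_apply, smul_eq_mul]
    field_simp
  rw [h1, e, Matrix.det_smul, Fintype.card_fin, det_rank_one_lin S hS b]
  field_simp

end Vale.Agent.Lib.P254
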