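import Vale.Agent.Lib.P254.TowerGeom

namespace Vale.Agent.Lib.P254
open MeasureTheory Set

variable {n : ℕ}

/-- the matrix of the coordinate permutation `x ↦ x ∘ σ` -/
def permMat (σ : Equiv.Perm (Fin n)) : Matrix (Fin n) (Fin n) ℝ :=
  Matrix.of fun i j => if σ i = j then 1 else 0

theorem permMat_mulVec (σ : Equiv.Perm (Fin n)) (x : Fin n → ℝ) (i : Fin n) :
    (permMat σ).mulVec x i = x (σ i) := by
  simp [permMat, Matrix.mulVec, dotProduct]

theorem permMat_det_ne (σ : Equiv.Perm (Fin n)) : (permMat σ).det ≠ 0 := by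
  have hinj : Function.Injective (permMat σ).mulVec := by
    intro x y hxy
    ext j
    have := congrFun hxy (σ⁻¹ j)
    rw [permMat_mulVec, permMat_mulVec] at this
    simpa using this
  exact ((Matrix.isUnit_iff_isUnit_det _).mp (Matrix.mulVec_injective_iff_isUnit.mp hinj)).ne_zero

theorem permMat_sVert_succ (σ : Equiv.Perm (Fin n)) (i : Fin n) :
    affMap (permMat σ) 0 (sVert n i.succ) = sVert n (σ⁻¹ i).succ := by
  ext k
  show (permMat σ).mulVec (sVert n i.succ) k + (0 : Fin n → ℝ) k = _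
  rw [permMat_mulVec]
  simp only [sVert, Fin.cons_succ, Pi.single_apply, Pi.zero_apply, add_zero]
  have hiff : σ k = i ↔ k = σ⁻¹ i := by
    constructor
    · intro h; rw [← h]; simp
    · intro h; rw [h]; simp
  simp only [hiff]

theorem simplexPlus_perm (σ : Equiv.Perm (Fin n)) (θ : Fin n → ℝ) :
    simplexPlus n (θ ∘ σ) = affMap (permMat σ) 0 '' simplexPlus n θ := by
  unfold simplexPlus
  rw [affMap_image_convexHull, image_insert_eq, ← range_comp]
  have hθ : affMap (permMat σ) 0 θ = θ ∘ σ := by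
    ext i
    show (permMat σ).mulVec θ i + (0 : Fin n → ℝ) i = _
    rw [permMat_mulVec]; simp
  have h0 : affMap (permMat σ) 0 (sVert n 0) = sVert n 0 := by
    have : sVert n 0 = 0 := by simp [sVert]
    rw [this]; simp [affMap]
  have hr : range (affMap (permMat σ) 0 ∘ sVert n) = range (sVert n) := by
    ext x
    constructor
    · rintro ⟨j, rfl⟩
      refine Fin.cases ?_ (fun i => ?_) j
      · exact ⟨0, h0.symm⟩
      · exact ⟨(σ⁻¹ i).succ, (permMat_sVert_succ σ i).symm⟩
    · rintro ⟨j, rfl⟩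
      refine Fin.cases ?_ (fun i => ?_) j
      · exact ⟨0, h0⟩
      · refine ⟨(σ i).succ, ?_⟩
        rw [Function.comp_apply, permMat_sVert_succ]
        simp
  rw [hθ, hr]

/-- the matrix `I - p 1ᵀ` of the linear map `x ↦ x - (∑ x_j) p` -/
def baseMat (n : ℕ) (p : Fin n → ℝ) : Matrix (Fin n) (Fin n) ℝ :=
  Matrix.of fun i j => (if i = j then 1 else 0) - p i

theorem baseMat_mulVec (p x : Fin n → ℝ) (i : Fin n) :
    (baseMat n p).mulVec x i = x i - (∑ j, x j) * p i := by
  simp only [baseMat, Matrix.mulVec, dotProduct, Matrix.of_apply, sub_mul, Finset.sum_sub_distrib,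
    ite_mul, one_mul, zero_mul, Finset.sum_ite_eq, Finset.mem_univ, if_true, ← Finset.mul_sum]
  ring

theorem baseMat_det_ne {p : Fin n → ℝ} (hp : ∑ i, p i ≠ 1) : (baseMat n p).det ≠ 0 := by
  have hinj : Function.Injective (baseMat n p).mulVec := by
    intro x y hxy
    have h0 : (baseMat n p).mulVec (x - y) = 0 := by rw [Matrix.mulVec_sub, hxy, sub_self]
    set d := x - y with hd
    have hd' : ∀ i, d i = (∑ j, d j) * p i := fun i => by
      have := congrFun h0 i
      rw [baseMat_mulVec] at this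
      simp only [Pi.zero_apply] at this
      linarith
    have hsum : (∑ j, d j) * (1 - ∑ i, p i) = 0 := by
      have : ∑ i, d i = ∑ i, (∑ j, d j) * p i := Finset.sum_congr rfl (fun i _ => hd' i)
      rw [← Finset.mul_sum] at this
      linear_combination this
    have hz : ∑ j, d j = 0 := by
      rcases mul_eq_zero.mp hsum with h | h
      · exact h
      · exact absurd (by linarith) hp
    have hdz : d = 0 := by
      ext i; rw [hd' i, hz]; simp
    exact sub_eq_zero.mp hdz
  exact ((Matrix.isUnit_iff_isUnit_det _).mp (Matrix.mulVec_injective_iff_isUnit.mp hinj)).ne_zero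

theorem simplexPlus_base {θ : Fin n → ℝ} (hθ : ∀ i, θ i ≤ 0) :
    (fun i => -θ i / (1 - ∑ j, θ j)) ∈ solidSimplex n ∧
    ∑ i, -θ i / (1 - ∑ j, θ j) ≠ 1 ∧
    shiftedSimplex n (fun i => -θ i / (1 - ∑ j, θ j))
      = affMap (baseMat n (fun i => -θ i / (1 - ∑ j, θ j))) 0 '' simplexPlus n θ := by
  set s : ℝ := 1 - ∑ j, θ j with hs
  have hs1 : 1 ≤ s := by
    have : ∑ j, θ j ≤ 0 := Finset.sum_nonpos (fun j _ => hθ j)
    linarith
  have hs0 : 0 < s := by linarith
  set p : Fin n → ℝ := fun i => -θ i / s with hp_def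
  have hpsum : ∑ i, p i = (s - 1) / s := by
    simp only [hp_def]
    rw [← Finset.sum_div, Finset.sum_neg_distrib]
    rw [hs]; ring
  have hp : p ∈ solidSimplex n := by
    refine ⟨fun i => div_nonneg (by linarith [hθ i]) hs0.le, ?_⟩
    rw [hpsum, div_le_one hs0]; linarith
  have hpne : ∑ i, p i ≠ 1 := by
    rw [hpsum]
    intro h
    rw [div_eq_one_iff_eq hs0.ne'] at h
    linarith
  refine ⟨hp, hpne, ?_⟩
  have hS : shiftedSimplex n p = convexHull ℝ (range (affMap 1 (-p) ∘ sVert n)) := by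
    rw [shiftedSimplex_eq_image, solidSimplex_eq_hull, affMap_image_convexHull, ← range_comp]
  unfold simplexPlus
  rw [hS, affMap_image_convexHull, image_insert_eq, ← range_comp]
  have hBθ : affMap (baseMat n p) 0 θ = affMap 1 (-p) (sVert n 0) := by
    ext i
    show (baseMat n p).mulVec θ i + (0 : Fin n → ℝ) i
      = (1 : Matrix (Fin n) (Fin n) ℝ).mulVec (sVert n 0) i + (-p) i
    rw [baseMat_mulVec]
    have : sVert n 0 = 0 := by simp [sVert]
    rw [this]
    simp only [Matrix.mulVec_zero, Pi.zero_apply, add_zero, zero_add, Pi.neg_apply, hp_def]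
    have hsum : ∑ j, θ j = 1 - s := by rw [hs]; ring
    rw [hsum]
    field_simp
    ring
  have hBs : ∀ i : Fin n,
      affMap (baseMat n p) 0 (sVert n i.succ) = affMap 1 (-p) (sVert n i.succ) := by
    intro i
    ext k
    show (baseMat n p).mulVec (sVert n i.succ) k + (0 : Fin n → ℝ) k
      = (1 : Matrix (Fin n) (Fin n) ℝ).mulVec (sVert n i.succ) k + (-p) k
    rw [baseMat_mulVec]
    simp [sVert, Pi.single_apply, Matrix.one_apply]
    ring
  have hB0 : affMap (baseMat n p) 0 (sVert n 0) = 0 := by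
    have : sVert n 0 = 0 := by simp [sVert]
    rw [this]; simp [affMap]
  apply Subset.antisymm
  · apply convexHull_min _ (convex_convexHull ℝ _)
    rintro x ⟨j, rfl⟩
    refine Fin.cases ?_ (fun i => ?_) j
    · exact subset_convexHull ℝ _ (Or.inl hBθ.symm)
    · exact subset_convexHull ℝ _ (Or.inr ⟨i.succ, hBs i⟩)
  · apply convexHull_min _ (convex_convexHull ℝ _)
    rintro x (rfl | ⟨j, rfl⟩)
    · rw [hBθ]; exact subset_convexHull ℝ _ ⟨0, rfl⟩
    · refine Fin.cases ?_ (fun i => ?_) j
      · rw [Function.comp_apply, hB0, ← hS]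
        exact shiftedSimplex_zero_mem hp
      · rw [Function.comp_apply, hBs]; exact subset_convexHull ℝ _ ⟨i.succ, rfl⟩

end Vale.Agent.Lib.P254
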