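import Vale.Agent.Lib.P254.TowerStep

namespace Vale.Agent.Lib.P254
open MeasureTheory Set

variable {n : ℕ}

/-- The two invariants carried through the induction: `det Σ_K / |K|^2` and the normalised second
moment about the marked point `q`, expressed through three parameters `a, G, g`. -/
def GoodAt (n : ℕ) (K : Set (Fin n → ℝ)) (q : Fin n → ℝ) (a G g : ℝ) : Prop :=
  lam K = lam (solidSimplex n) * (1 - a * (1 - G)) ∧
  muAt q K = lam (solidSimplex n) * ((n:ℝ) + 1)
    * (((n:ℝ) + 1) * (1 - a * (1 - G)) - ((n:ℝ) + 2) * a * g ^ 2)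

theorem lamSimplex_succ_formula (n : ℕ) :
    lam (solidSimplex (n + 1))
      = (((n:ℝ) + 1) / ((n:ℝ) + 3)) ^ n * (((n:ℝ) + 1) ^ 3 / (((n:ℝ) + 3) * ((n:ℝ) + 2) ^ 2))
        * lam (solidSimplex n) := by
  rw [← pyramid_solidSimplex, pyramid_lam_body (solidSimplex_body n), cn, div_pow]
  have h1 : ((n:ℝ) + 1) ≠ 0 := by positivity
  have h2 : ((n:ℝ) + 2) ≠ 0 := by positivity
  have h3 : ((n:ℝ) + 3) ≠ 0 := by positivity
  field_simp
  ring

theorem good_step {K : Set (Fin n → ℝ)} {a G g t : ℝ} (ht : 0 < t) (hK : IsCompact K)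
    (hV : vol K ≠ 0) (hX : 0 < 1 - a * (1 - G)) (h : GoodAt n K 0 a G g) :
    GoodAt (n + 1) (bipyramid t K) (apexUp n) a (G - 2 * g ^ 2 * t / (1 + t) ^ 2)
      (g * t / (1 + t)) := by
  obtain ⟨hl, hm⟩ := h
  have hpos := lam_solidSimplex_pos n
  have hL : lam K ≠ 0 := by rw [hl]; positivity
  have h1 : ((n:ℝ) + 1) ≠ 0 := by positivity
  have h2 : ((n:ℝ) + 2) ≠ 0 := by positivity
  have h3 : ((n:ℝ) + 3) ≠ 0 := by positivity
  have h4 : (1 + t) ≠ 0 := by positivity
  constructor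
  · rw [bip_lam_general ht hK hV hL, hl, hm, stepF, lamSimplex_succ_formula]
    field_simp
    ring
  · rw [bip_mu_general ht hK hV hL, hl, hm, stepF, lamSimplex_succ_formula]
    push_cast
    field_simp
    ring

theorem good_affine_iff {M : Matrix (Fin n) (Fin n) ℝ} (hM : M.det ≠ 0) (c : Fin n → ℝ)
    {K : Set (Fin n → ℝ)} (hK : IsCompact K) (hV : vol K ≠ 0) (q : Fin n → ℝ) (a G g : ℝ) :
    GoodAt n (affMap M c '' K) (affMap M c q) a G g ↔ GoodAt n K q a G g := by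
  unfold GoodAt
  rw [affine_lam hM c hK hV, affine_muAt hM c hK hV]

theorem shiftedSimplex_eq_image (p : Fin n → ℝ) :
    shiftedSimplex n p = affMap 1 (-p) '' solidSimplex n := by
  ext y
  constructor
  · intro hy
    exact ⟨y + p, hy, by simp [affMap]⟩
  · rintro ⟨x, hx, rfl⟩
    show affMap 1 (-p) x + p ∈ solidSimplex n
    simpa [affMap] using hx

theorem shiftedSimplex_lam (p : Fin n → ℝ) : lam (shiftedSimplex n p) = lam (solidSimplex n) := by
  rw [shiftedSimplex_eq_image]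
  exact affine_lam (by simp) (-p) (solidSimplex_compact n) (vol_pos_of_body (solidSimplex_body n)).ne'

theorem shiftedSimplex_mu (p : Fin n → ℝ) :
    muAt 0 (shiftedSimplex n p)
      = lam (solidSimplex n) * ((n:ℝ) + 1)
        * (((n:ℝ) + 1) * (1 - defect p * (1 - 1)) - ((n:ℝ) + 2) * defect p * 1 ^ 2) := by
  have h1 : ((n:ℝ) + 1) ≠ 0 := by positivity
  have h2 : ((n:ℝ) + 2) ≠ 0 := by positivity
  have h5 : (n.factorial : ℝ) ≠ 0 := by positivity
  set c : ℝ := 1 / (((n:ℝ) + 1) * ((n:ℝ) + 2)) with hc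
  set a : ℝ := 1 / (((n:ℝ) + 1) ^ 2 * ((n:ℝ) + 2)) with ha
  have hmat : (Matrix.of fun i j : Fin n => covMatrix (shiftedSimplex n p) i j
        + (centroid (shiftedSimplex n p) i - (0 : Fin n → ℝ) i)
          * (centroid (shiftedSimplex n p) j - (0 : Fin n → ℝ) j))
      = Matrix.of fun i j : Fin n => (if i = j then c else 0) - a
          + 1 * (1 / ((n:ℝ) + 1) - p i) * (1 / ((n:ℝ) + 1) - p j) := by
    ext i j
    simp only [Matrix.of_apply, shiftedSimplex_cov, shiftedSimplex_centroid, Pi.zero_apply,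
      sub_zero]
    by_cases h : i = j
    · simp only [h, if_true, hc, ha]
      field_simp
    · simp only [h, if_false, hc, ha]
      field_simp
      ring
  have hr := det_rank2 c a 1 (fun i => 1 / ((n:ℝ) + 1) - p i)
  have hs1 : ∑ i : Fin n, (1 / ((n:ℝ) + 1) - p i) = n / ((n:ℝ) + 1) - ∑ i, p i := by
    rw [Finset.sum_sub_distrib, Finset.sum_const, Finset.card_univ, Fintype.card_fin,
      nsmul_eq_mul]
    ring
  have hs2 : ∑ i : Fin n, (1 / ((n:ℝ) + 1) - p i) ^ 2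
      = n / ((n:ℝ) + 1) ^ 2 - 2 / ((n:ℝ) + 1) * ∑ i, p i + ∑ i, p i ^ 2 := by
    have e : ∀ i : Fin n, (1 / ((n:ℝ) + 1) - p i) ^ 2
        = 1 / ((n:ℝ) + 1) ^ 2 - 2 / ((n:ℝ) + 1) * p i + p i ^ 2 := by
      intro i; field_simp; ring
    simp_rw [e]
    rw [Finset.sum_add_distrib, Finset.sum_sub_distrib, Finset.sum_const, Finset.card_univ,
      Fintype.card_fin, nsmul_eq_mul, ← Finset.mul_sum]
    ring
  rw [hs1, hs2] at hr
  have hc2 : c ^ 2 ≠ 0 := by rw [hc]; positivity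
  have hdet := eq_div_of_mul_eq hc2 hr
  have hcn : c ^ n = 1 / (((n:ℝ) + 1) ^ n * ((n:ℝ) + 2) ^ n) := by
    rw [hc, one_div_pow, mul_pow]
  rw [muAt, hmat, hdet, hcn, shiftedSimplex_vol, lam_solidSimplex, defect, hc, ha, pow_succ]
  field_simp
  ring

theorem good_base (p : Fin n → ℝ) : GoodAt n (shiftedSimplex n p) 0 (defect p) 1 1 :=
  ⟨by rw [shiftedSimplex_lam]; ring, shiftedSimplex_mu p⟩

end Vale.Agent.Lib.P254
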