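import Vale.Agent.Lib.P254.TowerMain
import Vale.Agent.Lib.P254.BipIntrinsic

namespace Vale.Agent.Lib.P254
open Set

variable {n : ℕ}

theorem max_eq_add_max_neg (x : ℝ) : max x 0 = x + max (-x) 0 := by
  rcases le_total x 0 with h | h
  · rw [max_eq_right h, max_eq_left (by linarith)]; ring
  · rw [max_eq_left h, max_eq_right (by linarith)]; ring

/-- the factor `1 - (1 - A/P^2)(1 - B/P^2)` with `P = ∑ c_i^+`, `A = ∑ (c_i^+)^2`,
`B = 1 + ∑ (c_i^-)^2` -/
noncomputable def plusFactor {m : ℕ} (c : Fin m → ℝ) : ℝ :=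
  1 - (1 - (∑ i, (max (c i) 0) ^ 2) / (∑ i, max (c i) 0) ^ 2)
      * (1 - (1 + ∑ i, (min (c i) 0) ^ 2) / (∑ i, max (c i) 0) ^ 2)

theorem plus_core {u : Fin (n + 2) → (Fin (n + 1) → ℝ)} {c : Fin (n + 2) → ℝ}
    (hind : AffineIndependent ℝ u) (hc1 : ∑ i, c i = 1) (hc0 : 0 < c 0) :
    IsConvexBody (convexHull ℝ (insert (∑ i, c i • u i) (range u))) ∧
    lam (convexHull ℝ (insert (∑ i, c i • u i) (range u)))
      = lam (solidSimplex (n + 1)) * plusFactor c := by
  set θ : Fin (n + 1) → ℝ := fun i => c i.succ with hθ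
  have hsum : ∑ i, θ i = 1 - c 0 := by
    rw [Fin.sum_univ_succ] at hc1
    simp only [hθ]
    linarith
  have hpos : 0 < 1 - ∑ i, θ i := by rw [hsum]; linarith
  have hz : affMap (edgeMat (n + 1) u) (u 0) θ = ∑ i, c i • u i := by
    ext r
    rw [edge_apply]
    simp only [Finset.sum_apply, Pi.smul_apply, smul_eq_mul]
    rw [Fin.sum_univ_succ (fun i => c i * u i r)]
    have e : ∀ i : Fin (n + 1), (u i.succ r - u 0 r) * θ i
        = c i.succ * u i.succ r - θ i * u 0 r := by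
      intro i; simp only [hθ]; ring
    simp_rw [e]
    rw [Finset.sum_sub_distrib, ← Finset.sum_mul, hsum]
    ring
  have hcomp : (affMap (edgeMat (n + 1) u) (u 0) ∘ sVert (n + 1)) = u :=
    funext fun j => edge_sVert u j
  have himg : convexHull ℝ (insert (∑ i, c i • u i) (range u))
      = affMap (edgeMat (n + 1) u) (u 0) '' simplexPlus (n + 1) θ := by
    unfold simplexPlus
    rw [affMap_image_convexHull, image_insert_eq, ← range_comp, hcomp, hz]
  have hbody := simplexPlus_body θ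
  have hgood := (simplexPlus_good (n + 1) θ hpos).1
  refine ⟨?_, ?_⟩
  · rw [himg]; exact affine_body (edge_det_ne hind) _ hbody
  · rw [himg, affine_lam (edge_det_ne hind) _ hbody.1 (vol_pos_of_body hbody).ne', hgood]
    congr 1
    have hP : ∑ i, max (c i) 0 = Spar θ := by
      unfold Spar
      rw [Fin.sum_univ_succ, max_eq_left hc0.le,
        Finset.sum_congr rfl (fun (i : Fin (n + 1)) _ => max_eq_add_max_neg (c i.succ)),
        Finset.sum_add_distrib]
      have : ∑ i : Fin (n + 1), c i.succ = ∑ i, θ i := rfl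
      rw [this, hsum]
      simp only [hθ]
      ring
    have hB : ∑ i, (min (c i) 0) ^ 2 = ∑ i, (min (θ i) 0) ^ 2 := by
      rw [Fin.sum_univ_succ, min_eq_right hc0.le]
      simp [hθ]
    have hA : ∑ i, (max (c i) 0) ^ 2 = (1 - ∑ i, θ i) ^ 2 + ∑ i, (max (θ i) 0) ^ 2 := by
      rw [Fin.sum_univ_succ, max_eq_left hc0.le, hsum]
      simp [hθ]
    unfold plusFactor aPar GPar
    rw [hP, hB, hA]
    ring

theorem plus_general {u : Fin (n + 2) → (Fin (n + 1) → ℝ)} {c : Fin (n + 2) → ℝ}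
    (hind : AffineIndependent ℝ u) (hc1 : ∑ i, c i = 1) :
    IsConvexBody (convexHull ℝ (insert (∑ i, c i • u i) (range u))) ∧
    lam (convexHull ℝ (insert (∑ i, c i • u i) (range u)))
      = lam (solidSimplex (n + 1)) * plusFactor c := by
  have hex : ∃ i, 0 < c i := by
    by_contra h
    push_neg at h
    have : ∑ i, c i ≤ 0 := Finset.sum_nonpos (fun i _ => h i)
    linarith
  obtain ⟨i, hi⟩ := hex
  have hind' : AffineIndependent ℝ (u ∘ Equiv.swap 0 i) :=
    hind.comp_embedding (Equiv.swap 0 i).toEmbedding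
  have hc1' : ∑ j, (c ∘ Equiv.swap 0 i) j = 1 := by
    simp only [Function.comp_apply]
    rw [Equiv.sum_comp (Equiv.swap 0 i) c]; exact hc1
  have hc0' : 0 < (c ∘ Equiv.swap 0 i) 0 := by simpa using hi
  have h := plus_core hind' hc1' hc0'
  have e1 : ∑ j, (c ∘ Equiv.swap 0 i) j • (u ∘ Equiv.swap 0 i) j = ∑ j, c j • u j := by
    simp only [Function.comp_apply]
    exact Equiv.sum_comp (Equiv.swap 0 i) (fun j => c j • u j)
  have e2 : range (u ∘ Equiv.swap 0 i) = range u := (Equiv.swap 0 i).surjective.range_comp u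
  have e3 : plusFactor (c ∘ Equiv.swap 0 i) = plusFactor c := by
    unfold plusFactor
    simp only [Function.comp_apply]
    rw [Equiv.sum_comp (Equiv.swap 0 i) (fun j => (max (c j) 0) ^ 2),
      Equiv.sum_comp (Equiv.swap 0 i) (fun j => max (c j) 0),
      Equiv.sum_comp (Equiv.swap 0 i) (fun j => (min (c j) 0) ^ 2)]
  rw [e1, e2, e3] at h
  exact h

theorem sq_sum_eq_iff {m : ℕ} (x : Fin m → ℝ) (hx0 : ∀ i, 0 ≤ x i) (hpos : 0 < ∑ i, x i) :
    ∑ i, x i ^ 2 = (∑ i, x i) ^ 2 ↔ ∃ i, ∀ j, j ≠ i → x j = 0 := by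
  constructor
  · intro hA
    have hle : ∀ k, x k ≤ ∑ i, x i := fun k =>
      Finset.single_le_sum (fun j _ => hx0 j) (Finset.mem_univ k)
    have hterm : ∀ k, 0 ≤ x k * (∑ i, x i - x k) := fun k =>
      mul_nonneg (hx0 k) (by linarith [hle k])
    have hsum : ∑ k, x k * (∑ i, x i - x k) = 0 := by
      have : ∑ k, x k * (∑ i, x i - x k) = (∑ i, x i) ^ 2 - ∑ k, x k ^ 2 := by
        simp_rw [mul_sub]
        rw [Finset.sum_sub_distrib, ← Finset.sum_mul, sq]
        congr 1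
        apply Finset.sum_congr rfl; intro k _; ring
      rw [this, hA]; ring
    have hex : ∃ i, 0 < x i := by
      by_contra h
      push_neg at h
      have : ∑ i, x i ≤ 0 := Finset.sum_nonpos (fun i _ => h i)
      linarith
    obtain ⟨i, hi⟩ := hex
    have hi0 := (Finset.sum_eq_zero_iff_of_nonneg (fun k _ => hterm k)).mp hsum i
      (Finset.mem_univ i)
    have hPi : ∑ k, x k = x i := by
      rcases mul_eq_zero.mp hi0 with h | h
      · exact absurd h hi.ne'
      · linarith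
    refine ⟨i, fun j hj => ?_⟩
    have hpair : x i + x j ≤ ∑ k, x k := by
      have := Finset.sum_le_sum_of_subset_of_nonneg (Finset.subset_univ {i, j})
        (fun k _ _ => hx0 k)
      rwa [Finset.sum_pair (Ne.symm hj)] at this
    have := hx0 j
    linarith
  · rintro ⟨i, hz⟩
    have e1 : ∑ k, x k = x i := Finset.sum_eq_single i (fun j _ hj => hz j hj) (by simp)
    have e2 : ∑ k, x k ^ 2 = x i ^ 2 :=
      Finset.sum_eq_single i (fun j _ hj => by rw [hz j hj]; ring) (by simp)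
    rw [e1, e2]

section
variable {m : ℕ} {c : Fin m → ℝ} (hc1 : ∑ i, c i = 1)
include hc1

theorem plus_P : ∑ i, max (c i) 0 = 1 + ∑ i, max (-c i) 0 := by
  rw [Finset.sum_congr rfl (fun (i : Fin m) _ => max_eq_add_max_neg (c i)),
    Finset.sum_add_distrib, hc1]

theorem plus_P_ge : 1 ≤ ∑ i, max (c i) 0 := by
  rw [plus_P hc1]
  have := Finset.sum_nonneg (fun (i : Fin m) (_ : i ∈ Finset.univ) => le_max_right (-c i) 0)
  linarith

theorem plus_A_le : ∑ i, (max (c i) 0) ^ 2 ≤ (∑ i, max (c i) 0) ^ 2 :=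
  sum_sq_le_sq_sum _ (fun i => le_max_right _ _)

theorem plus_B_le : 1 + ∑ i, (min (c i) 0) ^ 2 ≤ (∑ i, max (c i) 0) ^ 2 := by
  rw [plus_P hc1]
  have h1 : ∑ i, (min (c i) 0) ^ 2 ≤ (∑ i, max (-c i) 0) ^ 2 := by
    simp_rw [min_sq_eq]
    exact sum_sq_le_sq_sum _ (fun i => le_max_right _ _)
  have := Finset.sum_nonneg (fun (i : Fin m) (_ : i ∈ Finset.univ) => le_max_right (-c i) 0)
  nlinarith

theorem plusFactor_le_one : plusFactor c ≤ 1 := by
  have hP := plus_P_ge hc1
  have hP2 : 0 < (∑ i, max (c i) 0) ^ 2 := by positivity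
  have h1 : (∑ i, (max (c i) 0) ^ 2) / (∑ i, max (c i) 0) ^ 2 ≤ 1 := by
    rw [div_le_one hP2]; exact plus_A_le hc1
  have h2 : (1 + ∑ i, (min (c i) 0) ^ 2) / (∑ i, max (c i) 0) ^ 2 ≤ 1 := by
    rw [div_le_one hP2]; exact plus_B_le hc1
  unfold plusFactor
  nlinarith [mul_nonneg (sub_nonneg.mpr h1) (sub_nonneg.mpr h2)]

theorem plusFactor_eq_one_iff :
    plusFactor c = 1 ↔ (∑ i, (max (c i) 0) ^ 2 = (∑ i, max (c i) 0) ^ 2 ∨
      1 + ∑ i, (min (c i) 0) ^ 2 = (∑ i, max (c i) 0) ^ 2) := by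
  have hP := plus_P_ge hc1
  have hP2 : (∑ i, max (c i) 0) ^ 2 ≠ 0 := by positivity
  unfold plusFactor
  constructor
  · intro h
    have h0 : (1 - (∑ i, (max (c i) 0) ^ 2) / (∑ i, max (c i) 0) ^ 2)
        * (1 - (1 + ∑ i, (min (c i) 0) ^ 2) / (∑ i, max (c i) 0) ^ 2) = 0 := by linarith
    rcases mul_eq_zero.mp h0 with h1 | h1
    · left
      have : (∑ i, (max (c i) 0) ^ 2) / (∑ i, max (c i) 0) ^ 2 = 1 := by linarith
      exact (div_eq_one_iff_eq hP2).mp this
    · right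
      have : (1 + ∑ i, (min (c i) 0) ^ 2) / (∑ i, max (c i) 0) ^ 2 = 1 := by linarith
      exact (div_eq_one_iff_eq hP2).mp this
  · rintro (h | h)
    · rw [h, div_self hP2]; ring
    · rw [h, div_self hP2]; ring

theorem plus_A_eq_iff :
    ∑ i, (max (c i) 0) ^ 2 = (∑ i, max (c i) 0) ^ 2 ↔ ∃ i, ∀ j, j ≠ i → c j ≤ 0 := by
  have hP := plus_P_ge hc1
  rw [sq_sum_eq_iff (fun i => max (c i) 0) (fun i => le_max_right _ _) (by linarith)]
  constructor
  · rintro ⟨i, hi⟩
    exact ⟨i, fun j hj => max_eq_right_iff.mp (hi j hj)⟩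
  · rintro ⟨i, hi⟩
    exact ⟨i, fun j hj => max_eq_right (hi j hj)⟩

theorem plus_B_eq_iff :
    1 + ∑ i, (min (c i) 0) ^ 2 = (∑ i, max (c i) 0) ^ 2 ↔ ∀ i, 0 ≤ c i := by
  rw [plus_P hc1]
  have hy0 : ∀ i, 0 ≤ max (-c i) 0 := fun i => le_max_right _ _
  have hY := Finset.sum_nonneg (fun (i : Fin m) (_ : i ∈ Finset.univ) => hy0 i)
  constructor
  · intro h
    have h1 : ∑ i, (min (c i) 0) ^ 2 ≤ (∑ i, max (-c i) 0) ^ 2 := by
      simp_rw [min_sq_eq]
      exact sum_sq_le_sq_sum _ hy0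
    have hz : ∑ i, max (-c i) 0 = 0 := by nlinarith
    intro i
    have := (Finset.sum_eq_zero_iff_of_nonneg (fun k _ => hy0 k)).mp hz i (Finset.mem_univ i)
    have h2 := max_eq_right_iff.mp this
    linarith
  · intro h
    have e1 : ∀ i, min (c i) 0 = 0 := fun i => min_eq_right (h i)
    have e2 : ∀ i, max (-c i) 0 = 0 := fun i => max_eq_right (by linarith [h i])
    simp [e1, e2]

end

theorem plus_final {u : Fin (n + 2) → (Fin (n + 1) → ℝ)} {c : Fin (n + 2) → ℝ}
    (hind : AffineIndependent ℝ u) (hc1 : ∑ i, c i = 1) :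
    IsConvexBody (convexHull ℝ (insert (∑ i, c i • u i) (range u))) ∧
    isoConst (convexHull ℝ (insert (∑ i, c i • u i) (range u))) ^ (2 * (n + 1))
      = isoConst (solidSimplex (n + 1)) ^ (2 * (n + 1)) * plusFactor c ∧
    isoConst (convexHull ℝ (insert (∑ i, c i • u i) (range u)))
      ≤ isoConst (solidSimplex (n + 1)) ∧
    (isoConst (convexHull ℝ (insert (∑ i, c i • u i) (range u)))
        = isoConst (solidSimplex (n + 1)) ↔
      ((∀ i, 0 ≤ c i) ∨ ∃ i, ∀ j, j ≠ i → c j ≤ 0)) := by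
  obtain ⟨hbody, hlam⟩ := plus_general hind hc1
  have hpos := lam_solidSimplex_pos (n + 1)
  have hS := lam_nonneg_body (solidSimplex_body (n + 1))
  have hK := lam_nonneg_body hbody
  refine ⟨hbody, ?_, ?_, ?_⟩
  · rw [isoConst_pow (Nat.succ_ne_zero n) hK, isoConst_pow (Nat.succ_ne_zero n) hS, hlam]
  · rw [isoConst_le_iff (Nat.succ_ne_zero n) hK hS, hlam]
    have := plusFactor_le_one hc1
    nlinarith
  · rw [isoConst_eq_iff (Nat.succ_ne_zero n) hK hS, hlam]
    constructor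
    · intro h
      have h1 : plusFactor c = 1 := mul_left_cancel₀ hpos.ne' (h.trans (mul_one _).symm)
      rcases (plusFactor_eq_one_iff hc1).mp h1 with h2 | h2
      · right; exact (plus_A_eq_iff hc1).mp h2
      · left; exact (plus_B_eq_iff hc1).mp h2
    · intro h
      have h1 : plusFactor c = 1 := by
        rcases h with h | h
        · exact (plusFactor_eq_one_iff hc1).mpr (Or.inr ((plus_B_eq_iff hc1).mpr h))
        · exact (plusFactor_eq_one_iff hc1).mpr (Or.inl ((plus_A_eq_iff hc1).mpr h))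
      rw [h1, mul_one]

end Vale.Agent.Lib.P254
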