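import Vale.Agent.Lib.P254.TowerGeom2

namespace Vale.Agent.Lib.P254
open MeasureTheory Set

variable {n : ℕ}

/-- `1 + ∑ max(-θ_i, 0)` -/
noncomputable def Spar (θ : Fin n → ℝ) : ℝ := 1 + ∑ i, max (-θ i) 0

noncomputable def aPar (θ : Fin n → ℝ) : ℝ := 1 - (1 + ∑ i, (min (θ i) 0) ^ 2) / Spar θ ^ 2

noncomputable def GPar (θ : Fin n → ℝ) : ℝ :=
  ((1 - ∑ i, θ i) ^ 2 + ∑ i, (max (θ i) 0) ^ 2) / Spar θ ^ 2

noncomputable def gPar (θ : Fin n → ℝ) : ℝ := (1 - ∑ i, θ i) / Spar θ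

theorem sum_sq_le_sq_sum {ι : Type*} [Fintype ι] (m : ι → ℝ) (hm : ∀ i, 0 ≤ m i) :
    ∑ i, m i ^ 2 ≤ (∑ i, m i) ^ 2 := by
  calc ∑ i, m i ^ 2 ≤ ∑ i, m i * ∑ j, m j := by
        apply Finset.sum_le_sum
        intro i _
        rw [sq]
        exact mul_le_mul_of_nonneg_left
          (Finset.single_le_sum (fun j _ => hm j) (Finset.mem_univ i)) (hm i)
    _ = (∑ i, m i) ^ 2 := by rw [← Finset.sum_mul, sq]

theorem min_sq_eq (x : ℝ) : (min x 0) ^ 2 = (max (-x) 0) ^ 2 := by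
  rcases le_total x 0 with h | h
  · rw [min_eq_left h, max_eq_left (by linarith)]; ring
  · rw [min_eq_right h, max_eq_right (by linarith)]

theorem Spar_ge (θ : Fin n → ℝ) : 1 ≤ Spar θ := by
  unfold Spar
  have := Finset.sum_nonneg (fun (i : Fin n) (_ : i ∈ Finset.univ) => le_max_right (-θ i) 0)
  linarith

theorem aPar_nonneg (θ : Fin n → ℝ) : 0 ≤ aPar θ := by
  have hS := Spar_ge θ
  have hm : ∑ i, (min (θ i) 0) ^ 2 ≤ (∑ i, max (-θ i) 0) ^ 2 := by
    simp_rw [min_sq_eq]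
    exact sum_sq_le_sq_sum _ (fun i => le_max_right _ _)
  have hnn := Finset.sum_nonneg (fun (i : Fin n) (_ : i ∈ Finset.univ) => le_max_right (-θ i) 0)
  have hB : 1 + ∑ i, (min (θ i) 0) ^ 2 ≤ Spar θ ^ 2 := by
    unfold Spar
    nlinarith
  unfold aPar
  have : (1 + ∑ i, (min (θ i) 0) ^ 2) / Spar θ ^ 2 ≤ 1 := by
    rw [div_le_one (by positivity)]; exact hB
  linarith

theorem aPar_lt_one (θ : Fin n → ℝ) : aPar θ < 1 := by
  have hS := Spar_ge θ
  have hB : 0 < 1 + ∑ i, (min (θ i) 0) ^ 2 := by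
    have := Finset.sum_nonneg (fun (i : Fin n) (_ : i ∈ Finset.univ) => sq_nonneg (min (θ i) 0))
    linarith
  unfold aPar
  have : 0 < (1 + ∑ i, (min (θ i) 0) ^ 2) / Spar θ ^ 2 := div_pos hB (by positivity)
  linarith

theorem GPar_nonneg (θ : Fin n → ℝ) : 0 ≤ GPar θ := by
  unfold GPar
  exact div_nonneg (add_nonneg (sq_nonneg _) (Finset.sum_nonneg fun i _ => sq_nonneg _))
    (sq_nonneg _)

theorem X_pos (θ : Fin n → ℝ) : 0 < 1 - aPar θ * (1 - GPar θ) := by
  have h1 := aPar_nonneg θ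
  have h2 := aPar_lt_one θ
  have h3 := GPar_nonneg θ
  nlinarith [mul_nonneg h1 h3]

theorem simplexPlus_good_base {θ : Fin n → ℝ} (hθ : ∀ i, θ i ≤ 0) :
    GoodAt n (simplexPlus n θ) 0 (aPar θ) (GPar θ) (gPar θ) := by
  obtain ⟨hp, hpne, himg⟩ := simplexPlus_base hθ
  have hb := good_base (fun i => -θ i / (1 - ∑ j, θ j))
  rw [himg] at hb
  have h0 : affMap (baseMat n (fun i => -θ i / (1 - ∑ j, θ j))) 0 0 = 0 := by simp [affMap]
  have hb' : GoodAt n (affMap (baseMat n (fun i => -θ i / (1 - ∑ j, θ j))) 0 '' simplexPlus n θ)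
      (affMap (baseMat n (fun i => -θ i / (1 - ∑ j, θ j))) 0 0)
      (defect (fun i => -θ i / (1 - ∑ j, θ j))) 1 1 := by
    rw [h0]; exact hb
  have hg := (good_affine_iff (baseMat_det_ne hpne) 0 (simplexPlus_body θ).1
    (vol_pos_of_body (simplexPlus_body θ)).ne' 0 _ _ _).mp hb'
  have hs0 : 0 < 1 - ∑ j, θ j := by
    have : ∑ j, θ j ≤ 0 := Finset.sum_nonpos (fun j _ => hθ j)
    linarith
  have hS : Spar θ = 1 - ∑ j, θ j := by
    unfold Spar
    have : ∀ i, max (-θ i) 0 = -θ i := fun i => max_eq_left (by linarith [hθ i])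
    simp_rw [this]
    rw [Finset.sum_neg_distrib]
    ring
  have hG : GPar θ = 1 := by
    unfold GPar
    have : ∀ i, max (θ i) 0 = 0 := fun i => max_eq_right (hθ i)
    simp_rw [this]
    rw [hS]
    simp only [ne_eq, OfNat.ofNat_ne_zero, not_false_eq_true, zero_pow, Finset.sum_const_zero,
      add_zero]
    exact div_self (by positivity)
  have hgp : gPar θ = 1 := by
    unfold gPar
    rw [hS]
    exact div_self hs0.ne'
  have ha : aPar θ = defect (fun i => -θ i / (1 - ∑ j, θ j)) := by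
    unfold aPar
    simp only [defect]
    have : ∀ i, min (θ i) 0 = θ i := fun i => min_eq_left (hθ i)
    simp_rw [this]
    rw [hS]
    have e1 : ∑ i, -θ i / (1 - ∑ j, θ j) = -(∑ i, θ i) / (1 - ∑ j, θ j) := by
      rw [← Finset.sum_div, Finset.sum_neg_distrib]
    have e2 : ∑ i, (-θ i / (1 - ∑ j, θ j)) ^ 2 = (∑ i, θ i ^ 2) / (1 - ∑ j, θ j) ^ 2 := by
      simp_rw [div_pow, neg_sq]
      rw [Finset.sum_div]
    rw [e1, e2]
    have hne := hs0.ne'
    field_simp
    ring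
  rw [ha, hG, hgp]
  exact hg

theorem algG (g c S M : ℝ) (hg : g ≠ 0) (hc : c ≠ 0) (hS : S ≠ 0) :
    ((g - c) ^ 2 + (c ^ 2 + M)) / S ^ 2
      = (g ^ 2 + M) / S ^ 2 - 2 * (g / S) ^ 2 * (g / c - 1) / (1 + (g / c - 1)) ^ 2 := by
  have h1 : 1 + (g / c - 1) = g / c := by ring
  rw [h1]
  field_simp
  ring

theorem algg (g c S : ℝ) (hg : g ≠ 0) (hc : c ≠ 0) (hS : S ≠ 0) :
    (g - c) / S = g / S * (g / c - 1) / (1 + (g / c - 1)) := by
  have h1 : 1 + (g / c - 1) = g / c := by ring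
  rw [h1]
  field_simp

theorem simplexPlus_good : ∀ (n : ℕ) (θ : Fin n → ℝ), 0 < 1 - ∑ i, θ i →
    GoodAt n (simplexPlus n θ) 0 (aPar θ) (GPar θ) (gPar θ) := by
  intro n
  induction n with
  | zero =>
    intro θ _
    exact simplexPlus_good_base (fun i => i.elim0)
  | succ m ih =>
    intro θ hθ
    by_cases hall : ∀ i, θ i ≤ 0
    · exact simplexPlus_good_base hall
    · push_neg at hall
      obtain ⟨i, hi⟩ := hall
      have hc : (θ ∘ Equiv.swap 0 i) 0 = θ i := by simp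
      have hsum1 : ∑ j, (θ ∘ Equiv.swap 0 i) j = ∑ j, θ j := Equiv.sum_comp (Equiv.swap 0 i) θ
      have hsum' : ∑ j, (θ ∘ Equiv.swap 0 i) j
          = θ i + ∑ j : Fin m, (θ ∘ Equiv.swap 0 i) j.succ := by
        rw [Fin.sum_univ_succ, hc]
      have hcons : (θ ∘ Equiv.swap 0 i)
          = Fin.cons (θ i) (fun j : Fin m => (θ ∘ Equiv.swap 0 i) j.succ) := by
        ext j
        refine Fin.cases ?_ (fun k => ?_) j
        · rw [hc]; simp
        · simp
      set θ' : Fin m → ℝ := fun j => (θ ∘ Equiv.swap 0 i) j.succ with hθ'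
      have hg' : 0 < 1 - ∑ j, θ' j := by linarith
      have hcg : θ i < 1 - ∑ j, θ' j := by linarith
      have ht : 0 < (1 - ∑ j, θ' j) / θ i - 1 := by
        have : 1 < (1 - ∑ j, θ' j) / θ i := by rw [lt_div_iff₀ hi]; linarith
        linarith
      have hbody' := simplexPlus_body θ'
      have hstep := good_step ht hbody'.1 (vol_pos_of_body hbody').ne' (X_pos θ') (ih θ' hg')
      rw [simplexPlus_step θ' hi hcg, ← hcons] at hstep
      have hA0 : affMap (stepMat m ((1 - ∑ j, θ' j) / θ i - 1)) (apexUp m) 0 = apexUp m := by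
        simp [affMap]
      have hbody1 := simplexPlus_body (θ ∘ Equiv.swap 0 i)
      have hstep' : GoodAt (m + 1)
          (affMap (stepMat m ((1 - ∑ j, θ' j) / θ i - 1)) (apexUp m) ''
            simplexPlus (m + 1) (θ ∘ Equiv.swap 0 i))
          (affMap (stepMat m ((1 - ∑ j, θ' j) / θ i - 1)) (apexUp m) 0) (aPar θ')
          (GPar θ' - 2 * gPar θ' ^ 2 * ((1 - ∑ j, θ' j) / θ i - 1)
            / (1 + ((1 - ∑ j, θ' j) / θ i - 1)) ^ 2)
          (gPar θ' * ((1 - ∑ j, θ' j) / θ i - 1) / (1 + ((1 - ∑ j, θ' j) / θ i - 1))) := by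
        rw [hA0]; exact hstep
      have h1 := (good_affine_iff (stepMat_det_ne ht) (apexUp m) hbody1.1
        (vol_pos_of_body hbody1).ne' 0 _ _ _).mp hstep'
      rw [simplexPlus_perm] at h1
      have hP0 : affMap (permMat (Equiv.swap 0 i)) 0 (0 : Fin (m + 1) → ℝ) = 0 := by
        simp [affMap]
      have h1' : GoodAt (m + 1) (affMap (permMat (Equiv.swap 0 i)) 0 '' simplexPlus (m + 1) θ)
          (affMap (permMat (Equiv.swap 0 i)) 0 0) (aPar θ')
          (GPar θ' - 2 * gPar θ' ^ 2 * ((1 - ∑ j, θ' j) / θ i - 1)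
            / (1 + ((1 - ∑ j, θ' j) / θ i - 1)) ^ 2)
          (gPar θ' * ((1 - ∑ j, θ' j) / θ i - 1) / (1 + ((1 - ∑ j, θ' j) / θ i - 1))) := by
        rw [hP0]; exact h1
      have h2 := (good_affine_iff (permMat_det_ne (Equiv.swap 0 i)) 0 (simplexPlus_body θ).1
        (vol_pos_of_body (simplexPlus_body θ)).ne' 0 _ _ _).mp h1'
      -- parameter bookkeeping
      have hsplit : ∀ f : ℝ → ℝ, ∑ j, f (θ j) = f (θ i) + ∑ j, f (θ' j) := by
        intro f
        rw [← Equiv.sum_comp (Equiv.swap 0 i) (fun j => f (θ j)), Fin.sum_univ_succ]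
        simp [hθ']
      have hS : Spar θ = Spar θ' := by
        unfold Spar
        rw [hsplit (fun x => max (-x) 0), max_eq_right (by linarith)]
        ring
      have hSpos : 0 < Spar θ' := by linarith [Spar_ge θ']
      have hmin : ∑ j, (min (θ j) 0) ^ 2 = ∑ j, (min (θ' j) 0) ^ 2 := by
        rw [hsplit (fun x => (min x 0) ^ 2), min_eq_right hi.le]
        ring
      have hmax : ∑ j, (max (θ j) 0) ^ 2 = θ i ^ 2 + ∑ j, (max (θ' j) 0) ^ 2 := by
        rw [hsplit (fun x => (max x 0) ^ 2), max_eq_left hi.le]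
      have hsumθ : 1 - ∑ j, θ j = (1 - ∑ j, θ' j) - θ i := by linarith
      have ha : aPar θ = aPar θ' := by
        unfold aPar
        rw [hS, hmin]
      have hne1 := hg'.ne'
      have hne2 := hi.ne'
      have hne3 := hSpos.ne'
      have hG : GPar θ = GPar θ' - 2 * gPar θ' ^ 2 * ((1 - ∑ j, θ' j) / θ i - 1)
            / (1 + ((1 - ∑ j, θ' j) / θ i - 1)) ^ 2 := by
        unfold GPar gPar
        rw [hS, hmax, hsumθ]
        exact algG _ _ _ _ hne1 hne2 hne3
      have hgp : gPar θ = gPar θ' * ((1 - ∑ j, θ' j) / θ i - 1)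
          / (1 + ((1 - ∑ j, θ' j) / θ i - 1)) := by
        unfold gPar
        rw [hS, hsumθ]
        exact algg _ _ _ hne1 hne2 hne3
      rw [ha, hG, hgp]
      exact h2

end Vale.Agent.Lib.P254
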