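import Vale.Agent.Lib.P254.TowerIntrinsic

namespace Vale.Agent.Lib.P254
open Set

variable {n : ℕ}

/-- a convex body which is the convex hull of `n + 1` points of `ℝ^n` is a simplex -/
theorem isSimplex_of_body_hull {p : Fin (n + 1) → (Fin n → ℝ)}
    (hK : IsConvexBody (convexHull ℝ (range p))) : IsSimplex (convexHull ℝ (range p)) := by
  refine ⟨p, ?_, rfl⟩
  have hspan : affineSpan ℝ (range p) = ⊤ :=
    interior_convexHull_nonempty_iff_affineSpan_eq_top.mp hK.2.2
  have hvs : vectorSpan ℝ (range p) = ⊤ := by
    rw [← direction_affineSpan, hspan, AffineSubspace.direction_top]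
  have hcard : Fintype.card (Fin (n + 1)) = n + 1 := by simp
  rw [affineIndependent_iff_le_finrank_vectorSpan ℝ p hcard, hvs, finrank_top]
  simp

theorem plus_simplex_of_nonneg {u : Fin (n + 2) → (Fin (n + 1) → ℝ)} {c : Fin (n + 2) → ℝ}
    (hind : AffineIndependent ℝ u) (hc1 : ∑ i, c i = 1) (h : ∀ i, 0 ≤ c i) :
    IsSimplex (convexHull ℝ (insert (∑ i, c i • u i) (range u))) := by
  refine ⟨u, hind, ?_⟩
  have hz : ∑ i, c i • u i ∈ convexHull ℝ (range u) :=
    (convex_convexHull ℝ _).sum_mem (fun i _ => h i) hc1
      (fun i _ => subset_convexHull ℝ _ ⟨i, rfl⟩)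
  apply Subset.antisymm
  · apply convexHull_min _ (convex_convexHull ℝ _)
    rintro x (rfl | hx)
    · exact hz
    · exact subset_convexHull ℝ _ hx
  · exact convexHull_mono (subset_insert _ _)

theorem plus_simplex_of_one_pos {u : Fin (n + 2) → (Fin (n + 1) → ℝ)} {c : Fin (n + 2) → ℝ}
    (hind : AffineIndependent ℝ u) (hc1 : ∑ i, c i = 1) {i : Fin (n + 2)}
    (hi : ∀ j, j ≠ i → c j ≤ 0) :
    IsSimplex (convexHull ℝ (insert (∑ j, c j • u j) (range u))) := by
  classical
  have hbody := (plus_general hind hc1).1
  set z := ∑ j, c j • u j with hz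
  have hrest : ∑ k ∈ Finset.univ.erase i, c k = 1 - c i := by
    rw [← hc1, ← Finset.add_sum_erase _ _ (Finset.mem_univ i)]; ring
  have hci : 1 ≤ c i := by
    have h2 : ∑ j ∈ Finset.univ.erase i, c j ≤ 0 :=
      Finset.sum_nonpos (fun j hj => hi j (Finset.ne_of_mem_erase hj))
    linarith
  have hci0 : 0 < c i := by linarith
  have hui : u i ∈ convexHull ℝ (range (Function.update u i z)) := by
    let w : Fin (n + 2) → ℝ := fun k => if k = i then 1 / c i else -c k / c i
    have hw0 : ∀ k, 0 ≤ w k := by
      intro k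
      by_cases hk : k = i
      · simp only [w, hk, if_true]; positivity
      · simp only [w, hk, if_false]
        exact div_nonneg (by linarith [hi k hk]) hci0.le
    have hwi : w i = 1 / c i := by simp only [w, if_true]
    have hw1 : ∑ k, w k = 1 := by
      rw [← Finset.add_sum_erase _ _ (Finset.mem_univ i)]
      have : ∑ k ∈ Finset.univ.erase i, w k = ∑ k ∈ Finset.univ.erase i, -c k / c i :=
        Finset.sum_congr rfl (fun k hk => by
          simp only [w, Finset.ne_of_mem_erase hk, if_false])
      rw [this, ← Finset.sum_div, Finset.sum_neg_distrib, hrest, hwi]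
      field_simp
      ring
    have hsum : u i = ∑ k, w k • Function.update u i z k := by
      ext r
      simp only [Finset.sum_apply, Pi.smul_apply, smul_eq_mul]
      rw [← Finset.add_sum_erase _ _ (Finset.mem_univ i)]
      have e1 : ∑ k ∈ Finset.univ.erase i, w k * Function.update u i z k r
          = ∑ k ∈ Finset.univ.erase i, (-c k / c i) * u k r :=
        Finset.sum_congr rfl (fun k hk => by
          have hki := Finset.ne_of_mem_erase hk
          simp only [w, hki, if_false, Function.update_of_ne hki])
      rw [e1, hwi, Function.update_self]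
      have hzr : z r = c i * u i r + ∑ k ∈ Finset.univ.erase i, c k * u k r := by
        rw [hz]
        simp only [Finset.sum_apply, Pi.smul_apply, smul_eq_mul]
        rw [Finset.add_sum_erase _ (fun x => c x * u x r) (Finset.mem_univ i)]
      rw [hzr]
      have e2 : ∑ k ∈ Finset.univ.erase i, (-c k / c i) * u k r
          = -(1 / c i) * ∑ k ∈ Finset.univ.erase i, c k * u k r := by
        rw [Finset.mul_sum]
        apply Finset.sum_congr rfl
        intro k _
        ring
      rw [e2]
      field_simp
      ring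
    rw [hsum]
    exact (convex_convexHull ℝ _).sum_mem (fun k _ => hw0 k) hw1
      (fun k _ => subset_convexHull ℝ _ ⟨k, rfl⟩)
  have hKeq : convexHull ℝ (insert z (range u))
      = convexHull ℝ (range (Function.update u i z)) := by
    apply Subset.antisymm
    · apply convexHull_min _ (convex_convexHull ℝ _)
      rintro x (rfl | ⟨j, rfl⟩)
      · exact subset_convexHull ℝ _ ⟨i, by simp⟩
      · by_cases hj : j = i
        · rw [hj]; exact hui
        · exact subset_convexHull ℝ _ ⟨j, by simp [Function.update_of_ne hj]⟩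
    · apply convexHull_mono
      rintro x ⟨j, rfl⟩
      by_cases hj : j = i
      · left; rw [hj]; simp
      · right; exact ⟨j, by simp [Function.update_of_ne hj]⟩
  rw [hKeq] at hbody ⊢
  exact isSimplex_of_body_hull hbody

theorem plus_isSimplex_iff {u : Fin (n + 2) → (Fin (n + 1) → ℝ)} {c : Fin (n + 2) → ℝ}
    (hind : AffineIndependent ℝ u) (hc1 : ∑ i, c i = 1) :
    IsSimplex (convexHull ℝ (insert (∑ i, c i • u i) (range u))) ↔
      ((∀ i, 0 ≤ c i) ∨ ∃ i, ∀ j, j ≠ i → c j ≤ 0) := by
  constructor
  · intro h
    exact (plus_final hind hc1).2.2.2.mp (isoConst_of_isSimplex h)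
  · rintro (h | ⟨i, hi⟩)
    · exact plus_simplex_of_nonneg hind hc1 h
    · exact plus_simplex_of_one_pos hind hc1 hi

end Vale.Agent.Lib.P254
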