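import Vale.Agent.Lib.P254.Defs
import Vale.Agent.Lib.P254.Moments

namespace Vale.Agent.Lib.P254
open MeasureTheory Set
open scoped Pointwise

variable {n : ℕ}

/-- the measurable equivalence `ℝ^(n+1) ≃ ℝ × ℝ^n` splitting off coordinate `0`. -/
noncomputable def splitE (n : ℕ) : (Fin (n + 1) → ℝ) ≃ᵐ ℝ × (Fin n → ℝ) :=
  MeasurableEquiv.piFinSuccAbove (fun _ => ℝ) 0

theorem splitE_fst (x : Fin (n + 1) → ℝ) : (splitE n x).1 = x 0 := rfl

theorem splitE_snd (x : Fin (n + 1) → ℝ) (i : Fin n) : (splitE n x).2 i = x i.succ := by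
  simp [splitE, MeasurableEquiv.piFinSuccAbove, Fin.insertNthEquiv]
  rfl

theorem pyramid_eq_preimage (K : Set (Fin n → ℝ)) : pyramid K = splitE n ⁻¹' pyrProd K := by
  ext x
  simp only [pyramid, pyrProd, mem_setOf_eq, mem_preimage, splitE_fst]
  constructor
  · rintro ⟨h0, h1, k, hk, hx⟩
    refine ⟨h0, h1, ?_⟩
    rw [mem_smul_set]
    refine ⟨k, hk, ?_⟩
    ext i
    rw [splitE_snd, hx i]
    simp
  · rintro ⟨h0, h1, hmem⟩
    rw [mem_smul_set] at hmem
    obtain ⟨k, hk, hx⟩ := hmem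
    refine ⟨h0, h1, k, hk, fun i => ?_⟩
    have h2 := congrFun hx i
    rw [splitE_snd] at h2
    rw [← h2]
    simp [splitE_fst]

theorem integral_pyramid (K : Set (Fin n → ℝ)) (G : ℝ × (Fin n → ℝ) → ℝ) :
    ∫ x in pyramid K, G (splitE n x) = ∫ z in pyrProd K, G z := by
  rw [pyramid_eq_preimage]
  exact (volume_preserving_piFinSuccAbove (fun _ => ℝ) 0).setIntegral_preimage_emb
    (splitE n).measurableEmbedding G (pyrProd K)

theorem isCompact_pyramid {K : Set (Fin n → ℝ)} (hK : IsCompact K) : IsCompact (pyramid K) := by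
  have : pyramid K = (splitE n).symm '' pyrProd K := by
    rw [pyramid_eq_preimage]
    exact (MeasurableEquiv.image_symm (splitE n) (pyrProd K)).symm
  rw [this]
  apply (isCompact_pyrProd hK).image
  have : ((splitE n).symm : ℝ × (Fin n → ℝ) → Fin (n + 1) → ℝ)
      = fun z => Fin.insertNth 0 z.1 z.2 := by
    ext z i
    rfl
  rw [this]
  fun_prop

end Vale.Agent.Lib.P254
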